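import Crest.Agent.R290.WL
import Crest.Agent.Lib.PT.Code

/-!
# Row 290, task Codes: unique decoding of the codes

Plan.  `parseNat_natCode` gives `natCode a ++ r = natCode b ++ r' → a = b ∧ r = r'`; after `subst`, the
matrix blocks have length `n * n` (`List.append_inj`), and the block determines the matrix.
`bm n l` reads a bit list as a matrix; `bits_of G` is the block of `G`.
-/

set_option autoImplicit false

namespace Crest.Agent.R290

open Crest.WLRefine Crest.Enc

/-- the code of the matrix of a function on `ℕ` -/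
def codeF (n : ℕ) (f : ℕ → ℕ → Bool) : List Bool :=
  natCode n ++ (List.range n).flatMap fun i => (List.range n).map fun j => f i j

/-- a bit list read as an `n × n` matrix -/
def bm (n : ℕ) (l : List Bool) (i j : ℕ) : Bool := l.getD (i * n + j) false

/-- the matrix block of a code -/
def bitsOf {n : ℕ} (G : Fin n → Fin n → Bool) : List Bool :=
  (List.finRange n).flatMap fun v => (List.finRange n).map fun w => G v w

theorem adjMatrixCode_eq {n : ℕ} (G : Fin n → Fin n → Bool) :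
    adjMatrixCode G = natCode n ++ bitsOf G := rfl

theorem flat_range {α : Type} (m n : ℕ) (f : ℕ → ℕ → α) :
    ((List.range m).flatMap fun i => (List.range n).map fun j => f i j) =
      (List.range (m * n)).map fun k => f (k / n) (k % n) := by
  induction m with
  | zero => simp
  | succ m ih =>
    rw [List.range_succ, List.flatMap_append, ih, Nat.succ_mul, List.range_add, List.map_append,
      List.map_map, List.flatMap_singleton]
    refine congrArg _ (List.map_congr_left fun j hj => ?_)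
    have h := List.mem_range.1 hj
    simp [add_comm (m * n), Nat.add_mul_div_right _ _ (Nat.zero_lt_of_lt h), Nat.div_eq_of_lt h,
      Nat.mod_eq_of_lt h]

theorem bitsOf_mat (n : ℕ) (f : ℕ → ℕ → Bool) :
    bitsOf (mat n f) = (List.range (n * n)).map fun k => f (k / n) (k % n) := by
  rw [← flat_range, ← List.map_coe_finRange_eq_range, List.flatMap_map]
  simp only [List.map_map]
  rfl

theorem exists_mat {n : ℕ} (G : Fin n → Fin n → Bool) : ∃ f, G = mat n f :=
  ⟨fun i j => if h : i < n ∧ j < n then G ⟨i, h.1⟩ ⟨j, h.2⟩ else false, by ext i j; simp [mat]⟩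

theorem adjMatrixCode_mat (n : ℕ) (f : ℕ → ℕ → Bool) : adjMatrixCode (mat n f) = codeF n f := by
  rw [adjMatrixCode_eq, bitsOf_mat, codeF, flat_range]

theorem length_bitsOf {n : ℕ} (G : Fin n → Fin n → Bool) : (bitsOf G).length = n * n := by
  simp [bitsOf, List.length_flatMap]

theorem mat_bm_bitsOf {n : ℕ} (G : Fin n → Fin n → Bool) : mat n (bm n (bitsOf G)) = G := by
  obtain ⟨f, rfl⟩ := exists_mat G
  funext i j
  have h : i.val * n + j < n * n := by nlinarith [i.2, j.2]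
  have h1 : (i.val * n + j) / n = i := by
    rw [add_comm, Nat.add_mul_div_right _ _ i.pos, Nat.div_eq_of_lt j.2, zero_add]
  simp [mat, bm, bitsOf_mat, h, h1, Nat.mod_eq_of_lt j.2]

theorem bitsOf_mat_bm {n : ℕ} {l : List Bool} (h : l.length = n * n) : bitsOf (mat n (bm n l)) = l := by
  rw [bitsOf_mat]
  refine List.ext_getElem (by simp [h]) fun k _ hk => ?_
  simp [bm, Nat.div_add_mod', hk]

theorem length_pair_code {n : ℕ} (G H : Fin n → Fin n → Bool) :
    (adjMatrixCode G ++ adjMatrixCode H).length = 2 * ((natCode n).length + n * n) := by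
  simp only [adjMatrixCode_eq, List.length_append, length_bitsOf]; ring

theorem natCode_inj {a b : ℕ} {r r' : List Bool} (h : natCode a ++ r = natCode b ++ r') :
    a = b ∧ r = r' := by
  simpa [PTime.parseNat_natCode] using congrArg PTime.parseNat h

theorem adj_code_inj {n m : ℕ} {G : Fin n → Fin n → Bool} {H : Fin m → Fin m → Bool} {r r' : List Bool}
    (h : adjMatrixCode G ++ r = adjMatrixCode H ++ r') :
    (⟨n, G⟩ : Σ n, Fin n → Fin n → Bool) = ⟨m, H⟩ ∧ r = r' := by
  rw [adjMatrixCode_eq, adjMatrixCode_eq, List.append_assoc, List.append_assoc] at h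
  obtain ⟨rfl, h⟩ := natCode_inj h
  obtain ⟨h1, h2⟩ := List.append_inj h (by rw [length_bitsOf, length_bitsOf])
  exact ⟨by rw [← mat_bm_bitsOf G, h1, mat_bm_bitsOf], h2⟩

theorem pair_code_inj {n m n' m' : ℕ} {G : Fin n → Fin n → Bool} {H : Fin m → Fin m → Bool}
    {G' : Fin n' → Fin n' → Bool} {H' : Fin m' → Fin m' → Bool}
    (h : adjMatrixCode G ++ adjMatrixCode H = adjMatrixCode G' ++ adjMatrixCode H') :
    ((⟨n, G⟩, ⟨m, H⟩) : (Σ n, Fin n → Fin n → Bool) × Σ n, Fin n → Fin n → Bool) = (⟨n', G'⟩, ⟨m', H'⟩) :=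
  Prod.ext (adj_code_inj h).1
    (adj_code_inj (r := []) (r' := []) (by simpa using (adj_code_inj h).2)).1

theorem mem_jointEquivLang {k n m : ℕ} (G : Fin n → Fin n → Bool) (H : Fin m → Fin m → Bool) :
    adjMatrixCode G ++ adjMatrixCode H ∈ jointEquivLang k ↔
      IsSimple G ∧ IsSimple H ∧ JEquiv k G H := by
  refine ⟨fun ⟨_, _, _, _, h1, h2, h3, e⟩ => ?_, fun h => ⟨_, _, G, H, h.1, h.2.1, h.2.2, rfl⟩⟩
  cases pair_code_inj e
  exact ⟨h1, h2, h3⟩

theorem mem_sepEquivLang {k n m : ℕ} (G : Fin n → Fin n → Bool) (H : Fin m → Fin m → Bool) :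
    adjMatrixCode G ++ adjMatrixCode H ∈ sepEquivLang k ↔ IsSimple G ∧ IsSimple H ∧ SEquiv k G H := by
  refine ⟨fun ⟨_, _, _, _, h1, h2, h3, e⟩ => ?_, fun h => ⟨_, _, G, H, h.1, h.2.1, h.2.2, rfl⟩⟩
  cases pair_code_inj e
  exact ⟨h1, h2, h3⟩

theorem mem_varDimEquivLang {k n m : ℕ} (G : Fin n → Fin n → Bool) (H : Fin m → Fin m → Bool) :
    natCode k ++ adjMatrixCode G ++ adjMatrixCode H ∈ varDimEquivLang ↔
      2 ≤ k ∧ IsSimple G ∧ IsSimple H ∧ JEquiv k G H := by
  refine ⟨fun ⟨_, _, _, _, _, h0, h1, h2, h3, e⟩ => ?_,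
    fun h => ⟨k, _, _, G, H, h.1, h.2.1, h.2.2.1, h.2.2.2, rfl⟩⟩
  rw [List.append_assoc, List.append_assoc] at e
  obtain ⟨rfl, e'⟩ := natCode_inj e
  cases pair_code_inj e'
  exact ⟨h0, h1, h2, h3⟩

theorem mem_subcubicVarDimEquivLang {k n : ℕ} (G H : Fin n → Fin n → Bool) :
    natCode k ++ adjMatrixCode G ++ adjMatrixCode H ∈ subcubicVarDimEquivLang ↔
      2 ≤ k ∧ 0 < n ∧ SimpleConnSubcubic G ∧ SimpleConnSubcubic H ∧ JEquiv k G H := by
  refine ⟨fun ⟨_, _, _, _, h0, h1, h2, h3, h4, e⟩ => ?_,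
    fun h => ⟨k, _, G, H, h.1, h.2.1, h.2.2.1, h.2.2.2.1, h.2.2.2.2, rfl⟩⟩
  rw [List.append_assoc, List.append_assoc] at e
  obtain ⟨rfl, e'⟩ := natCode_inj e
  cases pair_code_inj e'
  exact ⟨h0, h1, h2, h3, h4⟩

theorem mem_wlDimLeLang {k n : ℕ} (G : Fin n → Fin n → Bool) :
    natCode k ++ adjMatrixCode G ∈ wlDimLeLang ↔
      1 ≤ k ∧ 0 < n ∧ IsSimple G ∧ ∃ k', 1 ≤ k' ∧ k' ≤ k ∧ Identifies k' G := by
  refine ⟨fun ⟨_, _, _, h0, h1, h2, h3, e⟩ => ?_, fun h => ⟨k, _, G, h.1, h.2.1, h.2.2.1, h.2.2.2, rfl⟩⟩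
  obtain ⟨rfl, e'⟩ := natCode_inj e
  cases (adj_code_inj (r := []) (r' := []) (by simpa using e')).1
  exact ⟨h0, h1, h2, h3⟩

end Crest.Agent.R290
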