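import Mathlib

/-!
# Row 290, task DiagNum: the numerics of the diagonal argument

Plan.  Take `c = 1 / (4800 (d + 1) (d₁ + 1))`, `k₀ = 2400 (3 d₁ + 10)` (or anything that works).  Let
`m` be least with `n ≤ (m + 2) ^ (d + 1)`, so `(m + 1) ^ (d + 1) < n` and `m → ∞` with `n`.
`n.size ≤ (d + 1) * (m + 2).size`, so for large `m`: `L + 2 ≤ 3 m`, `(3 m) ^ d < (m + 1) ^ (d + 1)`
once `3 ^ d ≤ m`; `T < n ^ (c k) ≤ (m ^ 2) ^ ((d + 1) c k) ≤ m ^ g` with
`g = k / (2400 (d₁ + 1)) + 1`; `L + C (T + 1) + 2 ≤ m ^ (g + 2)`, and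
`(g + 2) d₁ + 1 ≤ (k - 3) / 2 / 600`.
-/

set_option autoImplicit false

namespace Crest.Agent.R290

theorem size_small (d c₁ : ℕ) : ∃ m₀, ∀ m ≥ m₀, c₁ + 4 * ((d + 1) * (m + 2).size + 1) + 2 ≤ m := by
  -- `size (m+2) ≤ 2 * sqrt`-type bound via `t * t ≤ 2 ^ t`
  refine ⟨2 ^ (16 * (d + 1) + c₁ + 10), fun m hm => ?_⟩
  set t := (m + 2).size with ht
  have h1 : 2 ^ (t - 1) ≤ m + 2 := by
    have : 0 < t := Nat.size_pos.2 (by omega)
    exact Nat.lt_size.1 (by omega)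
  have h2 : 16 * (d + 1) + c₁ + 10 < t := Nat.lt_size.2 (by omega)
  have h3 : ∀ u : ℕ, 7 ≤ u → (u + 1) * (u + 1) ≤ 2 ^ u := by
    intro u hu
    induction u, hu using Nat.le_induction with
    | base => norm_num
    | succ u hu ih => rw [pow_succ]; nlinarith
  have h4 := h3 (t - 1) (by omega)
  have h5 : t - 1 + 1 = t := by omega
  rw [h5] at h4
  have h6 : (16 * (d + 1) + c₁ + 10) * t ≤ t * t := Nat.mul_le_mul_right _ h2.le
  nlinarith

theorem diag_num (d d₁ : ℕ) : ∃ c : ℝ, 0 < c ∧ ∃ k₀ : ℕ, ∀ k ≥ k₀, ∀ C c₁ : ℕ, ∃ n₀ : ℕ, ∀ n ≥ n₀,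
    ∀ T : ℕ, (T : ℝ) < (n : ℝ) ^ (c * k) → ∃ m : ℕ, 5 ≤ m ∧ ∀ L : ℕ, m ≤ L →
      L ≤ c₁ + 2 * m + 4 * n.size →
      (L + 2) ^ d < n ∧ n ≤ (L + 2) ^ (d + 1) ∧
        L + (L + C * (T + 1) + 2) ^ d₁ + 2 ≤ m ^ ((k - 3) / 2 / 600) := by
  refine ⟨1 / (4800 * (d + 1) * (d₁ + 1)), by positivity, 2400 * (3 * d₁ + 10), fun k hk C c₁ => ?_⟩
  obtain ⟨m₀, hm₀⟩ := size_small d c₁
  set M := max (max m₀ (3 ^ d)) (max 5 (2 * C + 3)) with hM
  refine ⟨(M + 2) ^ (d + 1) + 1, fun n hn T hT => ?_⟩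
  have hex : ∃ m, n ≤ (m + 2) ^ (d + 1) :=
    ⟨n, (by omega : n ≤ n + 2).trans (Nat.le_self_pow (by omega) _)⟩
  classical
  set m := Nat.find hex with hm
  have h1 : n ≤ (m + 2) ^ (d + 1) := Nat.find_spec hex
  have h2 : M < m := by
    by_contra h
    have := Nat.pow_le_pow_left (by omega : m + 2 ≤ M + 2) (d + 1)
    omega
  have h3 : (m + 1) ^ (d + 1) < n := by
    have := Nat.find_min hex (m := m - 1) (by omega)
    have e : m - 1 + 2 = m + 1 := by omega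
    rw [e] at this
    omega
  have hm0 : m₀ ≤ m := by have := le_max_left m₀ (3 ^ d); have := le_max_left (max m₀ (3 ^ d)) (max 5 (2 * C + 3)); omega
  have hm1 : 3 ^ d ≤ m := by have := le_max_right m₀ (3 ^ d); have := le_max_left (max m₀ (3 ^ d)) (max 5 (2 * C + 3)); omega
  have hm2 : 5 ≤ m := by have := le_max_left 5 (2 * C + 3); have := le_max_right (max m₀ (3 ^ d)) (max 5 (2 * C + 3)); omega
  have hm3 : 2 * C + 3 ≤ m := by have := le_max_right 5 (2 * C + 3); have := le_max_right (max m₀ (3 ^ d)) (max 5 (2 * C + 3)); omega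
  refine ⟨m, hm2, fun L hL1 hL2 => ?_⟩
  have h4 : n.size ≤ (d + 1) * (m + 2).size + 1 := by
    rw [Nat.size_le]
    have := Nat.pow_le_pow_left (Nat.lt_size_self (m + 2)).le (d + 1)
    rw [← pow_mul, mul_comm] at this
    rw [pow_succ]
    have : 0 < 2 ^ ((d + 1) * (m + 2).size) := by positivity
    omega
  have h5 := hm₀ m hm0
  have h6 : L + 2 ≤ 3 * m := by omega
  refine ⟨?_, h1.trans (Nat.pow_le_pow_left (by omega) _), ?_⟩
  · refine lt_of_le_of_lt ?_ h3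
    calc (L + 2) ^ d ≤ (3 * m) ^ d := Nat.pow_le_pow_left h6 _
      _ = 3 ^ d * m ^ d := mul_pow _ _ _
      _ ≤ (m + 1) * (m + 1) ^ d := Nat.mul_le_mul (by omega) (Nat.pow_le_pow_left (by omega) _)
      _ = _ := by ring
  set g := k / (2400 * (d₁ + 1)) + 1 with hg
  have h7 : T ≤ m ^ g := by
    have a1 : (n : ℝ) ≤ (m : ℝ) ^ ((2 * (d + 1) : ℕ) : ℝ) := by
      rw [Real.rpow_natCast]
      have : n ≤ m ^ (2 * (d + 1)) := by
        rw [pow_mul]; exact h1.trans (Nat.pow_le_pow_left (by nlinarith) _)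
      exact_mod_cast this
    have a2 : (1 : ℝ) ≤ m := by exact_mod_cast (by omega : 1 ≤ m)
    have a3 : (n : ℝ) ^ (1 / (4800 * ((d : ℝ) + 1) * (d₁ + 1)) * k) ≤ (m : ℝ) ^ (g : ℝ) := by
      refine (Real.rpow_le_rpow (by positivity) a1 (by positivity)).trans ?_
      rw [← Real.rpow_mul (by positivity)]
      refine Real.rpow_le_rpow_of_exponent_le a2 ?_
      have a4 : (k : ℝ) ≤ g * (2400 * (d₁ + 1)) := by
        have := Nat.lt_div_mul_add (a := k) (b := 2400 * (d₁ + 1)) (by omega)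
        have h' : k ≤ g * (2400 * (d₁ + 1)) := by rw [hg, add_mul]; omega
        exact_mod_cast h'
      push_cast
      have e : 2 * ((d : ℝ) + 1) * (1 / (4800 * ((d : ℝ) + 1) * (d₁ + 1)) * k) =
          k / (2400 * (d₁ + 1)) := by field_simp; ring
      rw [e, div_le_iff₀ (by positivity)]
      exact a4
    have := hT.le.trans a3
    rw [Real.rpow_natCast] at this
    exact_mod_cast this
  have h8 : m ≤ m ^ g := Nat.le_self_pow (Nat.succ_ne_zero _) _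
  have h9 : L + C * (T + 1) + 2 ≤ m ^ (g + 2) := by
    have b1 : C * (T + 1) ≤ C * (2 * m ^ g) := Nat.mul_le_mul_left _ (by omega)
    have b2 : (2 * C + 3) * m ^ g ≤ m ^ 2 * m ^ g := Nat.mul_le_mul_right _ (by nlinarith)
    rw [pow_add]
    nlinarith
  have h10 : (L + C * (T + 1) + 2) ^ d₁ ≤ m ^ ((g + 2) * d₁) := by
    rw [pow_mul]; exact Nat.pow_le_pow_left h9 _
  have h11 : (g + 2) * d₁ + 2 ≤ (k - 3) / 2 / 600 := by
    have b1 : k / (2400 * (d₁ + 1)) * (2400 * (d₁ + 1)) ≤ k := Nat.div_mul_le_self _ _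
    have b2 : (g + 2) * d₁ = k / (2400 * (d₁ + 1)) * d₁ + 3 * d₁ := by rw [hg]; ring
    have b3 : 2400 * (k / (2400 * (d₁ + 1)) * d₁) ≤ k := by nlinarith [Nat.zero_le (k / (2400 * (d₁ + 1)))]
    omega
  refine le_trans ?_ (Nat.pow_le_pow_right (by omega) h11)
  have h12 : 1 ≤ m ^ ((g + 2) * d₁) := Nat.one_le_pow _ _ (by omega)
  rw [pow_add]
  have h13 : 3 * m + 1 ≤ m ^ 2 := by nlinarith
  nlinarith

end Crest.Agent.R290
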