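import Crest.Agent.R290.HDefs

/-!
# Row 290, layer X, Duplicator's strategy (definitions)

A hidden state is `Hd : XV → ZMod 2` (only its values on the base variables `x`, `mu` matter) together
with a robber block `τ a < N` for every family `a`.
-/

set_option autoImplicit false

namespace Crest.Agent.R290

open Finset

namespace XIn

variable (X : XIn)

/-- values of the variables other than chain variables -/
def bval (Hd : XV → ZMod 2) : XV → ZMod 2
  | .zeta => 0
  | .x q l j ρ => Hd (.x q l j ρ)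
  | .mu i l j ρ => Hd (.mu i l j ρ)
  | .e _ _ _ _ => 0
  | .y0 l j => ∑ j' ∈ range j, Hd (.x X.H.q0 l j' 0)
  | .yf l j => ∑ j' ∈ range j, Hd (.x X.H.qf l j' 0)

/-- partial-sum vector at position `pos` of family `a` -/
def pv (a : Fam) (pos l' : ℕ) : ZMod 2 :=
  if l' < pos % X.r then X.cp a (pos / X.r + 1) l' else X.cp a (pos / X.r) l'

/-- values of all variables -/
def val (Hd : XV → ZMod 2) (τ : Fam → ℕ) : XV → ZMod 2
  | .e a pos j ρ =>
      (if pos / X.r ≤ τ a then X.bval Hd (src a j ρ) else X.bval Hd (X.dst a j ρ)) +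
        ∑ l' ∈ range X.r, X.pv a pos l' * X.bval Hd (X.grd a l' j ρ)
  | u => X.bval Hd u

/-- virtual value of signal `q`, coordinate `l`, at address `c` -/
def vx (Hd : XV → ZMod 2) (q : Sg) (l : ℕ) (c : ℤ) : ZMod 2 :=
  ∑ j ∈ range X.s, Hd (.x q l j (X.res j c))

/-- virtual value of the middle variable of rule `i` -/
def vmu (Hd : XV → ZMod 2) (i l : ℕ) (c : ℤ) : ZMod 2 :=
  ∑ j ∈ range X.s, Hd (.mu i l j (X.res j c))

open Classical in
/-- the invariant at the addresses in `A` -/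
def InvA (A : Finset ℤ) (Hd : XV → ZMod 2) : Prop :=
  ∀ c ∈ A, (∀ q l, Der X.H q c → X.vx Hd q l c = 0) ∧
    ∀ i < X.R, ∀ l, X.vmu Hd i l c =
      if Der X.H (X.rl i).in1 (c + (X.rl i).sh1) then 0 else X.vx Hd (X.rl i).out l c

/-- shift of the guard of a rule family -/
def sh (i : ℕ) (part : Bool) : ℤ := if part then (X.rl i).sh2 else (X.rl i).sh1

/-- the (register, residue) pairs a variable depends on (besides residue `0`) -/
def touches : XV → Finset (ℕ × ℕ)
  | .x _ _ j ρ => {(j, ρ)}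
  | .mu _ _ j ρ => {(j, ρ)}
  | .e (.rule i part _) _ j ρ => {(j, ρ), (j, X.res j (ρ + X.sh i part))}
  | .e (.reset _ _ _ _) _ j ρ => {(j, ρ)}
  | _ => ∅

/-- the registers of address `c` touched by `Z` -/
def tchS (Z : Finset XV) (c : ℤ) : Finset ℕ :=
  (range X.s).filter fun j => ∃ u ∈ Z, (j, X.res j c) ∈ X.touches u

/-- the relevant addresses -/
noncomputable def Rng (B : ℕ) : Finset ℤ := Icc (-(2 * B : ℤ)) (2 * B)

/-- the active addresses -/
noncomputable def Act (B : ℕ) (Z : Finset XV) : Finset ℤ :=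
  insert 0 ((Rng B).filter fun c => X.s ≤ 2 * (X.tchS Z c).card)

/-- the robber blocks are free of pebbles -/
def Free (Z : Finset XV) (τ : Fam → ℕ) : Prop :=
  ∀ a, τ a < X.N ∧ ∀ pos j ρ, XV.e a pos j ρ ∈ Z → pos / X.r ≠ τ a

/-- chain variables in `Z` belong to real chains -/
def ValidZ (Z : Finset XV) : Prop :=
  ∀ a pos j ρ, XV.e a pos j ρ ∈ Z → (a, j, ρ) ∈ X.chains ∧ pos < X.N * X.r

/-- Duplicator's family -/
def Good (B : ℕ) (Z : Finset XV) (Y : XV → ZMod 2) : Prop :=
  X.ValidZ Z ∧ ∃ Hd τ, X.InvA (X.Act B Z) Hd ∧ X.vx Hd X.H.qf 0 0 = 1 ∧ X.Free Z τ ∧ Y = X.val Hd τ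

/-- the numerical hypotheses of Duplicator's strategy -/
structure DOk (B e : ℕ) : Prop where
  ok : X.Ok
  bnd : Bnd X.H B
  sep : Sep X.ps e (4 * B)
  es : 300 * e ≤ X.s
  nder : ¬ Der X.H X.H.qf 0

theorem tchS_mono {Z Z' : Finset XV} (h : Z ⊆ Z') (c : ℤ) : X.tchS Z c ⊆ X.tchS Z' c := by
  intro j hj
  simp only [tchS, mem_filter] at hj ⊢
  obtain ⟨h1, u, hu, h2⟩ := hj
  exact ⟨h1, u, h hu, h2⟩

theorem Act_mono (B : ℕ) {Z Z' : Finset XV} (h : Z ⊆ Z') : X.Act B Z ⊆ X.Act B Z' := by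
  refine insert_subset_insert _ fun c hc => ?_
  simp only [mem_filter] at hc ⊢
  have := card_le_card (X.tchS_mono h c)
  exact ⟨hc.1, by omega⟩

theorem zero_mem_Rng (B : ℕ) : (0 : ℤ) ∈ Rng B := by simp [Rng]

theorem Act_subset (B : ℕ) (Z : Finset XV) : X.Act B Z ⊆ Rng B :=
  insert_subset (zero_mem_Rng B) (filter_subset _ _)

theorem not_mem_Act {B : ℕ} {Z : Finset XV} {c : ℤ} (hc : c ∈ Rng B) (h : c ∉ X.Act B Z) :
    2 * (X.tchS Z c).card < X.s := by
  simp only [Act, mem_insert, mem_filter, not_or, not_and, not_le] at h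
  exact h.2 hc

theorem InvA.mono {X : XIn} {A A' : Finset ℤ} {Hd : XV → ZMod 2} (h : X.InvA A Hd) (hA : A' ⊆ A) :
    X.InvA A' Hd := fun c hc => h c (hA hc)

end XIn

/-- realises the unfolding lemmas once, here (so importers do not generate them separately) -/
theorem dup_eqs_realised : True := by
  have _h0 := @Crest.Agent.R290.XIn.val.eq_2
  have _h1 := @Crest.Agent.R290.XIn.touches.eq_5
  trivial

end Crest.Agent.R290
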