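import Crest.Agent.R290.FM

/-!
# Row 290, task FMSim: every `FinTM2` is simulated by a flat machine with constant overhead

Plan (all classical, nothing needs to be computable).  Let `tm = M.tm`.
* `sub q`: the finite set (list) of substatements of a statement (`Turing.TM2.stmts₁`, or an own
  recursive list); `Q` = list of all substatements of all `tm.m l`, with `tm.m tm.main` first;
  control states: the list `cs` of pairs `(q, v)`, `q ∈ Q`, `v : σ`, with
  `(tm.m tm.main, tm.initialState)` first; `pc = cs.idxOf (q, v)`.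
* stacks: the list `ks = k₀ :: (all k)`, index `ks.idxOf k` (so `k₀ ↦ 0`).
* symbols: the list `sy : List (Σ k, Γ k)` = `⟨k₀, in false⟩ :: ⟨k₀, in true⟩ ::` all `⟨k, f v⟩` for
  `push k f _ ∈ Q`; code `sy.idxOf`; invariant: all symbols on the stacks are in `sy`.
  `D = max …` (at least `2`, `ks.length`, `sy.length`).
* instruction of `(q, v)`: `push k f q'`: stack `k`, every `τ ↦ (code (f v) + 2, pc (q', v))`;
  `peek k f q'`/`pop k f q'`: `τ ↦ (0 or 1, pc (q', f v (decode k τ)))`, where `decode k 0 = none` and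
  `decode k (a+1)` is the symbol of `Γ k` with code `a` (if any); `load`, `branch`, `goto f`
  (`↦ pc (tm.m (f v), v)`): action `0`; `halt`: stack `k₁`, action `0`, `τ ↦ length` if `τ` is the code
  of `⟨k₁, out β⟩` plus one and `⟨k₁, out β⟩ ∈ sy`, else `length + 1`.  Tables have length `D + 1`.
* by induction on `q`: from `(pc (q, v), S)` the flat machine reaches, in at most `size q` steps,
  either `(pc (tm.m l', v'), S')` where `stepAux q v S = ⟨some l', v', S'⟩`, or a halted configuration
  with the right `pc` if `stepAux q v S = ⟨none, v', S'⟩`.  `C` = maximal size; `frun_halted`.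
-/

set_option autoImplicit false

namespace Crest.Agent.R290

open Turing

namespace FMS

/-- classical `idxOf` -/
noncomputable def idx {α : Type} (l : List α) (a : α) : ℕ := by
  classical exact l.idxOf a

theorem idx_le {α : Type} (l : List α) (a : α) : idx l a ≤ l.length := by
  unfold idx
  classical
  exact List.idxOf_le_length

theorem idx_lt {α : Type} {l : List α} {a : α} (h : a ∈ l) : idx l a < l.length := by
  unfold idx
  classical
  convert List.idxOf_lt_length_of_mem h

theorem getElem?_idx {α : Type} {l : List α} {a : α} (h : a ∈ l) : l[idx l a]? = some a := by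
  unfold idx
  classical
  convert List.getElem?_idxOf h

theorem idx_inj {α : Type} {l : List α} {a b : α} (ha : a ∈ l) (hb : b ∈ l)
    (h : idx l a = idx l b) : a = b := by
  have h1 := getElem?_idx ha
  rw [h, getElem?_idx hb] at h1
  exact (Option.some.inj h1).symm

theorem idx_cons_self {α : Type} (l : List α) (a : α) : idx (a :: l) a = 0 := by
  unfold idx
  simp

theorem idx_cons_ne {α : Type} (l : List α) {a b : α} (h : b ≠ a) :
    idx (b :: l) a = idx l a + 1 := by
  unfold idx
  simp [h]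

open TM2 TM2.Stmt

variable {K : Type} {Γ : K → Type} {Λ σ : Type}

/-- number of elementary instructions on a path of a statement -/
def size : Stmt Γ Λ σ → ℕ
  | push _ _ q => size q + 1
  | peek _ _ q => size q + 1
  | pop _ _ q => size q + 1
  | load _ q => size q + 1
  | branch _ q₁ q₂ => size q₁ + size q₂ + 1
  | goto _ => 1
  | halt => 1

/-- the data of the simulation -/
structure Dat (K : Type) (Γ : K → Type) (Λ σ : Type) where
  m : Λ → Stmt Γ Λ σ
  k₁ : K
  acc : Γ k₁
  cs : List (Stmt Γ Λ σ × σ)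
  ks : List K
  sy : List (Σ k, Γ k)

namespace Dat

variable (X : Dat K Γ Λ σ)

/-- number of stacks, bound on the symbols -/
def D : ℕ := X.ks.length + X.sy.length + 2

/-- control state -/
noncomputable def pc (q : Stmt Γ Λ σ) (v : σ) : ℕ := idx X.cs (q, v)

/-- stack index -/
noncomputable def ix (k : K) : ℕ := idx X.ks k

/-- symbol code -/
noncomputable def cd (k : K) (a : Γ k) : ℕ := idx X.sy ⟨k, a⟩

open Classical in
/-- decoding of a top code -/
noncomputable def dec (k : K) : ℕ → Option (Γ k)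
  | 0 => none
  | t + 1 => if h : ∃ g : Γ k, (⟨k, g⟩ : Σ k, Γ k) ∈ X.sy ∧ X.cd k g = t then some h.choose else none

/-- the stack that is read -/
def stk : Stmt Γ Λ σ → K
  | push k _ _ => k
  | peek k _ _ => k
  | pop k _ _ => k
  | load _ _ => X.k₁
  | branch _ _ _ => X.k₁
  | goto _ => X.k₁
  | halt => X.k₁

open Classical in
/-- the table entries -/
noncomputable def ent : Stmt Γ Λ σ → σ → ℕ → ℕ × ℕ
  | push k f q, v, _ => (X.cd k (f v) + 2, X.pc q v)
  | peek k f q, v, τ => (0, X.pc q (f v (X.dec k τ)))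
  | pop k f q, v, τ => (1, X.pc q (f v (X.dec k τ)))
  | load f q, v, _ => (0, X.pc q (f v))
  | branch f q₁ q₂, v, _ => (0, cond (f v) (X.pc q₁ v) (X.pc q₂ v))
  | goto f, v, _ => (0, X.pc (X.m (f v)) v)
  | halt, _, τ => (0, if X.dec X.k₁ τ = some X.acc then X.cs.length else X.cs.length + 1)

/-- the flat program -/
noncomputable def code : FCode :=
  X.cs.map fun p => (X.ix (X.stk p.1), (List.range (X.D + 1)).map (X.ent p.1 p.2))

theorem length_code : X.code.length = X.cs.length := by simp [code]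

theorem ix_lt (k : K) : X.ix k < X.D := by
  have := idx_le X.ks k
  unfold ix D; omega

theorem cd_lt (k : K) (a : Γ k) : X.cd k a < X.D := by
  have := idx_le X.sy ⟨k, a⟩
  unfold cd D; omega

theorem pc_le (q : Stmt Γ Λ σ) (v : σ) : X.pc q v ≤ X.cs.length := idx_le _ _

theorem ent_lt (q : Stmt Γ Λ σ) (v : σ) (τ : ℕ) : (X.ent q v τ).1 < X.D + 2 := by
  cases q with
  | push k f q => have := X.cd_lt k (f v); simp only [ent]; omega
  | _ => simp [ent]

theorem ent_le (q : Stmt Γ Λ σ) (v : σ) (τ : ℕ) : (X.ent q v τ).2 ≤ X.cs.length + 1 := by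
  cases q with
  | branch f q₁ q₂ =>
    have h1 := X.pc_le q₁ v
    have h2 := X.pc_le q₂ v
    simp only [ent]
    cases f v <;> simp <;> omega
  | halt => simp only [ent]; split_ifs <;> omega
  | _ => simp only [ent]; exact (X.pc_le _ _).trans (Nat.le_succ _)

theorem fwf : FWF X.code X.D := by
  refine ⟨by unfold D; omega, ?_⟩
  intro ins hins
  simp only [code, List.mem_map] at hins
  obtain ⟨p, -, rfl⟩ := hins
  refine ⟨X.ix_lt _, ?_⟩
  intro an han
  simp only [List.mem_map] at han
  obtain ⟨τ, -, rfl⟩ := han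
  exact X.ent_lt _ _ _

theorem code_getD {q : Stmt Γ Λ σ} {v : σ} (h : (q, v) ∈ X.cs) :
    X.code.getD (X.pc q v) (0, []) =
      (X.ix (X.stk q), (List.range (X.D + 1)).map (X.ent q v)) := by
  simp only [code, List.getD_eq_getElem?_getD, List.getElem?_map, pc, getElem?_idx h,
    Option.map_some, Option.getD_some]

theorem topc_le (k : K) (s : List (Γ k)) : topc (s.map (X.cd k)) ≤ X.D := by
  cases s with
  | nil => simp [topc]
  | cons a s => exact X.cd_lt k a

theorem dec_topc (k : K) (s : List (Γ k)) (hs : ∀ a ∈ s, (⟨k, a⟩ : Σ k, Γ k) ∈ X.sy) :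
    X.dec k (topc (s.map (X.cd k))) = s.head? := by
  cases s with
  | nil => rfl
  | cons a s =>
    have ha := hs a List.mem_cons_self
    have hex : ∃ g : Γ k, (⟨k, g⟩ : Σ k, Γ k) ∈ X.sy ∧ X.cd k g = X.cd k a := ⟨a, ha, rfl⟩
    simp only [List.map_cons, topc, dec, dif_pos hex, List.head?_cons]
    have h1 := hex.choose_spec
    have h2 := idx_inj h1.1 ha h1.2
    rw [eq_of_heq (Sigma.mk.inj h2).2]

/-- representation of the stacks -/
def Rep (S : ∀ k, List (Γ k)) (L : List (List ℕ)) : Prop :=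
  L.length = X.D ∧ ∀ k, L.getD (X.ix k) [] = (S k).map (X.cd k) ∧
    ∀ a ∈ S k, (⟨k, a⟩ : Σ k, Γ k) ∈ X.sy

variable [DecidableEq K]

theorem Rep.set {X : Dat K Γ Λ σ} (hks : ∀ k, k ∈ X.ks) {S : ∀ k, List (Γ k)} {L : List (List ℕ)}
    (h : X.Rep S L) (k : K) (s : List (Γ k)) (hs : ∀ a ∈ s, (⟨k, a⟩ : Σ k, Γ k) ∈ X.sy) :
    X.Rep (Function.update S k s) (L.set (X.ix k) (s.map (X.cd k))) := by
  refine ⟨by simpa using h.1, fun k' => ?_⟩
  by_cases hk : k' = k
  · subst hk
    have hlt : X.ix k' < L.length := h.1 ▸ X.ix_lt k'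
    refine ⟨?_, by simpa using hs⟩
    simp [List.getD_eq_getElem?_getD, hlt]
  · have hne : X.ix k ≠ X.ix k' := fun e => hk (idx_inj (hks _) (hks _) e).symm
    rw [Function.update_of_ne hk]
    refine ⟨?_, (h.2 k').2⟩
    rw [← (h.2 k').1]
    simp [List.getD_eq_getElem?_getD, List.getElem?_set_ne hne]

omit [DecidableEq K] in
theorem fstep_eq {q : Stmt Γ Λ σ} {v : σ} (h : (q, v) ∈ X.cs) {S : ∀ k, List (Γ k)}
    {L : List (List ℕ)} (hr : X.Rep S L) :
    fstep X.code (X.pc q v, L) =
      ((X.ent q v (topc ((S (X.stk q)).map (X.cd _)))).2,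
        L.set (X.ix (X.stk q)) (act (X.ent q v (topc ((S (X.stk q)).map (X.cd _)))).1
          ((S (X.stk q)).map (X.cd _)))) := by
  have hlt : X.pc q v < X.code.length := by rw [length_code]; exact idx_lt h
  have h1 : fstk X.code (X.pc q v) = X.ix (X.stk q) := by
    unfold fstk; rw [X.code_getD h]
  have h2 : ∀ τ ≤ X.D, fent X.code (X.pc q v) τ = X.ent q v τ := by
    intro τ hτ
    unfold fent
    rw [X.code_getD h]
    simp [List.getD_eq_getElem?_getD, Nat.lt_succ_of_le hτ]
  unfold fstep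
  simp only [hlt, if_true, h1, (hr.2 _).1, h2 _ (X.topc_le _ _)]
  rw [min_eq_left]
  rw [length_code]
  exact X.ent_le _ _ _

/-- the flat configuration that corresponds to a configuration -/
def Res (c : Cfg Γ Λ σ) (F : FCfg) : Prop :=
  match c.l with
  | some l => F.1 = X.pc (X.m l) c.var ∧ X.Rep c.stk F.2
  | none => X.cs.length ≤ F.1 ∧ (F.1 = X.cs.length ↔ (c.stk X.k₁).head? = some X.acc)

theorem sim_stmt (hks : ∀ k, k ∈ X.ks) (Q : Set (Stmt Γ Λ σ))
    (hQ : ∀ q ∈ Q, ∀ q' ∈ stmts₁ q, q' ∈ Q) (hcs : ∀ q ∈ Q, ∀ v, (q, v) ∈ X.cs)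
    (hsy : ∀ k f q, push k f q ∈ Q → ∀ v, (⟨k, f v⟩ : Σ k, Γ k) ∈ X.sy) (q : Stmt Γ Λ σ) :
    q ∈ Q → ∀ (v : σ) (S : ∀ k, List (Γ k)) (L : List (List ℕ)), X.Rep S L →
      ∃ n ≤ size q, X.Res (stepAux q v S) ((fstep X.code)^[n] (X.pc q v, L)) := by
  have keep : ∀ (k : K) {S : ∀ k, List (Γ k)} {L : List (List ℕ)}, X.Rep S L →
      X.Rep S (L.set (X.ix k) (act 0 ((S k).map (X.cd k)))) := by
    intro k S L hr
    have := hr.set hks k (S k) (hr.2 k).2
    rwa [Function.update_eq_self] at this
  induction q with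
  | push k f q ih =>
    intro hq v S L hr
    have hq' : q ∈ Q := hQ _ hq _ (by classical simp [stmts₁, stmts₁_self])
    have hr' := hr.set hks k (f v :: S k) (by
      intro a ha
      rcases List.mem_cons.1 ha with rfl | ha
      · exact hsy k f q hq v
      · exact (hr.2 k).2 a ha)
    obtain ⟨n, hn, hres⟩ := ih hq' v _ _ hr'
    refine ⟨n + 1, by simp only [size]; omega, ?_⟩
    rw [Function.iterate_succ_apply, X.fstep_eq (hcs _ hq v) hr]
    simpa [ent, stk, act] using hres
  | peek k f q ih =>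
    intro hq v S L hr
    have hq' : q ∈ Q := hQ _ hq _ (by classical simp [stmts₁, stmts₁_self])
    obtain ⟨n, hn, hres⟩ := ih hq' (f v (S k).head?) _ _ (keep k hr)
    refine ⟨n + 1, by simp only [size]; omega, ?_⟩
    rw [Function.iterate_succ_apply, X.fstep_eq (hcs _ hq v) hr]
    simpa only [ent, stk, X.dec_topc k _ (hr.2 k).2, stepAux] using hres
  | pop k f q ih =>
    intro hq v S L hr
    have hq' : q ∈ Q := hQ _ hq _ (by classical simp [stmts₁, stmts₁_self])
    have hr' := hr.set hks k (S k).tail (fun a ha => (hr.2 k).2 a (List.mem_of_mem_tail ha))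
    obtain ⟨n, hn, hres⟩ := ih hq' (f v (S k).head?) _ _ hr'
    refine ⟨n + 1, by simp only [size]; omega, ?_⟩
    rw [Function.iterate_succ_apply, X.fstep_eq (hcs _ hq v) hr]
    simp only [ent, stk, X.dec_topc k _ (hr.2 k).2, stepAux]
    simpa [act] using hres
  | load f q ih =>
    intro hq v S L hr
    have hq' : q ∈ Q := hQ _ hq _ (by classical simp [stmts₁, stmts₁_self])
    obtain ⟨n, hn, hres⟩ := ih hq' (f v) _ _ (keep X.k₁ hr)
    refine ⟨n + 1, by simp only [size]; omega, ?_⟩
    rw [Function.iterate_succ_apply, X.fstep_eq (hcs _ hq v) hr]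
    simpa only [ent, stk, stepAux] using hres
  | branch f q₁ q₂ ih₁ ih₂ =>
    intro hq v S L hr
    have hq₁ : q₁ ∈ Q := hQ _ hq _ (by classical simp [stmts₁, stmts₁_self])
    have hq₂ : q₂ ∈ Q := hQ _ hq _ (by classical simp [stmts₁, stmts₁_self])
    obtain ⟨n₁, hn₁, hres₁⟩ := ih₁ hq₁ v _ _ (keep X.k₁ hr)
    obtain ⟨n₂, hn₂, hres₂⟩ := ih₂ hq₂ v _ _ (keep X.k₁ hr)
    cases hf : f v with
    | true =>
      refine ⟨n₁ + 1, by simp only [size]; omega, ?_⟩
      rw [Function.iterate_succ_apply, X.fstep_eq (hcs _ hq v) hr]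
      simpa only [ent, stk, stepAux, hf, cond_true] using hres₁
    | false =>
      refine ⟨n₂ + 1, by simp only [size]; omega, ?_⟩
      rw [Function.iterate_succ_apply, X.fstep_eq (hcs _ hq v) hr]
      simpa only [ent, stk, stepAux, hf, cond_false] using hres₂
  | goto f =>
    intro hq v S L hr
    refine ⟨1, le_rfl, ?_⟩
    rw [Function.iterate_one, X.fstep_eq (hcs _ hq v) hr]
    exact ⟨rfl, keep X.k₁ hr⟩
  | halt =>
    intro hq v S L hr
    refine ⟨1, le_rfl, ?_⟩
    rw [Function.iterate_one, X.fstep_eq (hcs _ hq v) hr]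
    have hd := X.dec_topc X.k₁ _ (hr.2 X.k₁).2
    simp only [ent, stk, stepAux, Res]
    split_ifs with h
    · rw [hd] at h
      simp [h]
    · rw [hd] at h
      simp [h]

theorem sim_run (C : ℕ)
    (hst : ∀ (l : Λ) (v : σ) (S : ∀ k, List (Γ k)) (L : List (List ℕ)), X.Rep S L →
      ∃ n ≤ C, X.Res (stepAux (X.m l) v S) ((fstep X.code)^[n] (X.pc (X.m l) v, L))) (t : ℕ) :
    ∀ (c c' : Cfg Γ Λ σ) (F : FCfg), (flip bind (step X.m))^[t] (some c) = some c' → X.Res c F →
      ∃ n ≤ C * t, X.Res c' ((fstep X.code)^[n] F) := by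
  induction t with
  | zero =>
    intro c c' F h hF
    obtain rfl : c = c' := Option.some.inj h
    exact ⟨0, le_rfl, hF⟩
  | succ t ih =>
    intro c c' F h hF
    rw [Function.iterate_succ_apply] at h
    obtain ⟨l, v, S⟩ := c
    cases l with
    | none =>
      have h0 : (flip bind (step X.m)) (none : Option (Cfg Γ Λ σ)) = none := rfl
      have h1 : (flip bind (step X.m)) (some (⟨none, v, S⟩ : Cfg Γ Λ σ)) = none := rfl
      rw [h1, Function.iterate_fixed h0] at h
      cases h
    | some l =>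
      have h1 : (flip bind (step X.m)) (some (⟨some l, v, S⟩ : Cfg Γ Λ σ)) =
        some (stepAux (X.m l) v S) := rfl
      rw [h1] at h
      obtain ⟨p, L⟩ := F
      obtain ⟨hp, hr⟩ := hF
      simp only at hp hr
      subst hp
      obtain ⟨n, hn, hres⟩ := hst l v S L hr
      obtain ⟨n', hn', hres'⟩ := ih _ _ _ h hres
      refine ⟨n' + n, by rw [Nat.mul_succ]; omega, ?_⟩
      rwa [Function.iterate_add_apply]

end Dat

/-- the symbol pushed by a statement -/
def pushSym (d : Σ k, Γ k) : Stmt Γ Λ σ × σ → Σ k, Γ k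
  | (push k f _, v) => ⟨k, f v⟩
  | _ => d

end FMS

open FMS TM2 in
theorem fm_sim (M : TM2ComputableAux Bool Bool) (β : Bool) :
    ∃ (code : FCode) (D C : ℕ), FWF code D ∧ ∀ (x : List Bool) (β' : Bool) (t : ℕ),
      TM2OutputsInTime M.tm (x.map M.inputAlphabet.invFun)
        (some ([β'].map M.outputAlphabet.invFun)) t →
      code.length ≤ (frun code D x (C * (t + 1))).1 ∧
        ((frun code D x (C * (t + 1))).1 = code.length ↔ β' = β) := by
  classical
  let _ := M.tm.kFin
  let _ := M.tm.ΛFin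
  let _ := M.tm.σFin
  let Q : Finset (Stmt M.tm.Γ M.tm.Λ M.tm.σ) := Finset.univ.biUnion fun l => stmts₁ (M.tm.m l)
  let P : List (Stmt M.tm.Γ M.tm.Λ M.tm.σ × M.tm.σ) := (Q ×ˢ Finset.univ).toList
  let s0 : Σ k, M.tm.Γ k := ⟨M.tm.k₀, M.inputAlphabet.symm false⟩
  let s1 : Σ k, M.tm.Γ k := ⟨M.tm.k₀, M.inputAlphabet.symm true⟩
  let X : Dat M.tm.K M.tm.Γ M.tm.Λ M.tm.σ :=
    ⟨M.tm.m, M.tm.k₁, M.outputAlphabet.symm β, (M.tm.m M.tm.main, M.tm.initialState) :: P,
      M.tm.k₀ :: Finset.univ.toList, s0 :: s1 :: P.map (pushSym s0)⟩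
  have hks : ∀ k, k ∈ X.ks := fun k => List.mem_cons_of_mem _ (by simp)
  have hP : ∀ q ∈ Q, ∀ v, (q, v) ∈ P := fun q hq v => by simp [P, hq]
  have hst := X.sim_stmt hks (Q : Set _)
    (by
      intro q hq q' hq'
      simp only [Q, Finset.coe_biUnion, Finset.coe_univ, Set.mem_univ, Set.iUnion_true,
        Set.mem_iUnion, Finset.mem_coe] at hq ⊢
      obtain ⟨l, hl⟩ := hq
      exact ⟨l, stmts₁_trans hl hq'⟩)
    (fun q hq v => List.mem_cons_of_mem _ (hP q hq v))
    (fun k f q hq v => List.mem_cons_of_mem _ (List.mem_cons_of_mem _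
      (List.mem_map.2 ⟨_, hP _ hq v, rfl⟩)))
  let C : ℕ := Finset.univ.sup fun l => size (M.tm.m l)
  have hrun := X.sim_run C (by
    intro l v S L hr
    have hq : M.tm.m l ∈ (Q : Set _) := by
      simp only [Q, Finset.coe_biUnion, Finset.coe_univ, Set.mem_univ, Set.iUnion_true,
        Set.mem_iUnion, Finset.mem_coe]
      exact ⟨l, stmts₁_self⟩
    obtain ⟨n, hn, hres⟩ := hst _ hq v S L hr
    exact ⟨n, hn.trans (Finset.le_sup (f := fun l => size (M.tm.m l)) (Finset.mem_univ l)), hres⟩)
  refine ⟨X.code, X.D, C, X.fwf, ?_⟩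
  intro x β' t ht
  have h01 : s0 ≠ s1 := by
    intro e
    have := M.inputAlphabet.symm.injective (eq_of_heq (Sigma.mk.inj e).2)
    cases this
  have hcd : ∀ b : Bool, X.cd M.tm.k₀ (M.inputAlphabet.symm b) = b.toNat := by
    intro b
    cases b with
    | false => exact idx_cons_self _ _
    | true =>
      show idx (s0 :: s1 :: _) s1 = 1
      rw [idx_cons_ne _ h01, idx_cons_self]
  have hinit : X.Res (initList M.tm (x.map M.inputAlphabet.invFun)) (finit X.D x) := by
    refine ⟨(idx_cons_self _ _).symm, ?_, fun k => ?_⟩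
    · simp only [finit, List.length_cons, List.length_replicate, Dat.D]
      omega
    · by_cases hk : k = M.tm.k₀
      · subst hk
        have h0 : X.ix M.tm.k₀ = 0 := idx_cons_self _ _
        have hs : (initList M.tm (x.map M.inputAlphabet.invFun)).stk M.tm.k₀ =
            x.map M.inputAlphabet.symm := by
          simp [initList]
        rw [h0, hs]
        refine ⟨?_, ?_⟩
        · simp only [finit, List.getD_cons_zero, List.map_map]
          exact List.map_congr_left fun b _ => (hcd b).symm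
        · intro a ha
          obtain ⟨b, -, rfl⟩ := List.mem_map.1 ha
          cases b
          · exact List.mem_cons_self
          · exact List.mem_cons_of_mem _ List.mem_cons_self
      · have h0 : X.ix k = idx (Finset.univ : Finset M.tm.K).toList k + 1 :=
          idx_cons_ne _ (Ne.symm hk)
        have hs : (initList M.tm (x.map M.inputAlphabet.invFun)).stk k = [] := by
          simp [initList, hk]
        rw [h0, hs]
        refine ⟨?_, by simp⟩
        simp only [finit, List.getD_cons_succ, List.map_nil]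
        simp only [List.getD_eq_getElem?_getD, List.getElem?_replicate]
        split_ifs <;> rfl
  obtain ⟨n, hn, hres⟩ := hrun ht.steps _ _ _ ht.evals_in_steps hinit
  have hs : (haltList M.tm ([β'].map M.outputAlphabet.invFun)).stk M.tm.k₁ =
      [M.outputAlphabet.symm β'] := by
    simp [haltList]
  obtain ⟨h1, h2⟩ := hres
  have h3 : X.code.length ≤ (frun X.code X.D x n).1 := by rw [Dat.length_code]; exact h1
  have h4 : n ≤ C * (t + 1) :=
    hn.trans (Nat.mul_le_mul_left _ (ht.steps_le_m.trans (Nat.le_succ _)))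
  rw [frun_halted h3 h4]
  refine ⟨h3, ?_⟩
  rw [Dat.length_code]
  refine h2.trans ?_
  show ((haltList M.tm ([β'].map M.outputAlphabet.invFun)).stk M.tm.k₁).head? =
    some (M.outputAlphabet.symm β) ↔ _
  rw [hs]
  simp

end Crest.Agent.R290
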