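import Crest.Agent.R290.Pipe
import Crest.Agent.R290.FMSim
import Crest.Prelude.Def_ExpTime

/-!
# Row 290: every EXPTIME problem feeds the pipeline
-/

set_option autoImplicit false

namespace Crest.Agent.R290

open Crest.Agent.PTime

theorem exp_pipe {L : Set (List Bool)} (h : Crest.ExpTime.InEXP L) (β : Bool) :
    ∃ z : List Bool → PIn, PT z ∧ ∀ x, 15 ≤ (z x).2.2.2.2.val ∧ PGood (z x) (x ∈ L ↔ β = true) := by
  obtain ⟨κ, f, c, ⟨M, hM⟩, hf⟩ := h
  obtain ⟨code, D, C, hwf, hsim⟩ := fm_sim M.toTM2ComputableAux β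
  set h : List Bool → ℕ := fun x => x.length ^ κ + x.length + C + c + 3 with hh
  have h1 : PT (fun x => 600 * h x) := by rw [hh]; fun_prop
  have h2 : PB (fun x => 600 * h x) := by rw [hh]; fun_prop
  refine ⟨fun x => (code, ⟨D⟩, x, ⟨5⟩, ⟨600 * h x⟩), by fun_prop, fun x => ⟨?_, hwf, le_rfl, ?_, ?_⟩⟩
  · show 15 ≤ 600 * h x
    simp only [hh]; omega
  · show 1 ≤ 600 * h x
    simp only [hh]; omega
  obtain ⟨h3, h4⟩ := hsim x (f x) _ (M.outputsFun x)
  refine ⟨_, h3, ?_, h4.trans ?_⟩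
  · show x.length + C * (M.time x.length + 1) + 2 ≤ 5 ^ (600 * h x / 600)
    rw [Nat.mul_div_cancel_left _ (by norm_num)]
    have e1 : M.time x.length ≤ c * 2 ^ x.length ^ κ + c := hM x.length
    set a := 5 ^ x.length ^ κ with ha
    have e2 : 2 ^ x.length ^ κ ≤ a := Nat.pow_le_pow_left (by norm_num) _
    have e3 : x.length < 5 ^ x.length := Nat.lt_pow_self (by norm_num)
    have e4 : C < 5 ^ C := Nat.lt_pow_self (by norm_num)
    have e5 : c < 5 ^ c := Nat.lt_pow_self (by norm_num)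
    have e6 : 1 ≤ a := Nat.one_le_pow _ _ (by norm_num)
    have e7 : 5 ^ h x = a * 5 ^ x.length * 5 ^ C * 5 ^ c * 125 := by
      simp only [hh, ha, pow_add]; norm_num
    rw [e7]
    set u := 5 ^ x.length
    set v := 5 ^ C
    set w := 5 ^ c
    have e8 : M.time x.length + 1 ≤ 3 * (a * w) := by nlinarith
    have e9 : C * (M.time x.length + 1) ≤ v * (3 * (a * w)) := Nat.mul_le_mul e4.le e8
    have e10 : 1 ≤ a * v * w := Nat.mul_pos (Nat.mul_pos e6 (by omega)) (by omega)
    have e11 : v * (3 * (a * w)) ≤ u * (3 * (a * v * w)) := by nlinarith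
    have e12 : x.length + 2 ≤ u * (3 * (a * v * w)) := by nlinarith
    nlinarith
  · rw [hf x]
    cases f x <;> cases β <;> simp

end Crest.Agent.R290
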