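import Crest.Agent.R290.FM

/-!
# Row 290, task FHorn: the Horn-shift system describes the run

Plan.  Let `T₀ ≤ T` be the first halting time, `cfg t = frun code D x t`, `st t k = (cfg t).2.getD k []`.
Invariants: `(cfg t).2.length = D`, all symbols `< D`, `(st t k).length ≤ x.length + t`,
`(cfg t).1 ≤ length + 1`.
`Sem q c` says: `q = sQ0 ∧ c = 0`; or `q = sBack`, `c = t W`, `t ≤ T₀`, and the run accepts; or
`q = sState (cfg t).1`, `c = t W`, `t ≤ T₀`; or `q = sCtrl pc τ` with `pc = (cfg t).1`,
`τ = topc (st t (fstk code pc))`, `c = t W`, `t < T₀`; or `q = sCell k (topc ((st t k).drop i))`,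
`k < D`, `c = t W + i`, `i ≤ (st t k).length`, `t ≤ T₀`; or `q = sAct k (fty code pc τ k)`, `k < D`,
`c = t W + i`, `i ≤ (st t k).length`, `t < T₀`.
* soundness `Der q c → Sem q c` (induction; addresses `t W + i` with `i + 1 < W` are decoded uniquely);
  this gives the bound and `→`.
* completeness: by induction on `t ≤ T₀`, `sState` and all `sCell` facts of time `t` are derivable
  (then `sCtrl`, `sAct` by induction on `i`); finally `sBack` at `t W` by downward induction.
Split into `FHorn_S.lean` (soundness) and `FHorn_C.lean` (completeness) if convenient.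
-/

set_option autoImplicit false

namespace Crest.Agent.R290

namespace FH

/-- the rules, listed -/
inductive IsR (code : FCode) (D : ℕ) (x : List Bool) (W : ℕ) : Rule → Prop
  | i1 : IsR code D x W (rule1 (sState 0) sQ0 0)
  | i2 : IsR code D x W (rule1 (sCell 0 0) sQ0 (-(x.length : ℤ)))
  | i3 (i : ℕ) : i < x.length →
      IsR code D x W (rule1 (sCell 0 ((x.getD i false).toNat + 1)) sQ0 (-(i : ℤ)))
  | i4 (k : ℕ) : k < D - 1 → IsR code D x W (rule1 (sCell (k + 1) 0) sQ0 0)
  | c1 (pc τ : ℕ) : pc < code.length → τ < D + 1 →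
      IsR code D x W ⟨sCtrl pc τ, sState pc, 0, sCell (fstk code pc) τ, 0⟩
  | c2 (pc τ : ℕ) : pc < code.length → τ < D + 1 →
      IsR code D x W (rule1 (sState (min (fent code pc τ).2 (code.length + 1))) (sCtrl pc τ)
        (-(W : ℤ)))
  | c3 (pc τ k : ℕ) : pc < code.length → τ < D + 1 → k < D →
      IsR code D x W (rule1 (sAct k (fty code pc τ k)) (sCtrl pc τ) 0)
  | c4 (pc τ : ℕ) : pc < code.length → τ < D + 1 → 2 ≤ (fent code pc τ).1 →
      IsR code D x W (rule1 (sCell (fstk code pc) ((fent code pc τ).1 - 1)) (sCtrl pc τ)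
        (-(W : ℤ)))
  | s1 (k a ty : ℕ) : k < D → a < D + 1 → ty ≤ 2 →
      IsR code D x W ⟨sAct k ty, sAct k ty, -1, sCell k a, 0⟩
  | s2 (k a : ℕ) : k < D → a < D + 1 →
      IsR code D x W ⟨sCell k a, sAct k 0, -(W : ℤ), sCell k a, -(W : ℤ)⟩
  | s3 (k a : ℕ) : k < D → a < D + 1 →
      IsR code D x W ⟨sCell k a, sAct k 1, -(W : ℤ), sCell k a, -(W : ℤ) + 1⟩
  | s4 (k a : ℕ) : k < D → a < D + 1 →
      IsR code D x W ⟨sCell k a, sAct k 2, -(W : ℤ) - 1, sCell k a, -(W : ℤ) - 1⟩
  | b1 : IsR code D x W (rule1 sBack (sState code.length) 0)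
  | b2 (pc : ℕ) : pc < code.length → IsR code D x W ⟨sBack, sBack, (W : ℤ), sState pc, 0⟩

variable {code : FCode} {D : ℕ} {x : List Bool} {W T : ℕ}

theorem mem_rules {r : Rule} : r ∈ (fhorn code D x W).rules ↔ IsR code D x W r := by
  simp only [fhorn, List.mem_append, rulesInit, rulesCtrl, rulesStk, rulesBack, List.mem_cons,
    List.mem_map, List.mem_range, List.mem_flatMap, List.not_mem_nil, or_false]
  constructor
  · rintro ((((rfl | rfl | ⟨i, hi, rfl⟩ | ⟨k, hk, rfl⟩) |
      ⟨pc, hpc, τ, hτ, rfl | rfl | ⟨k, hk, rfl⟩ | h⟩) |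
      ⟨k, hk, a, ha, rfl | rfl | rfl | rfl | rfl | rfl⟩) | rfl | ⟨pc, hpc, rfl⟩)
    · exact .i1
    · exact .i2
    · exact .i3 i hi
    · exact .i4 k hk
    · exact .c1 pc τ hpc hτ
    · exact .c2 pc τ hpc hτ
    · exact .c3 pc τ k hpc hτ hk
    · split_ifs at h with h2
      · rw [List.mem_singleton.1 h]; exact .c4 pc τ hpc hτ h2
      · simp at h
    · exact .s1 k a 0 hk ha (by omega)
    · exact .s1 k a 1 hk ha (by omega)
    · exact .s1 k a 2 hk ha (by omega)
    · exact .s2 k a hk ha
    · exact .s3 k a hk ha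
    · exact .s4 k a hk ha
    · exact .b1
    · exact .b2 pc hpc
  · intro h
    cases h with
    | i1 => exact .inl (.inl (.inl (.inl rfl)))
    | i2 => exact .inl (.inl (.inl (.inr (.inl rfl))))
    | i3 i hi => exact .inl (.inl (.inl (.inr (.inr (.inl ⟨i, hi, rfl⟩)))))
    | i4 k hk => exact .inl (.inl (.inl (.inr (.inr (.inr ⟨k, hk, rfl⟩)))))
    | c1 pc τ hpc hτ => exact .inl (.inl (.inr ⟨pc, hpc, τ, hτ, .inl rfl⟩))
    | c2 pc τ hpc hτ => exact .inl (.inl (.inr ⟨pc, hpc, τ, hτ, .inr (.inl rfl)⟩))
    | c3 pc τ k hpc hτ hk =>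
      exact .inl (.inl (.inr ⟨pc, hpc, τ, hτ, .inr (.inr (.inl ⟨k, hk, rfl⟩))⟩))
    | c4 pc τ hpc hτ h2 =>
      exact .inl (.inl (.inr ⟨pc, hpc, τ, hτ, .inr (.inr (.inr (by simp [h2])))⟩))
    | s1 k a ty hk ha hty =>
      refine .inl (.inr ⟨k, hk, a, ha, ?_⟩)
      interval_cases ty
      · exact .inl rfl
      · exact .inr (.inl rfl)
      · exact .inr (.inr (.inl rfl))
    | s2 k a hk ha => exact .inl (.inr ⟨k, hk, a, ha, .inr (.inr (.inr (.inl rfl)))⟩)
    | s3 k a hk ha => exact .inl (.inr ⟨k, hk, a, ha, .inr (.inr (.inr (.inr (.inl rfl))))⟩)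
    | s4 k a hk ha => exact .inl (.inr ⟨k, hk, a, ha, .inr (.inr (.inr (.inr (.inr rfl))))⟩)
    | b1 => exact .inr (.inl rfl)
    | b2 pc hpc => exact .inr (.inr ⟨pc, hpc, rfl⟩)

variable (code D x) in
/-- program counter at time `t` -/
def pcs (t : ℕ) : ℕ := (frun code D x t).1

variable (code D x) in
/-- stack `k` at time `t` -/
def sts (t k : ℕ) : List ℕ := (frun code D x t).2.getD k []

variable (code D x) in
/-- the top code read at time `t` -/
def tau (t : ℕ) : ℕ := topc (sts code D x t (fstk code (pcs code D x t)))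

variable (code D x) in
/-- the machine has not halted before time `t` -/
def Live (t : ℕ) : Prop := ∀ t' < t, pcs code D x t' < code.length

theorem live_zero : Live code D x 0 := fun _ h => absurd h (Nat.not_lt_zero _)

theorem live_succ {t : ℕ} :
    Live code D x (t + 1) ↔ Live code D x t ∧ pcs code D x t < code.length :=
  ⟨fun h => ⟨fun t' ht' => h t' (by omega), h t (by omega)⟩, fun h t' ht' => by
    rcases Nat.lt_succ_iff_lt_or_eq.1 ht' with e | rfl
    exacts [h.1 t' e, h.2]⟩

theorem frun_succ (t : ℕ) : frun code D x (t + 1) = fstep code (frun code D x t) :=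
  Function.iterate_succ_apply' _ _ _

theorem length_run (hw : FWF code D) (t : ℕ) : (frun code D x t).2.length = D := by
  induction t with
  | zero => have := hw.1; simp [frun, finit]; omega
  | succ t ih =>
    rw [frun_succ, fstep]
    split_ifs
    · simpa using ih
    · exact ih

theorem fstk_lt (hw : FWF code D) {pc : ℕ} (h : pc < code.length) : fstk code pc < D := by
  rw [fstk, List.getD_eq_getElem _ _ h]
  exact (hw.2 _ (List.getElem_mem h)).1

theorem fent_lt (hw : FWF code D) {pc : ℕ} (h : pc < code.length) (τ : ℕ) :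
    (fent code pc τ).1 < D + 2 := by
  rw [fent, List.getD_eq_getElem _ _ h]
  by_cases hτ : τ < (code[pc]).2.length
  · rw [List.getD_eq_getElem _ _ hτ]
    exact (hw.2 _ (List.getElem_mem h)).2 _ (List.getElem_mem hτ)
  · rw [List.getD_eq_default _ _ (Nat.not_lt.1 hτ)]
    show 0 < D + 2
    omega

theorem pcs_succ {t : ℕ} (h : pcs code D x t < code.length) :
    pcs code D x (t + 1) =
      min (fent code (pcs code D x t) (tau code D x t)).2 (code.length + 1) := by
  rw [pcs, frun_succ, fstep, if_pos (show (frun code D x t).1 < code.length from h)]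
  rfl

theorem sts_succ (hw : FWF code D) {t : ℕ} (h : pcs code D x t < code.length) (k : ℕ) :
    sts code D x (t + 1) k = if k = fstk code (pcs code D x t) then
      act (fent code (pcs code D x t) (tau code D x t)).1 (sts code D x t k)
      else sts code D x t k := by
  have h1 : fstk code (pcs code D x t) < (frun code D x t).2.length := by
    rw [length_run hw]; exact fstk_lt hw h
  rw [sts, frun_succ, fstep, if_pos (show (frun code D x t).1 < code.length from h)]
  simp only [tau, sts, pcs] at h1 ⊢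
  split_ifs with hk
  · subst hk
    simp only [List.getD_eq_getElem?_getD]
    rw [List.getElem?_set_self h1]
    rfl
  · simp only [List.getD_eq_getElem?_getD]
    rw [List.getElem?_set_ne (Ne.symm hk)]

theorem sts_halt {t : ℕ} (h : code.length ≤ pcs code D x t) (k : ℕ) :
    sts code D x (t + 1) k = sts code D x t k := by
  rw [sts, frun_succ, fstep_halted h]; rfl

theorem sts_zero_zero : sts code D x 0 0 = x.map Bool.toNat := by simp [sts, frun, finit]

theorem sts_zero_succ (k : ℕ) : sts code D x 0 (k + 1) = [] := by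
  simp only [sts, frun, finit, Function.iterate_zero, id, List.getD_cons_succ]
  rw [List.getD_eq_getElem?_getD, List.getElem?_replicate]
  split_ifs <;> rfl

theorem fty_le (pc τ k : ℕ) : fty code pc τ k ≤ 2 := by
  unfold fty; split_ifs <;> omega

theorem topc_eq_zero {l : List ℕ} : topc l = 0 ↔ l = [] := by
  cases l <;> simp [topc]

theorem sts0 (hw : FWF code D) {t k : ℕ} (h : pcs code D x t < code.length)
    (hf : fty code (pcs code D x t) (tau code D x t) k = 0) :
    sts code D x (t + 1) k = sts code D x t k := by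
  rw [sts_succ hw h]
  split_ifs with hk
  · unfold fty at hf
    unfold act
    split_ifs at hf with h1 h2 h3
    · rcases h1 with h1 | h1
      · exact absurd hk h1
      · rw [if_pos h1]
    · have : sts code D x t k = [] := by rw [hk]; exact topc_eq_zero.1 h3
      rw [h2, this]; rfl
  · rfl

theorem sts1 (hw : FWF code D) {t k : ℕ} (h : pcs code D x t < code.length)
    (hf : fty code (pcs code D x t) (tau code D x t) k = 1) :
    sts code D x (t + 1) k = (sts code D x t k).tail ∧ sts code D x t k ≠ [] := by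
  rw [sts_succ hw h]
  unfold fty at hf
  split_ifs at hf with h1 h2 h3
  · push Not at h1
    refine ⟨by rw [if_pos h1.1, h2]; rfl, fun e => h3 ?_⟩
    rw [tau, ← h1.1, e]; rfl
  · omega

theorem sts2 (hw : FWF code D) {t k : ℕ} (h : pcs code D x t < code.length)
    (hf : fty code (pcs code D x t) (tau code D x t) k = 2) :
    k = fstk code (pcs code D x t) ∧ 2 ≤ (fent code (pcs code D x t) (tau code D x t)).1 ∧
      sts code D x (t + 1) k =
        ((fent code (pcs code D x t) (tau code D x t)).1 - 2) :: sts code D x t k := by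
  rw [sts_succ hw h]
  unfold fty at hf
  split_ifs at hf with h1 h2 h3
  · omega
  · push Not at h1
    exact ⟨h1.1, by omega, by rw [if_pos h1.1, act, if_neg h1.2, if_neg h2]⟩

theorem fty_two {pc τ : ℕ} (h : 2 ≤ (fent code pc τ).1) : fty code pc τ (fstk code pc) = 2 := by
  unfold fty
  rw [if_neg (by omega), if_neg (by omega)]

theorem sts_inv (hw : FWF code D) (t k : ℕ) :
    (sts code D x t k).length ≤ x.length + t ∧ ∀ a ∈ sts code D x t k, a < D := by
  induction t with
  | zero =>
    cases k with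
    | zero =>
      rw [sts_zero_zero]
      refine ⟨by simp, fun a ha => ?_⟩
      obtain ⟨b, -, rfl⟩ := List.mem_map.1 ha
      have := hw.1
      cases b <;> simp <;> omega
    | succ k => rw [sts_zero_succ]; simp
  | succ t ih =>
    by_cases h : pcs code D x t < code.length
    · have h3 := fty_le (code := code) (pcs code D x t) (tau code D x t) k
      rcases (by omega : fty code (pcs code D x t) (tau code D x t) k = 0 ∨
        fty code (pcs code D x t) (tau code D x t) k = 1 ∨
        fty code (pcs code D x t) (tau code D x t) k = 2) with e | e | e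
      · rw [sts0 hw h e]; exact ⟨by omega, ih.2⟩
      · rw [(sts1 hw h e).1]
        exact ⟨by simp; omega, fun a ha => ih.2 a (List.mem_of_mem_tail ha)⟩
      · rw [(sts2 hw h e).2.2]
        refine ⟨by simp; omega, fun a ha => ?_⟩
        rcases List.mem_cons.1 ha with rfl | ha
        · have := fent_lt hw h (tau code D x t)
          have := (sts2 hw h e).2.1
          omega
        · exact ih.2 a ha
    · rw [sts_halt (Nat.not_lt.1 h)]; exact ⟨by omega, ih.2⟩

theorem topc_drop_lt (hw : FWF code D) (t k i : ℕ) : topc ((sts code D x t k).drop i) < D + 1 := by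
  rcases e : (sts code D x t k).drop i with _ | ⟨a, l⟩
  · simp [topc]
  · have : a ∈ sts code D x t k := List.mem_of_mem_drop (e ▸ List.mem_cons_self)
    have := (sts_inv hw t k).2 a this
    simp only [topc]
    omega

theorem tau_lt (hw : FWF code D) (t : ℕ) : tau code D x t < D + 1 := topc_drop_lt hw t _ 0

variable (code D x W T) in
/-- the meaning of the facts -/
inductive Sem : Sg → ℤ → Prop
  | q0 : Sem sQ0 0
  | back (t : ℕ) : Live code D x t → pcs code D x T = code.length → Sem sBack (t * W)
  | state (t : ℕ) : Live code D x t → Sem (sState (pcs code D x t)) (t * W)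
  | ctrl (t : ℕ) : Live code D x (t + 1) → Sem (sCtrl (pcs code D x t) (tau code D x t)) (t * W)
  | cell (t k i : ℕ) : Live code D x t → i ≤ (sts code D x t k).length →
      Sem (sCell k (topc ((sts code D x t k).drop i))) (t * W + i)
  | act (t k i : ℕ) : Live code D x (t + 1) → i ≤ (sts code D x t k).length →
      Sem (sAct k (fty code (pcs code D x t) (tau code D x t) k)) (t * W + i)

theorem Sem.cast {q q' : Sg} {c c' : ℤ} (h : Sem code D x W T q c) (h1 : q = q') (h2 : c = c') :
    Sem code D x W T q' c' := h1 ▸ h2 ▸ h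

theorem Sem.inv {q : Sg} {c : ℤ} (h : Sem code D x W T q c) :
    (q = sQ0 ∧ c = 0) ∨
    (∃ t : ℕ, Live code D x t ∧ pcs code D x T = code.length ∧ q = sBack ∧ c = t * W) ∨
    (∃ t : ℕ, Live code D x t ∧ q = sState (pcs code D x t) ∧ c = t * W) ∨
    (∃ t : ℕ, Live code D x (t + 1) ∧ q = sCtrl (pcs code D x t) (tau code D x t) ∧ c = t * W) ∨
    (∃ t k i : ℕ, Live code D x t ∧ i ≤ (sts code D x t k).length ∧
      q = sCell k (topc ((sts code D x t k).drop i)) ∧ c = t * W + i) ∨
    (∃ t k i : ℕ, Live code D x (t + 1) ∧ i ≤ (sts code D x t k).length ∧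
      q = sAct k (fty code (pcs code D x t) (tau code D x t) k) ∧ c = t * W + i) := by
  cases h with
  | q0 => exact .inl ⟨rfl, rfl⟩
  | back t h1 h2 => exact .inr (.inl ⟨t, h1, h2, rfl, rfl⟩)
  | state t h1 => exact .inr (.inr (.inl ⟨t, h1, rfl, rfl⟩))
  | ctrl t h1 => exact .inr (.inr (.inr (.inl ⟨t, h1, rfl, rfl⟩)))
  | cell t k i h1 h2 => exact .inr (.inr (.inr (.inr (.inl ⟨t, k, i, h1, h2, rfl, rfl⟩))))
  | act t k i h1 h2 => exact .inr (.inr (.inr (.inr (.inr ⟨t, k, i, h1, h2, rfl, rfl⟩))))

theorem Sem.inv_q0 {c : ℤ} (h : Sem code D x W T sQ0 c) : c = 0 := by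
  rcases h.inv with ⟨-, h⟩ | ⟨_, -, -, h, -⟩ | ⟨_, -, h, -⟩ | ⟨_, -, h, -⟩ | ⟨_, _, _, -, -, h, -⟩ |
    ⟨_, _, _, -, -, h, -⟩
  · exact h
  all_goals simp [sQ0, sBack, sState, sCtrl, sCell, sAct] at h

theorem Sem.inv_back {c : ℤ} (h : Sem code D x W T sBack c) : pcs code D x T = code.length := by
  rcases h.inv with ⟨h, -⟩ | ⟨_, -, h, -, -⟩ | ⟨_, -, h, -⟩ | ⟨_, -, h, -⟩ | ⟨_, _, _, -, -, h, -⟩ |
    ⟨_, _, _, -, -, h, -⟩
  any_goals exact h
  all_goals simp [sQ0, sBack, sState, sCtrl, sCell, sAct] at h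

theorem Sem.inv_state {pc : ℕ} {c : ℤ} (h : Sem code D x W T (sState pc) c) :
    ∃ t : ℕ, Live code D x t ∧ pc = pcs code D x t ∧ c = t * W := by
  rcases h.inv with ⟨h, -⟩ | ⟨_, -, -, h, -⟩ | ⟨t, h1, h, h2⟩ | ⟨_, -, h, -⟩ |
    ⟨_, _, _, -, -, h, -⟩ | ⟨_, _, _, -, -, h, -⟩
  all_goals simp [sQ0, sBack, sState, sCtrl, sCell, sAct] at h
  exact ⟨t, h1, h, h2⟩

theorem Sem.inv_ctrl {pc τ : ℕ} {c : ℤ} (h : Sem code D x W T (sCtrl pc τ) c) :
    ∃ t : ℕ, Live code D x (t + 1) ∧ pc = pcs code D x t ∧ τ = tau code D x t ∧ c = t * W := by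
  rcases h.inv with ⟨h, -⟩ | ⟨_, -, -, h, -⟩ | ⟨_, -, h, -⟩ | ⟨t, h1, h, h2⟩ |
    ⟨_, _, _, -, -, h, -⟩ | ⟨_, _, _, -, -, h, -⟩
  all_goals simp [sQ0, sBack, sState, sCtrl, sCell, sAct] at h
  exact ⟨t, h1, h.1, h.2, h2⟩

theorem Sem.inv_cell {k a : ℕ} {c : ℤ} (h : Sem code D x W T (sCell k a) c) :
    ∃ t i : ℕ, Live code D x t ∧ i ≤ (sts code D x t k).length ∧
      a = topc ((sts code D x t k).drop i) ∧ c = t * W + i := by
  rcases h.inv with ⟨h, -⟩ | ⟨_, -, -, h, -⟩ | ⟨_, -, h, -⟩ | ⟨_, -, h, -⟩ |
    ⟨t, k', i, h1, h2, h, h3⟩ | ⟨_, _, _, -, -, h, -⟩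
  all_goals simp [sQ0, sBack, sState, sCtrl, sCell, sAct] at h
  obtain ⟨rfl, h⟩ := h
  exact ⟨t, i, h1, h2, h, h3⟩

theorem Sem.inv_act {k ty : ℕ} {c : ℤ} (h : Sem code D x W T (sAct k ty) c) :
    ∃ t i : ℕ, Live code D x (t + 1) ∧ i ≤ (sts code D x t k).length ∧
      ty = fty code (pcs code D x t) (tau code D x t) k ∧ c = t * W + i := by
  rcases h.inv with ⟨h, -⟩ | ⟨_, -, -, h, -⟩ | ⟨_, -, h, -⟩ | ⟨_, -, h, -⟩ |
    ⟨_, _, _, -, -, h, -⟩ | ⟨t, k', i, h1, h2, h, h3⟩
  all_goals simp [sQ0, sBack, sState, sCtrl, sCell, sAct] at h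
  obtain ⟨rfl, h⟩ := h
  exact ⟨t, i, h1, h2, h, h3⟩

theorem decode {t t' i i' : ℕ} (hi : i < W) (hi' : i' < W)
    (h : (t : ℤ) * W + i = t' * W + i') : t = t' ∧ i = i' := by
  have h' : t * W + i = t' * W + i' := by exact_mod_cast h
  have e : t = t' := by
    rcases lt_trichotomy t t' with e | e | e
    · have := Nat.mul_le_mul_right W (Nat.succ_le_of_lt e)
      rw [Nat.succ_mul] at this
      omega
    · exact e
    · have := Nat.mul_le_mul_right W (Nat.succ_le_of_lt e)
      rw [Nat.succ_mul] at this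
      omega
  subst e
  exact ⟨rfl, by omega⟩

theorem live_le (hT : code.length ≤ (frun code D x T).1) {t : ℕ} (h : Live code D x t) : t ≤ T := by
  by_contra e
  exact absurd (h T (Nat.not_le.1 e)) (Nat.not_lt.2 hT)

theorem sound (hw : FWF code D) (hT : code.length ≤ (frun code D x T).1)
    (hW : x.length + T + 2 ≤ W) {q : Sg} {c : ℤ} (h : Der (fhorn code D x W) q c) :
    Sem code D x W T q c := by
  have hlt : ∀ {t k i : ℕ}, Live code D x t → i ≤ (sts code D x t k).length → i + 1 < W :=
    fun {t k i} h1 h2 => by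
      have := live_le hT h1
      have := (sts_inv (x := x) hw t k).1
      omega
  induction h with
  | init => exact .q0
  | @rule r c hr _ _ ih1 ih2 =>
    cases mem_rules.1 hr with
    | i1 => exact (Sem.state 0 live_zero).cast rfl (by have := ih1.inv_q0; simp_all [rule1])
    | i2 =>
      have := ih1.inv_q0
      refine (Sem.cell 0 0 x.length live_zero (by simp [sts_zero_zero])).cast ?_ ?_
      · rw [sts_zero_zero, List.drop_of_length_le (by simp)]; rfl
      · simp only [rule1] at this
        push_cast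
        omega
    | i3 i hi =>
      have := ih1.inv_q0
      refine (Sem.cell 0 0 i live_zero (by simp [sts_zero_zero, hi.le])).cast ?_ ?_
      · rw [sts_zero_zero, List.drop_eq_getElem_cons (by simpa using hi)]
        simp [rule1, topc, List.getElem?_eq_getElem hi]
      · simp only [rule1] at this
        push_cast
        omega
    | i4 k hk =>
      have := ih1.inv_q0
      refine (Sem.cell 0 (k + 1) 0 live_zero (Nat.zero_le _)).cast ?_ ?_
      · rw [sts_zero_succ]; rfl
      · simp only [rule1] at this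
        push_cast
        omega
    | c1 pc τ hpc hτ =>
      obtain ⟨t, h1, rfl, h2⟩ := ih1.inv_state
      obtain ⟨t', i, h3, h4, rfl, h5⟩ := ih2.inv_cell
      have h6 := hlt h3 h4
      obtain ⟨rfl, rfl⟩ := decode (t := t) (t' := t') (i := 0) (i' := i) (W := W) (by omega)
        (by omega) (by dsimp only at h2 h5; push_cast; omega)
      exact (Sem.ctrl t (live_succ.2 ⟨h1, hpc⟩)).cast rfl (by dsimp only at h2; omega)
    | c2 pc τ hpc hτ =>
      obtain ⟨t, h1, rfl, rfl, h2⟩ := ih1.inv_ctrl
      refine (Sem.state (t + 1) h1).cast (by rw [pcs_succ hpc]; rfl) ?_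
      simp only [rule1] at h2
      push_cast
      linarith
    | c3 pc τ k hpc hτ hk =>
      obtain ⟨t, h1, rfl, rfl, h2⟩ := ih1.inv_ctrl
      refine (Sem.act t k 0 h1 (Nat.zero_le _)).cast rfl ?_
      simp only [rule1] at h2
      push_cast
      linarith
    | c4 pc τ hpc hτ h2' =>
      obtain ⟨t, h1, rfl, rfl, h2⟩ := ih1.inv_ctrl
      refine (Sem.cell (t + 1) (fstk code (pcs code D x t)) 0 h1 (Nat.zero_le _)).cast ?_ ?_
      · rw [(sts2 hw hpc (fty_two h2')).2.2]
        simp only [List.drop_zero, topc, rule1]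
        congr 1
        omega
      · simp only [rule1] at h2
        push_cast
        linarith
    | s1 k a ty hk ha hty =>
      obtain ⟨t, i, h1, h2, rfl, h3⟩ := ih1.inv_act
      obtain ⟨t', i', h4, h5, rfl, h6⟩ := ih2.inv_cell
      have h7 := hlt (live_succ.1 h1).1 h2
      have h8 := hlt h4 h5
      obtain ⟨rfl, rfl⟩ := decode (t := t) (t' := t') (i := i + 1) (i' := i') (W := W) (by omega)
        (by omega) (by dsimp only at h3 h6; push_cast; omega)
      exact (Sem.act t k (i + 1) h1 h5).cast rfl (by dsimp only at h6; omega)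
    | s2 k a hk ha =>
      obtain ⟨t, i, h1, h2, h0, h3⟩ := ih1.inv_act
      obtain ⟨t', i', h4, h5, rfl, h6⟩ := ih2.inv_cell
      have h7 := hlt (live_succ.1 h1).1 h2
      have h8 := hlt h4 h5
      obtain ⟨rfl, rfl⟩ := decode (t := t) (t' := t') (i := i) (i' := i') (W := W) (by omega)
        (by omega) (by dsimp only at h3 h6; omega)
      have e := sts0 hw (live_succ.1 h1).2 h0.symm
      refine (Sem.cell (t + 1) k i h1 (by rw [e]; exact h2)).cast (by rw [e]) ?_
      dsimp only at h3
      push_cast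
      linarith
    | s3 k a hk ha =>
      obtain ⟨t, i, h1, h2, h0, h3⟩ := ih1.inv_act
      obtain ⟨t', i', h4, h5, rfl, h6⟩ := ih2.inv_cell
      have h7 := hlt (live_succ.1 h1).1 h2
      have h8 := hlt h4 h5
      obtain ⟨rfl, rfl⟩ := decode (t := t) (t' := t') (i := i + 1) (i' := i') (W := W) (by omega)
        (by omega) (by dsimp only at h3 h6; push_cast; omega)
      have e := (sts1 hw (live_succ.1 h1).2 h0.symm).1
      refine (Sem.cell (t + 1) k i h1 (by rw [e]; simp; omega)).cast (by rw [e, List.drop_tail]) ?_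
      dsimp only at h3
      push_cast
      linarith
    | s4 k a hk ha =>
      obtain ⟨t, i, h1, h2, h0, h3⟩ := ih1.inv_act
      obtain ⟨t', i', h4, h5, rfl, h6⟩ := ih2.inv_cell
      have h7 := hlt (live_succ.1 h1).1 h2
      have h8 := hlt h4 h5
      obtain ⟨rfl, rfl⟩ := decode (t := t) (t' := t') (i := i) (i' := i') (W := W) (by omega)
        (by omega) (by dsimp only at h3 h6; omega)
      have e := (sts2 hw (live_succ.1 h1).2 h0.symm).2.2
      refine (Sem.cell (t + 1) k (i + 1) h1 (by rw [e]; simp; omega)).cast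
        (by rw [e, List.drop_succ_cons]) ?_
      dsimp only at h3
      push_cast
      linarith
    | b1 =>
      obtain ⟨t, h1, h2, h3⟩ := ih1.inv_state
      refine (Sem.back t h1 ?_).cast rfl (by simp only [rule1] at h3; omega)
      rw [pcs, frun_halted (t := t) h2.le (live_le hT h1)]
      exact h2.symm
    | b2 pc hpc =>
      obtain ⟨t, h1, -, h3⟩ := ih2.inv_state
      exact (Sem.back t h1 ih1.inv_back).cast rfl (by dsimp only at h3; omega)

theorem app {r : Rule} (hr : IsR code D x W r) {c c1 c2 : ℤ}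
    (h1 : Der (fhorn code D x W) r.in1 c1) (h2 : Der (fhorn code D x W) r.in2 c2)
    (e1 : c1 = c + r.sh1) (e2 : c2 = c + r.sh2) : Der (fhorn code D x W) r.out c :=
  Der.rule (mem_rules.2 hr) (e1 ▸ h1) (e2 ▸ h2)

theorem app1 {out q : Sg} {σ : ℤ} (hr : IsR code D x W (rule1 out q σ)) {c c1 : ℤ}
    (h1 : Der (fhorn code D x W) q c1) (e1 : c1 = c + σ) : Der (fhorn code D x W) out c :=
  app hr h1 h1 e1 e1

theorem complete (hw : FWF code D) {t : ℕ} (h : Live code D x t) :
    Der (fhorn code D x W) (sState (pcs code D x t)) (t * W) ∧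
      ∀ k < D, ∀ i ≤ (sts code D x t k).length,
        Der (fhorn code D x W) (sCell k (topc ((sts code D x t k).drop i))) (t * W + i) := by
  have h0 : Der (fhorn code D x W) sQ0 0 := Der.init
  induction t with
  | zero =>
    refine ⟨app1 .i1 h0 (by simp), fun k hk i hi => ?_⟩
    cases k with
    | zero =>
      rw [sts_zero_zero] at hi ⊢
      rw [List.length_map] at hi
      rcases hi.lt_or_eq with hi | rfl
      · have := app1 (.i3 i hi) h0 (c := (0 : ℕ) * W + i) (by simp)
        rw [List.drop_eq_getElem_cons (by simpa using hi)]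
        simpa [topc, List.getElem?_eq_getElem hi] using this
      · rw [List.drop_of_length_le (by simp)]
        exact app1 .i2 h0 (by simp)
    | succ k =>
      rw [sts_zero_succ] at hi ⊢
      obtain rfl : i = 0 := by simpa using hi
      exact app1 (.i4 k (by omega)) h0 (by simp)
  | succ t ih =>
    obtain ⟨hl, hpc⟩ := live_succ.1 h
    obtain ⟨ih1, ih2⟩ := ih hl
    have hτ := tau_lt (x := x) hw t
    have hc : Der (fhorn code D x W) (sCtrl (pcs code D x t) (tau code D x t)) (t * W) :=
      app (.c1 _ _ hpc hτ) ih1 (ih2 _ (fstk_lt hw hpc) 0 (Nat.zero_le _)) (by simp) (by simp)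
    have ha : ∀ k < D, ∀ i ≤ (sts code D x t k).length,
        Der (fhorn code D x W) (sAct k (fty code (pcs code D x t) (tau code D x t) k))
          (t * W + i) := by
      intro k hk i hi
      induction i with
      | zero => exact app1 (.c3 _ _ k hpc hτ hk) hc (by simp)
      | succ i ihi =>
        exact app (.s1 k _ _ hk (topc_drop_lt hw t k (i + 1)) (fty_le _ _ _)) (ihi (by omega))
          (ih2 k hk (i + 1) hi) (by push_cast; ring) (by simp)
    refine ⟨?_, fun k hk i hi => ?_⟩
    · rw [pcs_succ hpc]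
      exact app1 (.c2 _ _ hpc hτ) hc (by push_cast; ring)
    · have h3 := fty_le (code := code) (pcs code D x t) (tau code D x t) k
      have ha' := ha k hk
      rcases (by omega : fty code (pcs code D x t) (tau code D x t) k = 0 ∨
        fty code (pcs code D x t) (tau code D x t) k = 1 ∨
        fty code (pcs code D x t) (tau code D x t) k = 2) with e | e | e
      · rw [sts0 hw hpc e] at hi ⊢
        rw [e] at ha'
        exact app (.s2 k _ hk (topc_drop_lt hw t k i)) (ha' i hi) (ih2 k hk i hi)
          (by push_cast; ring) (by push_cast; ring)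
      · obtain ⟨e1, e2⟩ := sts1 hw hpc e
        rw [e1] at hi ⊢
        rw [e] at ha'
        have := List.length_pos_iff.2 e2
        rw [List.length_tail] at hi
        rw [List.drop_tail]
        exact app (.s3 k _ hk (topc_drop_lt hw t k (i + 1))) (ha' i (by omega))
          (ih2 k hk (i + 1) (by omega)) (by push_cast; ring) (by push_cast; ring)
      · obtain ⟨e1, e2, e3⟩ := sts2 hw hpc e
        rw [e3] at hi ⊢
        rw [e] at ha'
        cases i with
        | zero =>
          have := app1 (.c4 _ _ hpc hτ e2) hc (c := ((t + 1 : ℕ) : ℤ) * W + (0 : ℕ))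
            (by push_cast; ring)
          rw [← e1, show (fent code (pcs code D x t) (tau code D x t)).1 - 1 =
            (fent code (pcs code D x t) (tau code D x t)).1 - 2 + 1 by omega] at this
          exact this
        | succ i =>
          rw [List.length_cons] at hi
          rw [List.drop_succ_cons]
          exact app (.s4 k _ hk (topc_drop_lt hw t k i)) (ha' i (by omega))
            (ih2 k hk i (by omega)) (by push_cast; ring) (by push_cast; ring)

theorem back (hw : FWF code D) (hT : (frun code D x T).1 = code.length) :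
    Der (fhorn code D x W) sBack 0 := by
  classical
  have hex : ∃ t, code.length ≤ pcs code D x t := ⟨T, hT.ge⟩
  have hl : Live code D x (Nat.find hex) := fun t' ht' => Nat.not_le.1 (Nat.find_min hex ht')
  have hp : pcs code D x (Nat.find hex) = code.length := by
    have := frun_halted (Nat.find_spec hex) (Nat.find_min' hex hT.ge)
    rw [pcs, ← this, hT]
  have key : ∀ t, Live code D x t → Der (fhorn code D x W) sBack (t * W) →
      Der (fhorn code D x W) sBack 0 := by
    intro t
    induction t with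
    | zero => intro _ h; simpa using h
    | succ t ih =>
      intro h1 h2
      obtain ⟨h3, h4⟩ := live_succ.1 h1
      exact ih h3 (app (.b2 _ h4) h2 (complete hw h3).1 (by push_cast; ring) (by simp))
  refine key _ hl (app1 .b1 (c1 := (Nat.find hex : ℤ) * W) ?_ (by simp))
  have := (complete (W := W) hw hl).1
  rwa [hp] at this

end FH

open FH

theorem fhorn_spec {code : FCode} {D : ℕ} {x : List Bool} {W T : ℕ} (hw : FWF code D)
    (hT : code.length ≤ (frun code D x T).1) (hW : x.length + T + 2 ≤ W) :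
    Bnd (fhorn code D x W) (W * W) ∧
      (Der (fhorn code D x W) sBack 0 ↔ (frun code D x T).1 = code.length) := by
  have hW2 : (2 : ℤ) ≤ W := by omega
  have hWW : (W : ℤ) + 1 ≤ W * W := by nlinarith
  have hb : ∀ t i : ℕ, t ≤ T → i ≤ x.length + t → |(t : ℤ) * W + i| ≤ (W * W : ℕ) := by
    intro t i ht hi
    have h1 : (t : ℤ) + 1 ≤ W := by omega
    have h2 : (i : ℤ) ≤ W := by omega
    rw [abs_of_nonneg (by positivity)]
    push_cast
    nlinarith
  refine ⟨⟨fun q c h => ?_, fun r hr => ?_⟩, fun h => (sound hw hT hW h).inv_back, back hw⟩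
  · cases sound hw hT hW h with
    | q0 => rw [abs_zero]; positivity
    | back t h1 _ => simpa using hb t 0 (live_le hT h1) (Nat.zero_le _)
    | state t h1 => simpa using hb t 0 (live_le hT h1) (Nat.zero_le _)
    | ctrl t h1 => simpa using hb t 0 (live_le hT (live_succ.1 h1).1) (Nat.zero_le _)
    | cell t k i h1 h2 => exact hb t i (live_le hT h1) (h2.trans (sts_inv hw t k).1)
    | act t k i h1 h2 =>
      exact hb t i (live_le hT (live_succ.1 h1).1) (h2.trans (sts_inv hw t k).1)
  · push_cast
    generalize (W : ℤ) * W = B at hWW ⊢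
    cases mem_rules.1 hr <;> simp only [rule1, abs_le] <;> omega

end Crest.Agent.R290
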