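import Crest.Agent.R290.GDefs

/-!
# Row 290, task GBasic: degrees, connectedness

Plan.  `deg_gA`: for each kind of valid vertex list its neighbours explicitly (show that the filter
equals an explicit finset of `GT`, or transport the count to `(gvl nv nc).toFinset.filter`/an explicit
`Finset GV` by `Finset.card_bij`/`Finset.card_subtype`); use `GOk.var_lt`.
Connectedness: every valid vertex is reachable from `B 0` (induction along the spine, the chains;
`P o β` from `T (var cs o) o β`, `M κ t₀ t₁` from `P (3κ) t₀`).  Transport to `Fin (gN nv cs)` by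
`gE`/`mat_gF`.
-/

set_option autoImplicit false

namespace Crest.Agent.R290

open Finset Crest.WLRefine

theorem gadj_symm (cs : List (ℕ × ℕ × ℕ)) (b : ZMod 2) (x y : GV) :
    gadj cs b x y = gadj cs b y x := by
  simp [gadj, Bool.or_comm]

theorem gadj_irrefl (cs : List (ℕ × ℕ × ℕ)) (b : ZMod 2) (x : GV) : gadj cs b x x = false := by
  cases x <;> simp [gadj, edge]

/-- the list of neighbours -/
def gnb (nv : ℕ) (cs : List (ℕ × ℕ × ℕ)) (b : ZMod 2) : GV → List GV
  | .B v => if v = 0 then [.A 0] else [.A v, .A (v - 1)]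
  | .A v => if v + 1 < nv then [.B v, .Z v, .B (v + 1)] else [.B v, .Z v]
  | .Z v => [.A v, .T v 0 0, .T v 0 1]
  | .T v o β => (if o = 0 then .Z v else .S v (o - 1) β) ::
      (if o < 3 * cs.length then .S v o β else .T v o (β + 1)) ::
      if o < 3 * cs.length ∧ v = var cs o then [.P o β] else []
  | .S v o β => [.T v o β, .T v (o + 1) β]
  | .P o β => .T (var cs o) o β :: if o % 3 = 0 then [.M (o / 3) β 0, .M (o / 3) β 1]
      else if o % 3 = 1 then [.M (o / 3) 0 β, .M (o / 3) 1 β]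
      else [.M (o / 3) 0 (β + rhs b (o / 3)), .M (o / 3) 1 (β + rhs b (o / 3) + 1)]
  | .M κ t₀ t₁ => [.P (3 * κ) t₀, .P (3 * κ + 1) t₁, .P (3 * κ + 2) (t₀ + t₁ + rhs b κ)]

theorem gnb_length {nv : ℕ} {cs : List (ℕ × ℕ × ℕ)} (b : ZMod 2) (x : GV) :
    (gnb nv cs b x).length = gdeg nv cs x := by
  cases x <;> simp only [gnb, gdeg] <;> (try split_ifs) <;> rfl

theorem gnb_nodup (nv : ℕ) (cs : List (ℕ × ℕ × ℕ)) (b : ZMod 2) (x : GV) : (gnb nv cs b x).Nodup := by
  cases x <;> simp only [gnb] <;> (try split_ifs) <;> simp <;> omega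

theorem mem_gnb {nv : ℕ} {cs : List (ℕ × ℕ × ℕ)} (h : GOk nv cs) (b : ZMod 2) {x : GV}
    (hx : x.Valid nv cs.length) (y : GV) :
    y ∈ gnb nv cs b x ↔ y.Valid nv cs.length ∧ gadj cs b x y = true := by
  have h2 : ∀ β : ZMod 2, β = 0 ∨ β = 1 := by decide
  have h3 : ∀ β β' : ZMod 2, β' = β + 1 ↔ β ≠ β' := by decide
  have h4 : ∀ β r t t' : ZMod 2, (t = 0 ∧ t' = β + r ∨ t = 1 ∧ t' = β + r + 1) ↔ β = t + t' + r := by decide
  have h5 := @h.var_lt
  cases x <;> cases y <;> simp only [gnb, GV.Valid] at hx ⊢ <;> (try split_ifs) <;>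
    simp [gadj, edge, lab, ← and_or_left, ← or_and_right, -List.length_eq_zero_iff, *] <;> grind

theorem g_reach {nv : ℕ} {cs : List (ℕ × ℕ × ℕ)} (h : GOk nv cs) (b : ZMod 2) {P : GV → Prop}
    (h0 : P (.B 0)) (hs : ∀ x y, P x → x.Valid nv cs.length → gadj cs b x y = true → P y) (x : GV)
    (hx : x.Valid nv cs.length) : P x := by
  have hB : ∀ v < nv, P (.B v) := fun v => by
    induction v with
    | zero => exact fun _ => h0
    | succ v ih =>
      exact fun hv => hs (.A v) _ (hs _ _ (ih (by omega)) (Nat.lt_of_succ_lt hv) (by simp [gadj, edge]))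
        (Nat.lt_of_succ_lt hv) (by simp [gadj, edge])
  have hA : ∀ v < nv, P (.A v) := fun v hv => hs _ _ (hB v hv) hv (by simp [gadj, edge])
  have hZ : ∀ v < nv, P (.Z v) := fun v hv => hs _ _ (hA v hv) hv (by simp [gadj, edge])
  have hT : ∀ v < nv, ∀ β, ∀ o ≤ 3 * cs.length, P (.T v o β) := fun v hv β o => by
    induction o with
    | zero => exact fun _ => hs _ _ (hZ v hv) hv (by simp [gadj, edge])
    | succ o ih =>
      exact fun ho => hs (.S v o β) _ (hs _ _ (ih (by omega)) ⟨hv, by omega⟩ (by simp [gadj, edge]))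
        ⟨hv, ho⟩ (by simp [gadj, edge])
  have hP : ∀ β, ∀ o < 3 * cs.length, P (.P o β) := fun β o ho =>
    hs _ _ (hT _ (h.var_lt ho) β o ho.le) ⟨h.var_lt ho, ho.le⟩ (by simp [gadj, edge])
  cases x with
  | B v => exact hB v hx
  | A v => exact hA v hx
  | Z v => exact hZ v hx
  | T v o β => exact hT v hx.1 β o hx.2
  | S v o β => exact hs _ _ (hT v hx.1 β o hx.2.le) ⟨hx.1, hx.2.le⟩ (by simp [gadj, edge])
  | P o β => exact hP β o hx
  | M κ t₀ t₁ =>
    have : 3 * κ < 3 * cs.length := Nat.mul_lt_mul_of_pos_left hx three_pos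
    exact hs _ _ (hP t₀ _ this) this (by simp [gadj, edge, lab])

theorem deg_gA {nv : ℕ} {cs : List (ℕ × ℕ × ℕ)} (h : GOk nv cs) (b : ZMod 2)
    (x : GT nv cs.length) : deg (gA nv cs b) x = gdeg nv cs x.1 := by
  rw [← gnb_length b, ← List.toFinset_card_of_nodup (gnb_nodup nv cs b _)]
  refine card_nbij Subtype.val (fun y hy => ?_) Subtype.val_injective.injOn fun y hy => ?_
  · exact List.mem_toFinset.2 ((mem_gnb h b ((mem_gvl _ _ _).1 x.2) _).2
      ⟨(mem_gvl _ _ _).1 y.2, (mem_filter.1 hy).2⟩)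
  · have := (mem_gnb h b ((mem_gvl _ _ _).1 x.2) _).1 (List.mem_toFinset.1 hy)
    exact ⟨⟨y, (mem_gvl _ _ _).2 this.1⟩, mem_filter.2 ⟨mem_univ _, this.2⟩, rfl⟩

theorem deg_mat_gF {nv : ℕ} {cs : List (ℕ × ℕ × ℕ)} (h : GOk nv cs) (b : ZMod 2)
    (i : Fin (gN nv cs)) :
    1 ≤ deg (mat (gN nv cs) (gF nv cs b)) i ∧ deg (mat (gN nv cs) (gF nv cs b)) i ≤ 3 := by
  have : deg (mat (gN nv cs) (gF nv cs b)) i = deg (gA nv cs b) (gE nv cs i) :=
    card_equiv (gE nv cs) (by simp [mat_gF])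
  rw [this, deg_gA h]
  generalize (gE nv cs i).1 = x
  cases x <;> simp only [gdeg] <;> (try split_ifs) <;> omega

theorem five_le_gN {nv : ℕ} {cs : List (ℕ × ℕ × ℕ)} (h : GOk nv cs) : 5 ≤ gN nv cs := by
  have : List.Subperm [GV.B 0, .A 0, .Z 0, .T 0 0 0, .T 0 0 1] (gvl nv cs.length) :=
    List.subperm_of_subset (by decide) (by simp [mem_gvl, GV.Valid, h.1])
  exact this.length_le

theorem g_promise {nv : ℕ} {cs : List (ℕ × ℕ × ℕ)} (h : GOk nv cs) (b : ZMod 2) :
    SimpleConnSubcubic (mat (gN nv cs) (gF nv cs b)) := by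
  refine ⟨⟨fun i j => by rw [mat_gF, mat_gF, gA, gA, gadj_symm], fun i => by rw [mat_gF, gA, gadj_irrefl]⟩, ?_,
    fun i => (deg_mat_gF h b i).2⟩
  have h0 : GV.B 0 ∈ gvl nv cs.length := (mem_gvl _ _ _).2 h.1
  refine (SimpleGraph.connected_iff_exists_forall_reachable _).2 ⟨(gE nv cs).symm ⟨_, h0⟩, fun i => ?_⟩
  have := g_reach h b (P := fun x => ∀ hx, (adjGraph (mat (gN nv cs) (gF nv cs b))).Reachable
    ((gE nv cs).symm ⟨_, h0⟩) ((gE nv cs).symm ⟨x, hx⟩)) (fun _ => .refl _) (fun x y hx hv hxy hy => by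
      refine (hx ((mem_gvl _ _ _).2 hv)).trans (SimpleGraph.Adj.reachable ⟨fun e => ?_, .inl ?_⟩)
      · obtain rfl := Subtype.mk.inj ((gE nv cs).symm.injective e)
        simp [gadj_irrefl] at hxy
      · simpa [mat_gF, gA] using hxy) _ ((mem_gvl _ _ _).1 (gE nv cs i).2) (gE nv cs i).2
  simpa using this

end Crest.Agent.R290
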