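import Crest.Agent.R290.WL

/-!
# Row 290, task WLSim: WL-equivalence gives simulations

Plan.
* `jEquiv_sim`: `R u u' := ∀ s, jcolor G k s u = jcolor H k s u'`.  Colours at round `s+1` determine
  those at round `s` (first component), so "equal at round `s`" is antitone in `s`.  Nonempty: fix
  `u`; for each `s` some `u'_s` has the colour of `u` at round `s` (equal histograms); finitely many
  `u'`, so one `u'` works for infinitely many, hence all `s`
  (`Finite.exists_infinite_fiber` or: if every `u'` fails at some round `s(u')`, take the max).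
  `forth`: for each `s` the multisets at round `s+1` agree, so `x` has a partner `y_s` with
  `jcolor s (update u i x) = jcolor s (update u' i y_s)`; the same pigeonhole.  `deg`: take `j ≠ i`
  (`k ≥ 2`); the round-1 colour gives the multiset over `z` of the atomic type of `update u j z`,
  count the members whose adjacency entry at `(i, j)` is `true` (`Multiset.countP_map`/`card_filter`).
* `sEquiv_sim`: the same with the separate multisets.
* `AdjIso` gives the simulation `R u u' := u' = e ∘ u`.
* `Discrete.iso`: from `R` between `A` and `B`, `R' u₁ u₂ := ∃ u', R u₁ u' ∧ R u₂ u'` is a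
  self-simulation of `A`, so the `R`-partner of `u'` is unique; every `u'` has a partner (apply `back`
  coordinate by coordinate) and every `u` too.  The partner of a constant tuple `y` is constant
  (`eq`), call it `g y`.  If `R u u'` then `u i = g (u' i)`: overwrite the other coordinates one at a
  time by `u' i` (`back`, and `eq` shows that the new left entry is `u i`).  With `k ≥ 2`, `eq`/`adj`
  show that `g` is injective and preserves adjacency, `forth` that it is onto.
* `jEquiv_iff_iso`: `→`: histograms at round 0 have the same size, `n ^ k = m ^ k`, so `n = m`; take a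
  tuple `u` onto `Fin n` (`n ≤ k`; if `n = 0` trivial), a tuple `u'` with the same atomic type, and
  define the injection `u i ↦ u' i`.  `←`: `jcolor H k s (e ∘ u) = jcolor G k s u`.
-/

set_option autoImplicit false

namespace Crest.Agent.R290

open Finset Crest.WLRefine

theorem IsSim.symm {V W : Type} [Fintype V] [Fintype W] {k : ℕ} {A : V → V → Bool}
    {B : W → W → Bool} {R : (Fin k → V) → (Fin k → W) → Prop} (h : IsSim k A B R) :
    IsSim k B A (fun u' u => R u u') where
  ne := let ⟨u, u', h⟩ := h.ne; ⟨u', u, h⟩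
  eq hR i j := (h.eq hR i j).symm
  adj hR i j := (h.adj hR i j).symm
  forth hR i x := h.back hR i x
  back hR i x := h.forth hR i x
  deg hR i := (h.deg hR i).symm

namespace WS

theorem deg_equiv {V V' : Type} [Fintype V] [Fintype V'] {A : V → V → Bool} {A' : V' → V' → Bool}
    (e : V' ≃ V) (hA : ∀ x y, A' x y = A (e x) (e y)) (x : V') : deg A' x = deg A (e x) := by
  unfold deg
  exact card_bij (fun y _ => e y) (by simp [hA]) (by simp) fun y hy =>
    ⟨e.symm y, by simpa [hA] using hy, by simp⟩

theorem pigeon {α : Type} [Finite α] {P : ℕ → α → Prop} (hP : ∀ s a, P (s + 1) a → P s a)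
    (h : ∀ s, ∃ a, P s a) : ∃ a, ∀ s, P s a := by
  by_contra hn
  push Not at hn
  choose f hf using hn
  obtain ⟨N, hN⟩ := (Set.finite_range f).bddAbove
  obtain ⟨a, ha⟩ := h N
  have : ∀ s t, s ≤ t → P t a → P s a := by
    intro s t hst
    induction t, hst using Nat.le_induction with
    | base => exact id
    | succ t _ ih => exact fun h => ih (hP _ _ h)
  exact hf a (this _ _ (hN ⟨a, rfl⟩) ha)

theorem partner {α β γ : Type} [Fintype α] [Fintype β] {g : α → γ} {g' : β → γ}
    (h : (univ : Finset α).val.map g = (univ : Finset β).val.map g') (x : α) : ∃ y, g x = g' y := by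
  have : g x ∈ (univ : Finset β).val.map g' := h ▸ Multiset.mem_map_of_mem _ (mem_univ x)
  obtain ⟨y, -, hy⟩ := Multiset.mem_map.1 this
  exact ⟨y, hy.symm⟩

theorem card_filter_eq {α β : Type} [Fintype α] [Fintype β] {g : α → Bool} {g' : β → Bool}
    (h : (univ : Finset α).val.map g = (univ : Finset β).val.map g') :
    (univ.filter fun x => g x = true).card = (univ.filter fun x => g' x = true).card := by
  have := congrArg (Multiset.countP (· = true)) h
  rwa [Multiset.countP_map, Multiset.countP_map] at this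

variable {n m k : ℕ} {G : Fin n → Fin n → Bool} {H : Fin m → Fin m → Bool}

theorem atomic_eq {u : Fin k → Fin n} {u' : Fin k → Fin m} (h : atomicType G u = atomicType H u') :
    (∀ i j, u i = u j ↔ u' i = u' j) ∧ ∀ i j, G (u i) (u j) = H (u' i) (u' j) :=
  ⟨fun i j => decide_eq_decide.1 (congrFun (congrFun (congrArg Prod.fst h) i) j),
    fun i j => congrFun (congrFun (congrArg Prod.snd h) i) j⟩

theorem deg_eq (hk : 2 ≤ k) {u : Fin k → Fin n} {u' : Fin k → Fin m}
    (h : ∀ j, (univ : Finset (Fin n)).val.map (fun z => atomicType G (Function.update u j z)) =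
      (univ : Finset (Fin m)).val.map fun z => atomicType H (Function.update u' j z)) (i : Fin k) :
    deg G (u i) = deg H (u' i) := by
  haveI : Nontrivial (Fin k) := Fin.nontrivial_iff_two_le.2 hk
  obtain ⟨j, hj⟩ := exists_ne i
  have := congrArg (Multiset.map fun a => a.2 i j) (h j)
  simp only [Multiset.map_map, Function.comp_def, atomicType, Function.update_self,
    Function.update_of_ne hj.symm] at this
  exact card_filter_eq this

theorem jcolor_iso (e : Fin n ≃ Fin m) (he : ∀ v w, H (e v) (e w) = G v w) (s : ℕ) (u : Fin k → Fin n) :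
    jcolor H k s (e ∘ u) = jcolor G k s u := by
  induction s generalizing u with
  | zero => simp [jcolor, atomicType, he]
  | succ s ih =>
    simp only [jcolor, ih]
    congr 1
    rw [← Multiset.map_univ_val_equiv e, Multiset.map_map]
    refine Multiset.map_congr rfl fun z _ => funext fun i => ?_
    rw [← ih, Function.comp_update]; rfl

end WS

/-- transport along relabellings -/
theorem IsSim.transport {V W V' W' : Type} [Fintype V] [Fintype W] [Fintype V'] [Fintype W'] {k : ℕ}
    {A : V → V → Bool} {B : W → W → Bool} {A' : V' → V' → Bool} {B' : W' → W' → Bool}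
    {R : (Fin k → V) → (Fin k → W) → Prop} (h : IsSim k A B R) (e : V' ≃ V) (e' : W' ≃ W)
    (hA : ∀ x y, A' x y = A (e x) (e y)) (hB : ∀ x y, B' x y = B (e' x) (e' y)) :
    IsSim k A' B' (fun u u' => R (e ∘ u) (e' ∘ u')) where
  ne := by
    obtain ⟨u, u', h⟩ := h.ne
    exact ⟨e.symm ∘ u, e'.symm ∘ u', by simpa [← Function.comp_assoc] using h⟩
  eq hR i j := by simpa using h.eq hR i j
  adj hR i j := by rw [hA, hB]; exact h.adj hR i j
  forth hR i x := by
    obtain ⟨y, hy⟩ := h.forth hR i (e x)
    exact ⟨e'.symm y, by simpa [Function.comp_update] using hy⟩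
  back hR i y := by
    obtain ⟨x, hx⟩ := h.back hR i (e' y)
    exact ⟨e.symm x, by simpa [Function.comp_update] using hx⟩
  deg hR i := by rw [WS.deg_equiv e hA, WS.deg_equiv e' hB]; exact h.deg hR i

theorem Sim.transport {V W V' W' : Type} [Fintype V] [Fintype W] [Fintype V'] [Fintype W'] {k : ℕ}
    {A : V → V → Bool} {B : W → W → Bool} {A' : V' → V' → Bool} {B' : W' → W' → Bool}
    (h : Sim k A B) (e : V' ≃ V) (e' : W' ≃ W)
    (hA : ∀ x y, A' x y = A (e x) (e y)) (hB : ∀ x y, B' x y = B (e' x) (e' y)) : Sim k A' B' := by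
  obtain ⟨R, hR⟩ := h
  exact ⟨_, hR.transport e e' hA hB⟩

theorem Discrete.transport {V V' : Type} [Fintype V] [Fintype V'] {k : ℕ} {A : V → V → Bool}
    {A' : V' → V' → Bool} (h : Discrete k A) (e : V ≃ V') (hA : ∀ x y, A x y = A' (e x) (e y)) :
    Discrete k A' := by
  intro R hR u u' huu
  have := h _ (hR.transport e e hA hA) (e.symm ∘ u) (e.symm ∘ u')
    (by simpa [← Function.comp_assoc] using huu)
  funext i
  simpa using congrFun this i

theorem jEquiv_sim {n m k : ℕ} {G : Fin n → Fin n → Bool} {H : Fin m → Fin m → Bool}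
    (h : JEquiv k G H) (hk : 2 ≤ k) (hn : 0 < n) : Sim k G H := by
  have key : ∀ {u : Fin k → Fin n} {u' : Fin k → Fin m}, (∀ s, jcolor G k s u = jcolor H k s u') →
      ∀ s i, (univ : Finset (Fin n)).val.map (fun z => jcolor G k s (Function.update u i z)) =
        (univ : Finset (Fin m)).val.map fun z => jcolor H k s (Function.update u' i z) := by
    intro u u' hR s i
    have := congrArg (fun c => Multiset.map (fun f => f i) c.2) (hR (s + 1))
    simpa only [jcolor, Multiset.map_map, Function.comp_def] using this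
  refine ⟨fun u u' => ∀ s, jcolor G k s u = jcolor H k s u', ?_, fun hR => (WS.atomic_eq (hR 0)).1,
    fun hR => (WS.atomic_eq (hR 0)).2, fun hR i x => ?_, fun hR i y => ?_,
    fun hR => WS.deg_eq hk (key hR 0)⟩
  · exact ⟨fun _ => ⟨0, hn⟩, WS.pigeon (fun s a h => congrArg Prod.fst h) fun s => WS.partner (h s) _⟩
  · exact WS.pigeon (fun s a h => congrArg Prod.fst h) fun s => WS.partner (key hR s i) x
  · refine WS.pigeon (fun s a h => congrArg Prod.fst h) fun s => ?_
    obtain ⟨x, hx⟩ := WS.partner (key hR s i).symm y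
    exact ⟨x, hx.symm⟩

theorem sEquiv_sim {n m k : ℕ} {G : Fin n → Fin n → Bool} {H : Fin m → Fin m → Bool}
    (h : SEquiv k G H) (hk : 2 ≤ k) (hn : 0 < n) : Sim k G H := by
  have key : ∀ {u : Fin k → Fin n} {u' : Fin k → Fin m}, (∀ s, scolor G k s u = scolor H k s u') →
      ∀ s i, (univ : Finset (Fin n)).val.map (fun z => scolor G k s (Function.update u i z)) =
        (univ : Finset (Fin m)).val.map fun z => scolor H k s (Function.update u' i z) :=
    fun hR s i => congrArg (fun c => c.2 i) (hR (s + 1))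
  refine ⟨fun u u' => ∀ s, scolor G k s u = scolor H k s u', ?_, fun hR => (WS.atomic_eq (hR 0)).1,
    fun hR => (WS.atomic_eq (hR 0)).2, fun hR i x => ?_, fun hR i y => ?_,
    fun hR => WS.deg_eq hk (key hR 0)⟩
  · exact ⟨fun _ => ⟨0, hn⟩, WS.pigeon (fun s a h => congrArg Prod.fst h) fun s => WS.partner (h s) _⟩
  · exact WS.pigeon (fun s a h => congrArg Prod.fst h) fun s => WS.partner (key hR s i) x
  · refine WS.pigeon (fun s a h => congrArg Prod.fst h) fun s => ?_
    obtain ⟨x, hx⟩ := WS.partner (key hR s i).symm y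
    exact ⟨x, hx.symm⟩

theorem adjIso_sim {n m : ℕ} {G : Fin n → Fin n → Bool} {H : Fin m → Fin m → Bool}
    (h : AdjIso G H) (hn : 0 < n) (k : ℕ) : Sim k G H := by
  obtain ⟨e, he⟩ := h
  refine ⟨fun u u' => u' = e ∘ u, ⟨fun _ => ⟨0, hn⟩, _, rfl⟩, ?_, ?_, ?_, ?_, ?_⟩
  · rintro u _ rfl i j; simp
  · rintro u _ rfl i j; simp [he]
  · rintro u _ rfl i x; exact ⟨e x, by rw [Function.comp_update]⟩
  · rintro u _ rfl i y; exact ⟨e.symm y, by simp [Function.comp_update]⟩
  · rintro u _ rfl i; exact WS.deg_equiv e (fun x y => (he x y).symm) _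

theorem Discrete.iso {n m k : ℕ} {G : Fin n → Fin n → Bool} {H : Fin m → Fin m → Bool}
    (hd : Discrete k G) (h : Sim k G H) (hk : 2 ≤ k) : AdjIso G H := by
  obtain ⟨R, h⟩ := h
  have uniq : ∀ {u₁ u₂ u'}, R u₁ u' → R u₂ u' → u₁ = u₂ := by
    intro u₁ u₂ u' h1 h2
    refine hd (fun u₁ u₂ => ∃ u', R u₁ u' ∧ R u₂ u') ⟨?_, ?_, ?_, ?_, ?_, ?_⟩ _ _ ⟨u', h1, h2⟩
    · obtain ⟨u, u', h⟩ := h.ne; exact ⟨u, u, u', h, h⟩
    · rintro _ _ ⟨w, h1, h2⟩ i j; exact (h.eq h1 i j).trans (h.eq h2 i j).symm
    · rintro _ _ ⟨w, h1, h2⟩ i j; exact (h.adj h1 i j).trans (h.adj h2 i j).symm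
    · rintro _ _ ⟨w, h1, h2⟩ i x
      obtain ⟨y, hy⟩ := h.forth h1 i x
      obtain ⟨x', hx⟩ := h.back h2 i y
      exact ⟨x', _, hy, hx⟩
    · rintro _ _ ⟨w, h1, h2⟩ i x
      obtain ⟨y, hy⟩ := h.forth h2 i x
      obtain ⟨x', hx⟩ := h.back h1 i y
      exact ⟨x', _, hx, hy⟩
    · rintro _ _ ⟨w, h1, h2⟩ i; exact (h.deg h1 i).trans (h.deg h2 i).symm
  -- overwriting a set of coordinates on the right
  have ovw : ∀ {u u'}, R u u' → ∀ (w' : Fin k → Fin m) (S : Finset (Fin k)),
      ∃ w, R w (fun i => if i ∈ S then w' i else u' i) ∧ ∀ i ∉ S, w i = u i := by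
    intro u u' hR w' S
    induction S using Finset.induction_on with
    | empty => exact ⟨u, by simpa using hR, fun _ _ => rfl⟩
    | insert a S _ ih =>
      obtain ⟨w, hw, hw'⟩ := ih
      obtain ⟨x, hx⟩ := h.back hw a (w' a)
      refine ⟨Function.update w a x, ?_, fun i hi => ?_⟩
      · convert hx using 1
        funext i
        by_cases hi : i = a
        · subst hi; simp
        · simp [hi]
      · rw [mem_insert, not_or] at hi
        rw [Function.update_of_ne hi.1, hw' i hi.2]
  obtain ⟨u0, u0', h0⟩ := h.ne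
  have tot : ∀ w', ∃ w, R w w' := fun w' => by simpa using (ovw h0 w' univ).imp fun _ h => h.1
  haveI : Nontrivial (Fin k) := Fin.nontrivial_iff_two_le.2 hk
  obtain ⟨i0, i1, hne⟩ := exists_pair_ne (Fin k)
  choose c hc using fun y : Fin m => tot fun _ => y
  have hg : ∀ {u u'}, R u u' → ∀ i, u i = c (u' i) i0 := by
    intro u u' hR i
    obtain ⟨w, hw, hw'⟩ := ovw hR (fun _ => u' i) (univ.erase i)
    have e : (fun j => if j ∈ univ.erase i then u' i else u' j) = fun _ => u' i := by
      funext j; by_cases hj : j = i <;> simp [hj]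
    rw [e] at hw
    rw [← hw' i (by simp), uniq hw (hc _)]
    exact (h.eq (hc _) i i0).2 rfl
  have pair : ∀ y y' : Fin m, ∃ u u', R u u' ∧ u' i0 = y ∧ u' i1 = y' := fun y y' => by
    obtain ⟨w, hw⟩ := tot fun j => if j = i0 then y else y'
    exact ⟨w, _, hw, by simp, by simp [hne.symm]⟩
  have hb : Function.Bijective fun y => c y i0 := by
    constructor
    · intro y y' e
      obtain ⟨u, u', hR, rfl, rfl⟩ := pair y y'
      exact (h.eq hR i0 i1).1 (by rw [hg hR, hg hR i1]; exact e)
    · intro x
      obtain ⟨y, hy⟩ := h.forth h0 i0 x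
      exact ⟨y, by simpa using (hg hy i0).symm⟩
  refine ⟨(Equiv.ofBijective _ hb).symm, fun v w => ?_⟩
  obtain ⟨y, rfl⟩ := hb.2 v
  obtain ⟨y', rfl⟩ := hb.2 w
  rw [Equiv.ofBijective_symm_apply_apply _ hb, Equiv.ofBijective_symm_apply_apply _ hb]
  obtain ⟨u, u', hR, rfl, rfl⟩ := pair y y'
  rw [← h.adj hR, hg hR i0, hg hR i1]

theorem jEquiv_card {n m k : ℕ} {G : Fin n → Fin n → Bool} {H : Fin m → Fin m → Bool}
    (hk : 1 ≤ k) (h : JEquiv k G H) : n = m := by
  have := congrArg Multiset.card (h 0)
  simp only [Multiset.card_map, card_val, card_univ, Fintype.card_fun, Fintype.card_fin] at this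
  exact Nat.pow_left_injective (by omega) this

theorem jEquiv_iff_iso {n m k : ℕ} {G : Fin n → Fin n → Bool} {H : Fin m → Fin m → Bool}
    (hk : 1 ≤ k) (hn : n ≤ k) : JEquiv k G H ↔ AdjIso G H := by
  constructor
  · intro h
    obtain rfl := jEquiv_card hk h
    rcases Nat.eq_zero_or_pos n with rfl | hn0
    · exact ⟨Equiv.refl _, fun v => v.elim0⟩
    obtain ⟨u', hu⟩ := WS.partner (h 0) fun i => if h : i.val < n then ⟨i, h⟩ else ⟨0, hn0⟩
    obtain ⟨h1, h2⟩ := WS.atomic_eq hu
    have hinj : Function.Injective fun v : Fin n => u' (Fin.castLE hn v) := by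
      intro v w e
      simpa using (h1 _ _).2 e
    refine ⟨Equiv.ofBijective _ (Finite.injective_iff_bijective.1 hinj), fun v w => ?_⟩
    simpa using (h2 (Fin.castLE hn v) (Fin.castLE hn w)).symm
  · rintro ⟨e, he⟩ s
    rw [← Multiset.map_univ_val_equiv (Equiv.arrowCongr (Equiv.refl (Fin k)) e), Multiset.map_map]
    exact Multiset.map_congr rfl fun u _ => (WS.jcolor_iso e he s u).symm

theorem crEquiv_card {n m : ℕ} {G : Fin n → Fin n → Bool} {H : Fin m → Fin m → Bool}
    (h : CREquiv G H) : n = m := by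
  simpa using congrArg Multiset.card (h 0)

end Crest.Agent.R290
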