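import Crest.Agent.R290.GBasic
import Crest.Agent.R290.WLSim

/-!
# Row 290, task GClass: simulations preserve classes

Plan.  `Ident C := ∀ u u', R u u' → ∀ i, cls (u i) = C ↔ cls (u' i) = C`.
STEP LEMMA: suppose `Ident C₀`; every valid `x` of class `C` has, in both graphs, a valid neighbour
of class `C₀`; and every valid neighbour `y` (in either graph) of a valid vertex of class `C₀` has
class `C`, or a class `C₁ ≠ C` with `Ident C₁`, or `gdeg y ≠ gdeg C` (`gdeg` depends on the class
only).  Then `Ident C`: if `cls (u i) = C`, move a coordinate `j ≠ i` to the neighbour (`forth`); its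
partner has class `C₀` and is adjacent to `u' i`; use `deg_gA` and `IsSim.deg`.  The converse is
symmetric (`back`; prove the one-directional statement for arbitrary `b, b', R` and swap).
Order: `B 0` (the only vertex of degree 1); `A v` from `B v`; `Z v` and `B (v+1)` from `A v`;
`T v 0` from `Z v`; `S v o` from `T v o`; `T v (o+1)` from `S v o`; `P o` from `T (var cs o) o`;
`M κ` from `P (3κ)`.
-/

set_option autoImplicit false

namespace Crest.Agent.R290

open Finset

namespace GC

/-- the class `C` is preserved by all simulations -/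
def Fw (nv : ℕ) (cs : List (ℕ × ℕ × ℕ)) (k : ℕ) (C : GV) : Prop :=
  ∀ b b' (R : (Fin k → GT nv cs.length) → (Fin k → GT nv cs.length) → Prop),
    IsSim k (gA nv cs b) (gA nv cs b') R → ∀ u u', R u u' → ∀ i, cls (u i).1 = C → cls (u' i).1 = C

variable {nv k : ℕ} {cs : List (ℕ × ℕ × ℕ)}

theorem gdeg_cls (x : GV) : gdeg nv cs (cls x) = gdeg nv cs x := by cases x <;> rfl

theorem step (h : GOk nv cs) (hk : 2 ≤ k) {C₀ C : GV} (h0 : Fw nv cs k C₀)
    (h1 : ∀ b x, x.Valid nv cs.length → cls x = C →
      ∃ y, y.Valid nv cs.length ∧ cls y = C₀ ∧ gadj cs b x y = true)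
    (h2 : ∀ b y z, cls y = C₀ → gadj cs b z y = true →
      cls z = C ∨ Fw nv cs k (cls z) ∨ gdeg nv cs z ≠ gdeg nv cs C) : Fw nv cs k C := by
  intro b b' R hR u u' huu i e
  haveI : Nontrivial (Fin k) := Fin.nontrivial_iff_two_le.2 hk
  obtain ⟨j, hj⟩ := exists_ne i
  obtain ⟨y, hy, e0, ha⟩ := h1 b _ ((mem_gvl _ _ _).1 (u i).2) e
  obtain ⟨y', hy'⟩ := hR.forth huu j ⟨y, (mem_gvl _ _ _).2 hy⟩
  have e1 := h0 _ _ _ hR _ _ hy' j (by simpa using e0)
  have e2 := hR.adj hy' i j
  simp only [Function.update_self, Function.update_of_ne hj.symm, gA] at e1 e2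
  rcases h2 b' _ _ e1 (e2 ▸ ha) with h3 | h3 | h3
  · exact h3
  · exact (h3 _ _ _ hR.symm _ _ huu i rfl).symm.trans e
  · have := hR.deg huu i
    rw [deg_gA h, deg_gA h, ← gdeg_cls, e] at this
    exact absurd this.symm h3

theorem fw_B0 (h : GOk nv cs) : Fw nv cs k (.B 0) := by
  intro b b' R hR u u' huu i e
  have := hR.deg huu i
  rw [deg_gA h, deg_gA h, ← gdeg_cls, e] at this
  generalize (u' i).1 = z at this ⊢
  cases z <;> simp only [gdeg, if_true] at this <;> (try split_ifs at this) <;> simp_all [cls]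

theorem fw_all (h : GOk nv cs) (hk : 2 ≤ k) (x : GV) : Fw nv cs k (cls x) := by
  have hA : ∀ v, Fw nv cs k (.B v) → (∀ w, v = w + 1 → Fw nv cs k (.A w)) → Fw nv cs k (.A v) := by
    intro v h1 h2
    refine step h hk h1 (fun b x hx e => ⟨.B v, ?_⟩) fun b y z e ha => ?_
    · cases x <;> simp_all [cls, GV.Valid, gadj, edge]
    · cases y <;> cases z <;> simp_all [cls, gadj, edge]
      rcases ha with rfl | rfl <;> simp_all
  have hB : ∀ v, Fw nv cs k (.B v) → Fw nv cs k (.A v) → Fw nv cs k (.B (v + 1)) := by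
    intro v h1 h2
    refine step h hk h2 (fun b x hx e => ⟨.A v, ?_⟩) fun b y z e ha => ?_
    · cases x <;> simp_all [cls, GV.Valid, gadj, edge]
      omega
    · cases y <;> cases z <;> simp_all [cls, gadj, edge, gdeg]
      rcases ha with rfl | rfl <;> simp_all
  have hAB : ∀ v, Fw nv cs k (.B v) ∧ Fw nv cs k (.A v) := by
    intro v
    induction v with
    | zero => exact ⟨fw_B0 h, hA 0 (fw_B0 h) (by simp)⟩
    | succ v ih =>
      have := hB v ih.1 ih.2
      exact ⟨this, hA _ this fun w e => by obtain rfl : v = w := by omega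
                                           exact ih.2⟩
  have hZ : ∀ v, Fw nv cs k (.Z v) := by
    intro v
    have h1 := (hAB v).1
    refine step h hk (hAB v).2 (fun b x hx e => ⟨.A v, ?_⟩) fun b y z e ha => ?_
    · cases x <;> simp_all [cls, GV.Valid, gadj, edge]
    · cases y <;> cases z <;> simp_all [cls, gadj, edge]
  have hS : ∀ v o, Fw nv cs k (.T v o 0) → (∀ w, o = w + 1 → Fw nv cs k (.S v w 0)) →
      Fw nv cs k (.S v o 0) := by
    intro v o h1 h2
    refine step h hk h1 (fun b x hx e => ?_) fun b y z e ha => ?_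
    · cases x <;> simp only [cls, reduceCtorEq, GV.S.injEq] at e
      rename_i β
      exact ⟨.T v o β, by simp_all [cls, GV.Valid, gadj, edge]; omega⟩
    · cases y <;> cases z <;> simp_all [cls, gadj, edge, gdeg]
      · rcases ha with ⟨rfl, rfl, h⟩ | ⟨rfl, h, rfl, -⟩ <;> simp_all
      · rcases ha with ⟨rfl, rfl, h⟩ | ⟨rfl, rfl, -⟩ <;> simp_all
  have hT : ∀ v o, Fw nv cs k (.T v o 0) → Fw nv cs k (.S v o 0) → Fw nv cs k (.T v (o + 1) 0) := by
    intro v o h1 h2
    refine step h hk h2 (fun b x hx e => ?_) fun b y z e ha => ?_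
    · cases x <;> simp only [cls, reduceCtorEq, GV.T.injEq] at e
      rename_i β
      exact ⟨.S v o β, by simp_all [cls, GV.Valid, gadj, edge]⟩
    · cases y <;> cases z <;> simp_all [cls, gadj, edge, gdeg]
      rcases ha with ⟨rfl, rfl, h⟩ | ⟨rfl, rfl, -⟩ <;> simp_all
  have hT0 : ∀ v, Fw nv cs k (.T v 0 0) := by
    intro v
    refine step h hk (hZ v) (fun b x hx e => ⟨.Z v, ?_⟩) fun b y z e ha => ?_
    · cases x <;> simp_all [cls, GV.Valid, gadj, edge]
    · cases y <;> cases z <;> simp_all [cls, gadj, edge]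
  have hTS : ∀ v o, Fw nv cs k (.T v o 0) ∧ Fw nv cs k (.S v o 0) := by
    intro v o
    induction o with
    | zero => exact ⟨hT0 v, hS v 0 (hT0 v) (by simp)⟩
    | succ o ih =>
      have := hT v o ih.1 ih.2
      exact ⟨this, hS v _ this fun w e => by obtain rfl : o = w := by omega
                                             exact ih.2⟩
  have hP : ∀ o, Fw nv cs k (.P o 0) := by
    intro o
    refine step h hk (hTS (var cs o) o).1 (fun b x hx e => ?_) fun b y z e ha => ?_
    · cases x <;> simp only [cls, reduceCtorEq, GV.P.injEq] at e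
      rename_i β
      have := h.var_lt hx
      exact ⟨.T (var cs o) o β, by simp_all [cls, GV.Valid, gadj, edge]; omega⟩
    · cases y <;> cases z <;> simp_all [cls, gadj, edge]
  have hM : ∀ κ, Fw nv cs k (.M κ 0 0) := by
    intro κ
    refine step h hk (hP (3 * κ)) (fun b x hx e => ?_) fun b y z e ha => ?_
    · cases x <;> simp only [cls, reduceCtorEq, GV.M.injEq] at e
      rename_i t₀ t₁
      exact ⟨.P (3 * κ) t₀, by simp_all [cls, GV.Valid, gadj, edge, lab]⟩
    · cases y <;> cases z <;> simp_all [cls, gadj, edge]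
  cases x
  exacts [(hAB _).1, (hAB _).2, hZ _, (hTS _ _).1, (hTS _ _).2, hP _, hM _]

end GC

theorem g_class {nv : ℕ} {cs : List (ℕ × ℕ × ℕ)} (h : GOk nv cs) {b b' : ZMod 2} {k : ℕ}
    (hk : 2 ≤ k) {R : (Fin k → GT nv cs.length) → (Fin k → GT nv cs.length) → Prop}
    (hR : IsSim k (gA nv cs b) (gA nv cs b') R) {u u' : Fin k → GT nv cs.length} (huu : R u u')
    (i : Fin k) : cls (u i).1 = cls (u' i).1 :=
  (GC.fw_all h hk _ _ _ _ hR _ _ huu i rfl).symm

end Crest.Agent.R290
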