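import Crest.Agent.R290.WL
import Crest.Agent.R290.XDefs

/-!
# Row 290, layer G: the connected subcubic graph of a 3-XOR system (definitions)

Variables `0, …, nv - 1`, constraints `cs`, `L = 3 * cs.length` occurrences; occurrence `o` is the
variable `var cs o` at position `o % 3` of constraint `o / 3`.
Spine `B 0 — A 0 — B 1 — A 1 — …`, `A v — Z v`, `Z v — T v 0 β`, two chains
`T v o β — S v o β — T v (o+1) β`, closed by the edge `T v L 0 — T v L 1`; `T (var o) o β — P o β`;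
`P o β — M κ t₀ t₁` if `o / 3 = κ` and `β` is the label of `(t₀, t₁)` at position `o % 3`.
-/

set_option autoImplicit false

namespace Crest.Agent.R290

/-- vertices -/
inductive GV
  | B (v : ℕ)
  | A (v : ℕ)
  | Z (v : ℕ)
  | T (v o : ℕ) (β : ZMod 2)
  | S (v o : ℕ) (β : ZMod 2)
  | P (o : ℕ) (β : ZMod 2)
  | M (κ : ℕ) (t₀ t₁ : ZMod 2)
  deriving DecidableEq

/-- the variable at occurrence `o` -/
def var (cs : List (ℕ × ℕ × ℕ)) (o : ℕ) : ℕ :=
  if o % 3 = 0 then (cs.getD (o / 3) (0, 0, 0)).1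
  else if o % 3 = 1 then (cs.getD (o / 3) (0, 0, 0)).2.1 else (cs.getD (o / 3) (0, 0, 0)).2.2

/-- the label of the middle vertex `M κ t₀ t₁` at position `pos` -/
def lab (b : ZMod 2) (κ pos : ℕ) (t₀ t₁ : ZMod 2) : ZMod 2 :=
  if pos = 0 then t₀ else if pos = 1 then t₁ else t₀ + t₁ + rhs b κ

/-- oriented edges -/
def edge (cs : List (ℕ × ℕ × ℕ)) (b : ZMod 2) : GV → GV → Bool
  | .B v, .A w => decide (v = w)
  | .A v, .B w => decide (w = v + 1)
  | .A v, .Z w => decide (v = w)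
  | .Z v, .T w o _ => decide (v = w ∧ o = 0)
  | .T v o β, .S w o' β' => decide (v = w ∧ o = o' ∧ β = β')
  | .S v o β, .T w o' β' => decide (v = w ∧ o' = o + 1 ∧ β = β')
  | .T v o β, .T w o' β' => decide (v = w ∧ o = 3 * cs.length ∧ o' = 3 * cs.length ∧ β ≠ β')
  | .T v o β, .P o' β' => decide (o = o' ∧ v = var cs o ∧ β = β')
  | .P o β, .M κ t₀ t₁ => decide (o / 3 = κ ∧ β = lab b κ (o % 3) t₀ t₁)
  | _, _ => false

/-- adjacency -/
def gadj (cs : List (ℕ × ℕ × ℕ)) (b : ZMod 2) (x y : GV) : Bool := edge cs b x y || edge cs b y x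

/-- the vertices that are present -/
def GV.Valid (nv nc : ℕ) : GV → Prop
  | .B v => v < nv
  | .A v => v < nv
  | .Z v => v < nv
  | .T v o _ => v < nv ∧ o ≤ 3 * nc
  | .S v o _ => v < nv ∧ o < 3 * nc
  | .P o _ => o < 3 * nc
  | .M κ _ _ => κ < nc

/-- the list of vertices -/
def gvl (nv nc : ℕ) : List GV :=
  (((List.range nv).flatMap fun v => [GV.B v, GV.A v, GV.Z v]) ++
    ((List.range nv).flatMap fun v => (List.range (3 * nc + 1)).flatMap fun o =>
      [GV.T v o 0, GV.T v o 1]) ++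
    ((List.range nv).flatMap fun v => (List.range (3 * nc)).flatMap fun o =>
      [GV.S v o 0, GV.S v o 1]) ++
    ((List.range (3 * nc)).flatMap fun o => [GV.P o 0, GV.P o 1]) ++
    ((List.range nc).flatMap fun κ => [GV.M κ 0 0, GV.M κ 0 1, GV.M κ 1 0, GV.M κ 1 1])).dedup

theorem gvl_nodup (nv nc : ℕ) : (gvl nv nc).Nodup := List.nodup_dedup _

theorem mem_gvl (nv nc : ℕ) (x : GV) : x ∈ gvl nv nc ↔ x.Valid nv nc := by
  have h2 : ∀ β : ZMod 2, β = 0 ∨ β = 1 := by decide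
  cases x with
  | B v => simp [gvl, GV.Valid]
  | A v => simp [gvl, GV.Valid]
  | Z v => simp [gvl, GV.Valid]
  | T v o β => rcases h2 β with rfl | rfl <;> simp [gvl, GV.Valid]
  | S v o β => rcases h2 β with rfl | rfl <;> simp [gvl, GV.Valid]
  | P o β => rcases h2 β with rfl | rfl <;> simp [gvl, GV.Valid]
  | M κ t₀ t₁ => rcases h2 t₀ with rfl | rfl <;> rcases h2 t₁ with rfl | rfl <;> simp [gvl, GV.Valid]

/-- the vertex type -/
abbrev GT (nv nc : ℕ) : Type := {x : GV // x ∈ gvl nv nc}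

/-- the graph on the vertex type -/
def gA (nv : ℕ) (cs : List (ℕ × ℕ × ℕ)) (b : ZMod 2) (x y : GT nv cs.length) : Bool :=
  gadj cs b x.1 y.1

/-- number of vertices -/
def gN (nv : ℕ) (cs : List (ℕ × ℕ × ℕ)) : ℕ := (gvl nv cs.length).length

/-- the graph on indices -/
def gF (nv : ℕ) (cs : List (ℕ × ℕ × ℕ)) (b : ZMod 2) (i j : ℕ) : Bool :=
  gadj cs b ((gvl nv cs.length).getD i (.B 0)) ((gvl nv cs.length).getD j (.B 0))

/-- the enumeration of the vertices -/
def gE (nv : ℕ) (cs : List (ℕ × ℕ × ℕ)) : Fin (gN nv cs) ≃ GT nv cs.length :=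
  List.Nodup.getEquiv _ (gvl_nodup _ _)

theorem mat_gF (nv : ℕ) (cs : List (ℕ × ℕ × ℕ)) (b : ZMod 2) (i j : Fin (gN nv cs)) :
    mat (gN nv cs) (gF nv cs b) i j = gA nv cs b (gE nv cs i) (gE nv cs j) := by
  have h : ∀ i : Fin (gN nv cs), (gvl nv cs.length).getD i (.B 0) = (gE nv cs i).1 := fun i => by
    rw [List.getD_eq_getElem _ _ i.2]; rfl
  simp only [mat, gF, gA, h]

/-- explicit degrees -/
def gdeg (nv : ℕ) (cs : List (ℕ × ℕ × ℕ)) : GV → ℕ
  | .B v => if v = 0 then 1 else 2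
  | .A v => if v + 1 < nv then 3 else 2
  | .Z _ => 3
  | .T v o _ => if o < 3 * cs.length ∧ v = var cs o then 3 else 2
  | .S _ _ _ => 2
  | .P _ _ => 3
  | .M _ _ _ => 3

/-- the class of a vertex: forget the labels -/
def cls : GV → GV
  | .T v o _ => .T v o 0
  | .S v o _ => .S v o 0
  | .P o _ => .P o 0
  | .M κ _ _ => .M κ 0 0
  | x => x

/-- standing hypothesis: the occurring variables are exactly `0, …, nv - 1`, and `nv > 0` -/
def GOk (nv : ℕ) (cs : List (ℕ × ℕ × ℕ)) : Prop := 0 < nv ∧ ∀ v, Occ cs v ↔ v < nv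

theorem GOk.var_lt {nv : ℕ} {cs : List (ℕ × ℕ × ℕ)} (h : GOk nv cs) {o : ℕ}
    (ho : o < 3 * cs.length) : var cs o < nv := by
  have h1 : o / 3 < cs.length := by omega
  refine (h.2 _).1 ⟨cs[o / 3], List.getElem_mem h1, ?_⟩
  unfold var
  rw [List.getD_eq_getElem _ _ h1]
  split_ifs <;> simp

/-- realises the unfolding lemmas once, here (so importers do not generate them separately) -/
theorem edge_eqs_realised : True := by
  have _h0 := @Crest.Agent.R290.edge.eq_10
  trivial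

end Crest.Agent.R290
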