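import Crest.Agent.R290.GDefs

/-!
# Row 290, task GGame: a consistent family gives a Duplicator win

Plan.  For `Y : ℕ → ZMod 2` let `φ Y` be the translation: `T v o β ↦ T v o (β + Y v)`, the same for
`S`; `P o β ↦ P o (β + Y (var cs o))`;
`M κ t₀ t₁ ↦ M κ (t₀ + Y (var cs (3κ))) (t₁ + Y (var cs (3κ+1)))`; spine vertices are fixed.
`dep x` = the variables `x` depends on (`{v}`, `{var cs o}`, the three variables of constraint `κ`,
`∅`); `(dep x).card ≤ 3`; `φ Y x` depends only on `Y` on `dep x`; `φ Y` preserves `cls`, validity and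
`dep`, and is an involution.
`Win p := ∃ Y, Good (p.biUnion fun x => dep x.1) Y ∧ ∀ x ∈ p, x.2 = φ Y x.1`.
Adjacency: `gadj cs b (φ Y x) (φ Y y) = gadj cs 0 x y` whenever `Sat cs b Z Y`, `dep x, dep y ⊆ Z`
(only the pair `P`/`M` at position `2` uses the constraint).
Extension: `Z.card ≤ 3 (K - 1)`; for every class `c` extend `(Z, Y)` by the `≤ 3` variables of `dep c`
(three uses of `ext`, all of them `Occ` by `GOk`) to `Y_c`; `f x := φ (Y_{cls x}) x` is an involution.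
-/

set_option autoImplicit false

namespace Crest.Agent.R290

open Finset

namespace GG

variable {cs : List (ℕ × ℕ × ℕ)}

theorem ext_many {α : Type} [DecidableEq α] {cs : List (α × α × α)} {b : ZMod 2} {w : ℕ} {Good}
    (h : IsCons cs b w Good) {Z : Finset α} {Y : α → ZMod 2} (hg : Good Z Y) (S : Finset α)
    (hS : ∀ v ∈ S, Occ cs v) (hc : Z.card + S.card ≤ w) :
    ∃ Y', (∀ u ∈ Z, Y' u = Y u) ∧ Good (S ∪ Z) Y' := by
  induction S using Finset.induction_on with
  | empty => exact ⟨Y, fun _ _ => rfl, by simpa using hg⟩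
  | insert a S ha ih =>
    rw [card_insert_of_notMem ha] at hc
    obtain ⟨Y', h1, h2⟩ := ih (fun v hv => hS v (mem_insert_of_mem hv)) (by omega)
    obtain ⟨Y'', h3, h4⟩ := h.ext h2 ((card_union_le _ _).trans_lt (by omega)) a
      (hS a (mem_insert_self _ _))
    exact ⟨Y'', fun u hu => (h3 u (mem_union_right _ hu)).trans (h1 u hu), by rwa [insert_union]⟩

def φ (cs : List (ℕ × ℕ × ℕ)) (Y : ℕ → ZMod 2) : GV → GV
  | .T v o β => .T v o (β + Y v)
  | .S v o β => .S v o (β + Y v)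
  | .P o β => .P o (β + Y (var cs o))
  | .M κ t₀ t₁ => .M κ (t₀ + Y (var cs (3 * κ))) (t₁ + Y (var cs (3 * κ + 1)))
  | x => x

def dep (cs : List (ℕ × ℕ × ℕ)) : GV → Finset ℕ
  | .T v _ _ => {v}
  | .S v _ _ => {v}
  | .P o _ => {var cs o}
  | .M κ _ _ => {var cs (3 * κ), var cs (3 * κ + 1), var cs (3 * κ + 2)}
  | _ => ∅

theorem z2 (a c : ZMod 2) : a + c + c = a := by revert a c; decide

theorem φ_φ (Y : ℕ → ZMod 2) (x : GV) : φ cs Y (φ cs Y x) = x := by cases x <;> simp [φ, z2]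

theorem dep_φ (Y : ℕ → ZMod 2) (x : GV) : dep cs (φ cs Y x) = dep cs x := by cases x <;> rfl

theorem valid_φ (Y : ℕ → ZMod 2) {nv nc : ℕ} {x : GV} (h : x ∈ gvl nv nc) : φ cs Y x ∈ gvl nv nc := by
  rw [mem_gvl] at h ⊢
  cases x <;> exact h

theorem φ_congr {Y Y' : ℕ → ZMod 2} {x : GV} (h : ∀ v ∈ dep cs x, Y v = Y' v) :
    φ cs Y x = φ cs Y' x := by
  cases x <;> simp_all [φ, dep]

theorem card_dep (x : GV) : (dep cs x).card ≤ 3 := by
  cases x <;> simp [dep, card_le_three]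

theorem occ_dep {nv : ℕ} (h : GOk nv cs) {x : GV} (hx : x ∈ gvl nv cs.length) :
    ∀ v ∈ dep cs x, Occ cs v := by
  rw [mem_gvl] at hx
  intro v hv
  rw [h.2]
  cases x <;> simp only [dep, GV.Valid, mem_insert, mem_singleton, notMem_empty] at hv hx
  · exact hv ▸ hx.1
  · exact hv ▸ hx.1
  · exact hv ▸ h.var_lt hx
  · rcases hv with rfl | rfl | rfl <;> exact h.var_lt (by omega)

theorem edge_φ {b : ZMod 2} {Z : Finset ℕ} {Y : ℕ → ZMod 2} (hs : Sat cs b Z Y) {nv : ℕ} (x : GV)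
    {y : GV} (hy : y ∈ gvl nv cs.length) (hZ : dep cs y ⊆ Z) :
    edge cs b (φ cs Y x) (φ cs Y y) = edge cs 0 x y := by
  rw [mem_gvl] at hy
  cases x <;> cases y <;> try rfl
  all_goals simp only [φ, edge, decide_eq_decide]
  · exact and_congr_right fun e => by simp [e]
  · exact and_congr_right fun e => by simp [e]
  · exact and_congr_right fun e => and_congr_right fun e' => by simp [← e, ← e']
  · exact and_congr_right fun e => by simp [e]
  · rename_i o β κ t₀ t₁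
    refine and_congr_right fun e => ?_
    have hκ : κ < cs.length := hy
    have e0 : var cs (3 * κ) = cs[κ].1 := by simp [var, hκ]
    have e1 : var cs (3 * κ + 1) = cs[κ].2.1 := by
      simp [var, hκ, Nat.mul_add_div, Nat.mul_add_mod]
    have e2 : var cs (3 * κ + 2) = cs[κ].2.2 := by
      simp [var, hκ, Nat.mul_add_div, Nat.mul_add_mod]
    simp only [dep, insert_subset_iff, singleton_subset_iff, e0, e1, e2] at hZ
    have H := hs κ hκ hZ.1 hZ.2.1 hZ.2.2
    rw [← e0, ← e1, ← e2] at H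
    have h0 : rhs 0 κ = 0 := by simp [rhs]
    obtain rfl | rfl | rfl : o = 3 * κ ∨ o = 3 * κ + 1 ∨ o = 3 * κ + 2 := by omega
    · simp [lab]
    · simp [lab, Nat.mul_add_mod]
    · simp only [lab, Nat.mul_add_mod, h0, ← H]
      generalize Y (var cs (3 * κ)) = a
      generalize Y (var cs (3 * κ + 1)) = c
      generalize Y (var cs (3 * κ + 2)) = d
      clear hy
      revert β t₀ t₁ a c d
      decide

end GG

open GG in
theorem g_game {nv : ℕ} {cs : List (ℕ × ℕ × ℕ)} (h : GOk nv cs) {b : ZMod 2} {K : ℕ}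
    (hc : Cons cs b (3 * K)) : Game K (gA nv cs 0) (gA nv cs b) := by
  obtain ⟨Good, hG⟩ := hc
  refine ⟨fun p => ∃ Y, Good (p.biUnion fun x => dep cs x.1.1) Y ∧ ∀ x ∈ p, x.2.1 = φ cs Y x.1.1,
    ?_, ?_, ?_, ?_, ?_⟩
  · simpa using hG.ne
  · rintro p q ⟨Y, h1, h2⟩ hq
    exact ⟨Y, hG.sub h1 (biUnion_subset_biUnion_of_subset_left _ hq), fun x hx => h2 x (hq hx)⟩
  · rintro p ⟨Y, -, h2⟩ x hx y hy
    rw [Subtype.ext_iff, Subtype.ext_iff, h2 x hx, h2 y hy]
    exact (Function.Involutive.injective (φ_φ Y)).eq_iff.symm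
  · rintro p ⟨Y, h1, h2⟩ x hx y hy
    rw [gA, gA, gadj, gadj, h2 x hx, h2 y hy,
      edge_φ (hG.sat h1) _ y.1.2 (subset_biUnion_of_mem (fun x => dep cs x.1.1) hy),
      edge_φ (hG.sat h1) _ x.1.2 (subset_biUnion_of_mem (fun x => dep cs x.1.1) hx)]
  · rintro p ⟨Y, h1, h2⟩ hp
    have hZ : (p.biUnion fun x => dep cs x.1.1).card ≤ p.card * 3 :=
      card_biUnion_le_card_mul _ _ _ fun x _ => card_dep _
    have : ∀ S : Finset ℕ, ∃ Y', (∀ v ∈ S, Occ cs v) → S.card ≤ 3 →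
        (∀ u ∈ p.biUnion fun x => dep cs x.1.1, Y' u = Y u) ∧
          Good (S ∪ p.biUnion fun x => dep cs x.1.1) Y' := by
      intro S
      by_cases hS : (∀ v ∈ S, Occ cs v) ∧ S.card ≤ 3
      · obtain ⟨Y', h⟩ := ext_many hG h1 S hS.1 (by omega)
        exact ⟨Y', fun _ _ => h⟩
      · exact ⟨Y, fun a c => absurd ⟨a, c⟩ hS⟩
    choose F hF using this
    refine ⟨Function.Involutive.toPerm
      (fun x : GT nv cs.length => ⟨φ cs (F (dep cs x.1)) x.1, valid_φ _ x.2⟩)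
      fun x => Subtype.ext (by simp only [dep_φ, φ_φ]), fun v => ?_⟩
    obtain ⟨h3, h4⟩ := hF (dep cs v.1) (occ_dep h v.2) (card_dep _)
    refine ⟨F (dep cs v.1), by rwa [biUnion_insert], fun x hx => ?_⟩
    rcases mem_insert.1 hx with rfl | hx
    · rfl
    · rw [h2 x hx]
      exact φ_congr fun u hu => (h3 u (mem_biUnion.2 ⟨x, hx, hu⟩)).symm

end Crest.Agent.R290
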