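import Crest.Agent.R290.GClass

/-!
# Row 290, task GSim: simulations give consistent families; rigidity gives discreteness

Plan.  Let `R` be a simulation between `gA nv cs 0` and `gA nv cs b`, `k ≥ 4`.
MOVE LEMMA: if `R u u'`, `i ≠ j`, `x` valid and adjacent to `u i` then there is `y` with
`R (update u j x) (update u' j y)`, `y` adjacent to `u' i` and of the class of `x` (`g_class`).  COPY:
moving `j` to `u i` moves `j` to `u' i` (`eq`).  FLIP: if `u i = T v o β`, `u' i = T v o β'`, moving `j`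
to `T v o (β+1)` gives `T v o (β'+1)` (same class, different from `u' i`).
WALK: if `u i = T v o β`, `u' i = T v o β'` then for any `o' ≤ L` and `j ≠ i` there are related tuples
agreeing with `u, u'` outside `{i, j}` with `T v o' β`, `T v o' β'` at `i` (step through `S`).
`Good Z Y := ∃ u u', R u u' ∧ ∃ ι : ℕ → Fin k, Set.InjOn ι Z ∧
   ∀ v ∈ Z, (u (ι v)).1 = T v 0 0 ∧ (u' (ι v)).1 = T v 0 (Y v)`.
* `ext`: if `v ∉ Z`, `Z.card < k` leaves a coordinate outside `ι '' Z`.
* `sat`: for constraint `κ` with variables `a, b', c ∈ Z` (not necessarily distinct): copy the pebbles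
  to three distinct coordinates (careful with the order of overwriting, or argue: there are related
  tuples and three distinct coordinates carrying `T a 0 0 ↦ T a 0 (Y a)` etc.), walk them to
  `P (3κ) 0 ↦ P (3κ) (Y a)`, `P (3κ+1) 0 ↦ P (3κ+1) (Y b')`, `P (3κ+2) 0 ↦ P (3κ+2) (Y c)` with the
  help of a fourth coordinate, and move the fourth to `M κ 0 0`, which is adjacent to all three in
  the left graph; its partner `M κ t₀ t₁` is adjacent to the three partners.
* discreteness (`b = 0`): if `u i = T v o β`, `u' i = T v o β'`, WALK and FLIP give `Good {v} Y` with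
  `Y v = β + β'`, so `β = β'`; `S`, `P` via their neighbour `T`; `M κ t₀ t₁` via its neighbours
  `P (3κ) t₀`, `P (3κ+1) t₁`; spine vertices are alone in their class.
-/

set_option autoImplicit false

namespace Crest.Agent.R290

open Finset

/-- the pairs of `p` are pebbled in some pair of related tuples -/
def GPos {nv nc k : ℕ} (R : (Fin k → GT nv nc) → (Fin k → GT nv nc) → Prop)
    (p : Finset (GV × GV)) : Prop :=
  ∃ u u', R u u' ∧ ∀ x ∈ p, ∃ i, (u i).1 = x.1 ∧ (u' i).1 = x.2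

section Pos

variable {nv : ℕ} {cs : List (ℕ × ℕ × ℕ)} {b b' : ZMod 2} {k : ℕ}
  {R : (Fin k → GT nv cs.length) → (Fin k → GT nv cs.length) → Prop}

theorem GPos.sub {p q : Finset (GV × GV)} (hp : GPos R p) (hq : q ⊆ p) : GPos R q := by
  obtain ⟨u, u', huu, h⟩ := hp
  exact ⟨u, u', huu, fun x hx => h x (hq hx)⟩

theorem GPos.valid {p : Finset (GV × GV)} (hp : GPos R p) {x : GV × GV} (hx : x ∈ p) :
    x.1.Valid nv cs.length ∧ x.2.Valid nv cs.length := by
  obtain ⟨u, u', -, h⟩ := hp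
  obtain ⟨i, h1, h2⟩ := h x hx
  exact ⟨h1 ▸ (mem_gvl _ _ _).1 (u i).2, h2 ▸ (mem_gvl _ _ _).1 (u' i).2⟩

theorem GPos.eq (hR : IsSim k (gA nv cs b) (gA nv cs b') R) {p : Finset (GV × GV)}
    (hp : GPos R p) {x y : GV × GV} (hx : x ∈ p) (hy : y ∈ p) : x.1 = y.1 ↔ x.2 = y.2 := by
  obtain ⟨u, u', huu, h⟩ := hp
  obtain ⟨i, h1, h2⟩ := h x hx
  obtain ⟨j, h3, h4⟩ := h y hy
  rw [← h1, ← h2, ← h3, ← h4, ← Subtype.ext_iff, ← Subtype.ext_iff]
  exact hR.eq huu i j

theorem GPos.adj (hR : IsSim k (gA nv cs b) (gA nv cs b') R) {p : Finset (GV × GV)}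
    (hp : GPos R p) {x y : GV × GV} (hx : x ∈ p) (hy : y ∈ p) :
    gadj cs b x.1 y.1 = gadj cs b' x.2 y.2 := by
  obtain ⟨u, u', huu, h⟩ := hp
  obtain ⟨i, h1, h2⟩ := h x hx
  obtain ⟨j, h3, h4⟩ := h y hy
  rw [← h1, ← h2, ← h3, ← h4]
  exact hR.adj huu i j

theorem GPos.cls_eq (h : GOk nv cs) (hk : 2 ≤ k) (hR : IsSim k (gA nv cs b) (gA nv cs b') R)
    {p : Finset (GV × GV)} (hp : GPos R p) {x : GV × GV} (hx : x ∈ p) : cls x.1 = cls x.2 := by
  obtain ⟨u, u', huu, hh⟩ := hp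
  obtain ⟨i, h1, h2⟩ := hh x hx
  rw [← h1, ← h2]
  exact g_class h hk hR huu i

theorem GPos.ext (hR : IsSim k (gA nv cs b) (gA nv cs b') R) {p : Finset (GV × GV)}
    (hp : GPos R p) (hc : p.card < k) {x : GV} (hx : x.Valid nv cs.length) :
    ∃ y, GPos R (insert (x, y) p) := by
  classical
  obtain ⟨u, u', huu, h⟩ := hp
  choose ι hι using h
  have hlt : (p.attach.image fun z => ι z.1 z.2).card < (univ : Finset (Fin k)).card := by
    rw [card_univ, Fintype.card_fin]
    exact (card_image_le.trans (by rw [card_attach])).trans_lt hc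
  obtain ⟨j, -, hj⟩ := exists_mem_notMem_of_card_lt_card hlt
  obtain ⟨y, hy⟩ := hR.forth huu j ⟨x, (mem_gvl _ _ _).2 hx⟩
  refine ⟨y.1, _, _, hy, fun z hz => ?_⟩
  rcases mem_insert.1 hz with rfl | hz
  · exact ⟨j, by simp, by simp⟩
  · have hne : ι z hz ≠ j := fun he => hj (mem_image.2 ⟨⟨z, hz⟩, mem_attach _ _, he⟩)
    refine ⟨ι z hz, ?_, ?_⟩
    · rw [Function.update_of_ne hne]; exact (hι z hz).1
    · rw [Function.update_of_ne hne]; exact (hι z hz).2

/-- move one pebble -/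
theorem GPos.step (h : GOk nv cs) (hR : IsSim k (gA nv cs b) (gA nv cs b') R)
    {p : Finset (GV × GV)} {x y : GV} (hp : GPos R (insert (x, y) p)) (hc : p.card + 1 < k)
    {x' : GV} (hx : x'.Valid nv cs.length) :
    ∃ y', cls x' = cls y' ∧ gadj cs b x x' = gadj cs b' y y' ∧ (x = x' ↔ y = y') ∧
      GPos R (insert (x', y') p) := by
  obtain ⟨y', hy'⟩ := hp.ext hR ((card_insert_le _ _).trans_lt hc) hx
  have h1 : (x', y') ∈ insert (x', y') (insert (x, y) p) := mem_insert_self _ _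
  have h2 : (x, y) ∈ insert (x', y') (insert (x, y) p) :=
    mem_insert_of_mem (mem_insert_self _ _)
  exact ⟨y', hy'.cls_eq h (by omega) hR h1, hy'.adj hR h2 h1, hy'.eq hR h2 h1,
    hy'.sub (insert_subset_insert _ (subset_insert _ _))⟩

end Pos

theorem cls_B {v : ℕ} {y : GV} (h : cls (.B v) = cls y) : y = .B v := by
  cases y <;> simp_all [cls]

theorem cls_A {v : ℕ} {y : GV} (h : cls (.A v) = cls y) : y = .A v := by
  cases y <;> simp_all [cls]

theorem cls_Z {v : ℕ} {y : GV} (h : cls (.Z v) = cls y) : y = .Z v := by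
  cases y <;> simp_all [cls]

theorem cls_T {v o : ℕ} {β : ZMod 2} {y : GV} (h : cls (.T v o β) = cls y) :
    ∃ β', y = .T v o β' := by
  cases y <;> simp_all [cls]

theorem cls_S {v o : ℕ} {β : ZMod 2} {y : GV} (h : cls (.S v o β) = cls y) :
    ∃ β', y = .S v o β' := by
  cases y <;> simp_all [cls]

theorem cls_P {o : ℕ} {β : ZMod 2} {y : GV} (h : cls (.P o β) = cls y) :
    ∃ β', y = .P o β' := by
  cases y <;> simp_all [cls]

theorem cls_M {κ : ℕ} {t₀ t₁ : ZMod 2} {y : GV} (h : cls (.M κ t₀ t₁) = cls y) :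
    ∃ s₀ s₁, y = .M κ s₀ s₁ := by
  cases y <;> simp_all [cls]

section Walk

variable {nv : ℕ} {cs : List (ℕ × ℕ × ℕ)} {b b' : ZMod 2} {k : ℕ}
  {R : (Fin k → GT nv cs.length) → (Fin k → GT nv cs.length) → Prop}
  (h : GOk nv cs) (hR : IsSim k (gA nv cs b) (gA nv cs b') R)
  {p : Finset (GV × GV)} (hc : p.card + 1 < k)

include h hR hc

theorem GPos.TS {v o : ℕ} {β β' : ZMod 2} (hp : GPos R (insert (.T v o β, .T v o β') p))
    (ho : o < 3 * cs.length) : GPos R (insert (.S v o β, .S v o β') p) := by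
  have hv := (hp.valid (mem_insert_self _ _)).1
  obtain ⟨y', h1, h2, -, h4⟩ := hp.step h hR hc (x' := .S v o β) ⟨hv.1, ho⟩
  obtain ⟨γ, rfl⟩ := cls_S h1
  have : β' = γ := by simpa [gadj, edge] using h2
  exact this ▸ h4

theorem GPos.ST {v o : ℕ} {β β' : ZMod 2} (hp : GPos R (insert (.S v o β, .S v o β') p)) :
    GPos R (insert (.T v o β, .T v o β') p) := by
  have hv := (hp.valid (mem_insert_self _ _)).1
  obtain ⟨y', h1, h2, -, h4⟩ := hp.step h hR hc (x' := .T v o β) ⟨hv.1, hv.2.le⟩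
  obtain ⟨γ, rfl⟩ := cls_T h1
  have : γ = β' := by simpa [gadj, edge] using h2
  exact this ▸ h4

theorem GPos.ST' {v o : ℕ} {β β' : ZMod 2} (hp : GPos R (insert (.S v o β, .S v o β') p)) :
    GPos R (insert (.T v (o + 1) β, .T v (o + 1) β') p) := by
  have hv := (hp.valid (mem_insert_self _ _)).1
  obtain ⟨y', h1, h2, -, h4⟩ := hp.step h hR hc (x' := .T v (o + 1) β) ⟨hv.1, hv.2⟩
  obtain ⟨γ, rfl⟩ := cls_T h1
  have : β' = γ := by simpa [gadj, edge] using h2
  exact this ▸ h4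

theorem GPos.TS' {v o : ℕ} {β β' : ZMod 2}
    (hp : GPos R (insert (.T v (o + 1) β, .T v (o + 1) β') p)) :
    GPos R (insert (.S v o β, .S v o β') p) := by
  have hv := (hp.valid (mem_insert_self _ _)).1
  obtain ⟨y', h1, h2, -, h4⟩ := hp.step h hR hc (x' := .S v o β) ⟨hv.1, hv.2⟩
  obtain ⟨γ, rfl⟩ := cls_S h1
  have : γ = β' := by simpa [gadj, edge] using h2
  exact this ▸ h4

theorem GPos.walk_up {v : ℕ} {β β' : ZMod 2} (hp : GPos R (insert (.T v 0 β, .T v 0 β') p))
    (o : ℕ) (ho : o ≤ 3 * cs.length) : GPos R (insert (.T v o β, .T v o β') p) := by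
  induction o with
  | zero => exact hp
  | succ o ih => exact ((ih (by omega)).TS h hR hc (by omega)).ST' h hR hc

theorem GPos.walk_down {v : ℕ} {β β' : ZMod 2} (o : ℕ)
    (hp : GPos R (insert (.T v o β, .T v o β') p)) : GPos R (insert (.T v 0 β, .T v 0 β') p) := by
  induction o with
  | zero => exact hp
  | succ o ih => exact ih ((hp.TS' h hR hc).ST h hR hc)

theorem GPos.TP {o : ℕ} {β β' : ZMod 2}
    (hp : GPos R (insert (.T (var cs o) o β, .T (var cs o) o β') p))
    (ho : o < 3 * cs.length) : GPos R (insert (.P o β, .P o β') p) := by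
  obtain ⟨y', h1, h2, -, h4⟩ := hp.step h hR hc (x' := .P o β) ho
  obtain ⟨γ, rfl⟩ := cls_P h1
  have : β' = γ := by simpa [gadj, edge] using h2
  exact this ▸ h4

theorem GPos.PT {o : ℕ} {β β' : ZMod 2} (hp : GPos R (insert (.P o β, .P o β') p)) :
    GPos R (insert (.T (var cs o) o β, .T (var cs o) o β') p) := by
  have hv : o < 3 * cs.length := (hp.valid (mem_insert_self _ _)).1
  obtain ⟨y', h1, h2, -, h4⟩ := hp.step h hR hc (x' := .T (var cs o) o β) ⟨h.var_lt hv, hv.le⟩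
  obtain ⟨γ, rfl⟩ := cls_T h1
  have : γ = β' := by simpa [gadj, edge] using h2
  exact this ▸ h4

theorem GPos.toP {o : ℕ} {β β' : ZMod 2}
    (hp : GPos R (insert (.T (var cs o) 0 β, .T (var cs o) 0 β') p))
    (ho : o < 3 * cs.length) : GPos R (insert (.P o β, .P o β') p) :=
  (hp.walk_up h hR hc o ho.le).TP h hR hc ho

end Walk

theorem var_zero {cs : List (ℕ × ℕ × ℕ)} {κ : ℕ} (hκ : κ < cs.length) :
    var cs (3 * κ) = cs[κ].1 := by
  have h1 : 3 * κ / 3 = κ := by omega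
  have h2 : 3 * κ % 3 = 0 := by omega
  rw [var, if_pos h2, h1, List.getD_eq_getElem _ _ hκ]

theorem var_one {cs : List (ℕ × ℕ × ℕ)} {κ : ℕ} (hκ : κ < cs.length) :
    var cs (3 * κ + 1) = cs[κ].2.1 := by
  have h1 : (3 * κ + 1) / 3 = κ := by omega
  have h2 : (3 * κ + 1) % 3 = 1 := by omega
  rw [var, if_neg (by omega), if_pos h2, h1, List.getD_eq_getElem _ _ hκ]

theorem var_two {cs : List (ℕ × ℕ × ℕ)} {κ : ℕ} (hκ : κ < cs.length) :
    var cs (3 * κ + 2) = cs[κ].2.2 := by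
  have h1 : (3 * κ + 2) / 3 = κ := by omega
  rw [var, if_neg (by omega), if_neg (by omega), h1, List.getD_eq_getElem _ _ hκ]

/-- the consistent family defined by a simulation -/
def GGood {nv nc k : ℕ} (R : (Fin k → GT nv nc) → (Fin k → GT nv nc) → Prop)
    (Z : Finset ℕ) (Y : ℕ → ZMod 2) : Prop :=
  GPos R (Z.image fun v => (GV.T v 0 0, GV.T v 0 (Y v)))

theorem isCons_gGood {nv : ℕ} {cs : List (ℕ × ℕ × ℕ)} (h : GOk nv cs) {b : ZMod 2} {k : ℕ}
    (hk : 4 ≤ k) {R : (Fin k → GT nv cs.length) → (Fin k → GT nv cs.length) → Prop}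
    (hR : IsSim k (gA nv cs 0) (gA nv cs b) R) : IsCons cs b k (GGood R) where
  ne := by
    obtain ⟨u, u', huu⟩ := hR.ne
    exact ⟨0, u, u', huu, by simp⟩
  sub := fun hg hZ => GPos.sub hg (image_subset_image hZ)
  ext := by
    intro Z Y hg hc v hv
    by_cases hvZ : v ∈ Z
    · exact ⟨Y, fun _ _ => rfl, by rwa [insert_eq_of_mem hvZ]⟩
    have hv' : v < nv := (h.2 v).1 hv
    obtain ⟨y, hy⟩ := GPos.ext hR hg (card_image_le.trans_lt hc) (x := .T v 0 0)
      ⟨hv', Nat.zero_le _⟩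
    obtain ⟨γ, hγ⟩ := cls_T (hy.cls_eq h (by omega) hR (mem_insert_self _ _))
    have hγ' : y = .T v 0 γ := hγ
    subst hγ'
    have hup : ∀ u ∈ Z, Function.update Y v γ u = Y u := fun u hu =>
      Function.update_of_ne (ne_of_mem_of_not_mem hu hvZ) _ _
    refine ⟨Function.update Y v γ, hup, GPos.sub hy ?_⟩
    intro z hz
    obtain ⟨w, hw, rfl⟩ := mem_image.1 hz
    rcases mem_insert.1 hw with rfl | hw
    · simp
    · rw [hup w hw]
      exact mem_insert_of_mem (mem_image_of_mem _ hw)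
  sat := by
    intro Z Y hg κ hκ h0 h1 h2
    rw [← var_zero hκ] at h0 ⊢
    rw [← var_one hκ] at h1 ⊢
    rw [← var_two hκ] at h2 ⊢
    set α := Y (var cs (3 * κ))
    set β := Y (var cs (3 * κ + 1))
    set γ := Y (var cs (3 * κ + 2))
    have hc : ∀ x y : GV × GV, ({x, y} : Finset (GV × GV)).card + 1 < k := fun x y => by
      have := card_le_two (a := x) (b := y); omega
    have p0 : GPos R {(GV.T (var cs (3 * κ)) 0 0, GV.T (var cs (3 * κ)) 0 α),
        (GV.T (var cs (3 * κ + 1)) 0 0, GV.T (var cs (3 * κ + 1)) 0 β),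
        (GV.T (var cs (3 * κ + 2)) 0 0, GV.T (var cs (3 * κ + 2)) 0 γ)} := by
      refine GPos.sub hg ?_
      intro z hz
      simp only [mem_insert, mem_singleton] at hz
      rcases hz with rfl | rfl | rfl
      · exact mem_image_of_mem _ h0
      · exact mem_image_of_mem _ h1
      · exact mem_image_of_mem _ h2
    have p1 := p0.toP h hR (hc _ _) (by omega)
    rw [insert_comm] at p1
    have p2 := p1.toP h hR (hc _ _) (by omega)
    rw [pair_comm, insert_comm] at p2
    have p3 := p2.toP h hR (hc _ _) (by omega)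
    obtain ⟨y, hy⟩ := p3.ext hR (card_le_three.trans_lt (by omega)) (x := .M κ 0 0) hκ
    obtain ⟨s₀, s₁, hs⟩ := cls_M (hy.cls_eq h (by omega) hR (mem_insert_self _ _))
    have hs' : y = .M κ s₀ s₁ := hs
    subst hs'
    have a0 := hy.adj hR (x := (GV.P (3 * κ) 0, GV.P (3 * κ) α)) (by simp) (mem_insert_self _ _)
    have a1 := hy.adj hR (x := (GV.P (3 * κ + 1) 0, GV.P (3 * κ + 1) β)) (by simp)
      (mem_insert_self _ _)
    have a2 := hy.adj hR (x := (GV.P (3 * κ + 2) 0, GV.P (3 * κ + 2) γ)) (by simp)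
      (mem_insert_self _ _)
    have d0 : 3 * κ / 3 = κ := by omega
    have d1 : (3 * κ + 1) / 3 = κ := by omega
    have d2 : (3 * κ + 2) / 3 = κ := by omega
    have m0 : 3 * κ % 3 = 0 := by omega
    have m1 : (3 * κ + 1) % 3 = 1 := by omega
    have m2 : (3 * κ + 2) % 3 = 2 := by omega
    have r0 : rhs 0 κ = 0 := by simp [rhs]
    have e0 : α = s₀ := by simpa [gadj, edge, lab, d0, m0] using a0
    have e1 : β = s₁ := by simpa [gadj, edge, lab, d1, m1] using a1
    have e2 : γ = s₀ + s₁ + rhs b κ := by simpa [gadj, edge, lab, d2, m2, r0] using a2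
    rw [e0, e1, e2]
    have : ∀ s₀ s₁ r : ZMod 2, s₀ + s₁ + (s₀ + s₁ + r) = r := by decide
    exact this _ _ _

theorem g_sim {nv : ℕ} {cs : List (ℕ × ℕ × ℕ)} (h : GOk nv cs) {b : ZMod 2} {k : ℕ} (hk : 4 ≤ k)
    (hs : Sim k (gA nv cs 0) (gA nv cs b)) : Cons cs b k := by
  obtain ⟨R, hR⟩ := hs
  exact ⟨_, isCons_gGood h hk hR⟩

theorem g_discrete {nv : ℕ} {cs : List (ℕ × ℕ × ℕ)} (h : GOk nv cs) {k : ℕ} (hk : 4 ≤ k)
    (hr : Rigid cs k) : Discrete k (gA nv cs 0) := by
  intro R hR u u' huu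
  have hc : (∅ : Finset (GV × GV)).card + 1 < k := by simp; omega
  have key0 : ∀ v β', GPos R (insert (.T v 0 0, .T v 0 β') ∅) → β' = 0 := by
    intro v β' hp
    have hv : v < nv := (hp.valid (mem_insert_self _ _)).1.1
    exact (hr 0 _ (isCons_gGood h hk hR)).2 {v} (fun _ => β') (by simpa [GGood] using hp) v
      (mem_singleton_self _) ((h.2 v).2 hv)
  have keyT : ∀ v o β β', GPos R (insert (.T v o β, .T v o β') ∅) → β = β' := by
    intro v o β β' hp
    have hp := hp.walk_down h hR hc o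
    have hv := (hp.valid (mem_insert_self _ _)).1
    obtain ⟨y', h1, -, h3, h4⟩ := hp.step h hR hc (x' := .T v 0 0) hv
    obtain ⟨γ, rfl⟩ := cls_T h1
    have := key0 v γ h4
    subst this
    have h5 : β = 0 ↔ β' = 0 := by simpa using h3
    have h6 : ∀ β β' : ZMod 2, (β = 0 ↔ β' = 0) → β = β' := by decide
    exact h6 _ _ h5
  have keyP : ∀ o β β', GPos R (insert (.P o β, .P o β') ∅) → β = β' := fun o β β' hp =>
    keyT _ _ _ _ (hp.PT h hR hc)
  have key : ∀ x y, GPos R (insert (x, y) ∅) → x = y := by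
    intro x y hp
    have hcl : cls x = cls y := hp.cls_eq h (by omega) hR (mem_insert_self _ _)
    cases x with
    | B v => exact (cls_B hcl).symm
    | A v => exact (cls_A hcl).symm
    | Z v => exact (cls_Z hcl).symm
    | T v o β =>
      obtain ⟨γ, rfl⟩ := cls_T hcl
      rw [keyT _ _ _ _ hp]
    | S v o β =>
      obtain ⟨γ, rfl⟩ := cls_S hcl
      rw [keyT _ _ _ _ (hp.ST h hR hc)]
    | P o β =>
      obtain ⟨γ, rfl⟩ := cls_P hcl
      rw [keyP _ _ _ hp]
    | M κ t₀ t₁ =>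
      obtain ⟨s₀, s₁, rfl⟩ := cls_M hcl
      have hκ : κ < cs.length := (hp.valid (mem_insert_self _ _)).1
      have d0 : 3 * κ / 3 = κ := by omega
      have d1 : (3 * κ + 1) / 3 = κ := by omega
      have m0 : 3 * κ % 3 = 0 := by omega
      have m1 : (3 * κ + 1) % 3 = 1 := by omega
      obtain ⟨y0, c0, a0, -, p0⟩ := hp.step h hR hc (x' := .P (3 * κ) t₀)
        (show 3 * κ < 3 * cs.length by omega)
      obtain ⟨y1, c1, a1, -, p1⟩ := hp.step h hR hc (x' := .P (3 * κ + 1) t₁)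
        (show 3 * κ + 1 < 3 * cs.length by omega)
      obtain ⟨γ₀, rfl⟩ := cls_P c0
      obtain ⟨γ₁, rfl⟩ := cls_P c1
      have e0 : γ₀ = s₀ := by simpa [gadj, edge, lab, d0, m0] using a0
      have e1 : γ₁ = s₁ := by simpa [gadj, edge, lab, d1, m1] using a1
      rw [keyP _ _ _ p0, keyP _ _ _ p1, e0, e1]
  funext i
  refine Subtype.ext (key _ _ ⟨u, u', huu, fun x hx => ?_⟩)
  rcases mem_insert.1 hx with rfl | hx
  · exact ⟨i, rfl, rfl⟩
  · simp at hx

end Crest.Agent.R290
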