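import Mathlib
import Crest.Prelude.Def_ParityLift

/-!
# Row 290 (S0438), task PLBasic: simplicity, orders

Plan.
* `lift_simple`: `bAdj` is symmetric, `tAdj a a = false`.
* `lift_card_eq`: flip one fixed coordinate of the tag of every vertex whose type is main `0`
  (`Nbr (inl 0)` is nonempty as `t ≥ 2`); or count: both fibres have `2 ^ (deg - 1)` elements.
* `lift_card_le`: the fibre over a base vertex `u` has `2 ^ (deg (typeOf u) - 1)` elements (tags of a
  given parity on a nonempty index set; an injection "forget one coordinate" suffices for `≤`),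
  `deg (inl i) = (t - 1) + 3 * C(t-1, 2)`, `deg (inr h) = 3`, `card (Helper t) = 3 * C(t, 3)`
  (`≤` suffices everywhere; `card (Helper t) = C(t,2) * (t-2)`, helpers containing `i`:
  by symmetry/double counting or directly: as first/second of the pair `(t-1)(t-2)` in total, as third
  `C(t-1,2)`).
-/

set_option autoImplicit false

namespace Crest.Agent.R290

open Finset Crest.WLRefine Crest.WLRefine.ParityLift

namespace PLBasicA

theorem par_flip {α : Type} [Fintype α] [DecidableEq α] (a : α) (z : α → Bool) :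
    (univ.filter fun a' => Function.update z a (!z a) a' = true).card % 2
      = ((univ.filter fun a' => z a' = true).card + 1) % 2 := by
  cases h : z a
  · have : (univ.filter fun a' => Function.update z a (!false) a' = true)
        = insert a (univ.filter fun a' => z a' = true) := by
      ext x
      by_cases hx : x = a <;> simp [hx]
    rw [this, card_insert_of_notMem (by simp [h])]
  · have : (univ.filter fun a' => z a' = true)
        = insert a (univ.filter fun a' => Function.update z a (!true) a' = true) := by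
      ext x
      by_cases hx : x = a <;> simp [hx, h]
    rw [this, card_insert_of_notMem (by simp)]
    omega

theorem par_card {α : Type} [Fintype α] [DecidableEq α] (a : α) (β : Bool) :
    (univ.filter fun z : α → Bool => (univ.filter fun a' => z a' = true).card % 2 = β.toNat).card
      = 2 ^ (Fintype.card α - 1) := by
  have h1 : (univ.filter fun z : α → Bool =>
      (univ.filter fun a' => z a' = true).card % 2 = β.toNat).card = (univ.filter fun z : α → Bool =>
      ¬ (univ.filter fun a' => z a' = true).card % 2 = β.toNat).card := by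
    have hβ := Bool.toNat_le β
    refine card_bij' (fun z _ => Function.update z a (!z a)) (fun z _ => Function.update z a (!z a))
      (fun z hz => ?_) (fun z hz => ?_) (fun z _ => by simp) (fun z _ => by simp)
    · simp only [mem_filter, mem_univ, true_and, par_flip] at hz ⊢
      omega
    · simp only [mem_filter, mem_univ, true_and, par_flip] at hz ⊢
      omega
  have h2 := card_filter_add_card_filter_not (s := (univ : Finset (α → Bool)))
    (fun z => (univ.filter fun a' => z a' = true).card % 2 = β.toNat)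
  rw [← h1, card_univ, Fintype.card_fun, Fintype.card_bool] at h2
  have h3 : 0 < Fintype.card α := Fintype.card_pos_iff.2 ⟨a⟩
  obtain ⟨n, hn⟩ : ∃ n, Fintype.card α = n + 1 := ⟨_, (Nat.succ_pred_eq_of_pos h3).symm⟩
  rw [hn, pow_succ] at h2
  rw [hn, Nat.add_sub_cancel]
  omega

theorem nbr_nonempty {t : ℕ} (ht : 4 ≤ t) (a : TV t) : Nonempty (Nbr a) := by
  rcases a with i | h
  · have : Nontrivial (Fin t) := Fin.nontrivial_iff_two_le.2 (by omega)
    obtain ⟨j, hj⟩ := exists_ne i
    exact ⟨⟨.inl j, by simpa [tAdj] using hj.symm⟩⟩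
  · exact ⟨⟨.inl h.1.1, by simp [tAdj]⟩⟩

theorem lift_card {t : ℕ} (ht : 4 ≤ t) (C : ChoiceSystem t) (b : TV t → Bool) :
    Fintype.card (LiftV C b) = ∑ u : BV C, 2 ^ (Fintype.card (Nbr (typeOf C u)) - 1) := by
  let e : LiftV C b ≃ Σ u : BV C, {z : Nbr (typeOf C u) → Bool //
      (univ.filter fun a' => z a' = true).card % 2 = (b (typeOf C u)).toNat} :=
    { toFun := fun p => ⟨p.1.1, p.1.2, p.2⟩
      invFun := fun p => ⟨⟨p.1, p.2.1⟩, p.2.2⟩
      left_inv := fun _ => rfl
      right_inv := fun _ => rfl }
  rw [Fintype.card_congr e, Fintype.card_sigma]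
  refine sum_congr rfl fun u _ => ?_
  obtain ⟨a⟩ := nbr_nonempty ht (typeOf C u)
  rw [Fintype.card_subtype, ← par_card a (b (typeOf C u))]

theorem helper_card {t : ℕ} (S : Finset (Helper t)) (T : Finset (Finset (Fin t)))
    (hT : ∀ s ∈ T, s.card = 3) (h : ∀ x ∈ S, ({x.1.1, x.1.2.1, x.1.2.2} : Finset (Fin t)) ∈ T) :
    S.card ≤ 3 * T.card := by
  have : (T.sigma fun s => s).card = 3 * T.card := by
    rw [card_sigma, sum_congr rfl hT]; simp [mul_comm]
  rw [← this]
  refine card_le_card_of_injOn (fun x => ⟨{x.1.1, x.1.2.1, x.1.2.2}, x.1.2.2⟩)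
    (fun x hx => by simpa using h x hx) ?_
  rintro ⟨⟨i, j, l⟩, h1, h2, h3⟩ - ⟨⟨i', j', l'⟩, h1', h2', h3'⟩ - e
  simp only [Sigma.mk.injEq, heq_eq_eq] at e h1 h2 h3 h1' h2' h3'
  obtain ⟨e, rfl⟩ := e
  have a1 : i ∈ ({i', j', l} : Finset (Fin t)) := by rw [← e]; simp
  have a2 : j ∈ ({i', j', l} : Finset (Fin t)) := by rw [← e]; simp
  have a3 : i' ∈ ({i, j, l} : Finset (Fin t)) := by rw [e]; simp
  simp only [mem_insert, mem_singleton] at a1 a2 a3
  have : i = i' ∧ j = j' := by omega
  obtain ⟨rfl, rfl⟩ := this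
  rfl

theorem card3 {t : ℕ} (x : Helper t) : ({x.1.1, x.1.2.1, x.1.2.2} : Finset (Fin t)).card = 3 :=
  card_eq_three.2 ⟨_, _, _, x.2.1.ne, x.2.2.1.symm, x.2.2.2.symm, rfl⟩

theorem card_helper {t : ℕ} : Fintype.card (Helper t) ≤ 3 * t.choose 3 := by
  have := helper_card (t := t) univ (powersetCard 3 univ) (fun s hs => (mem_powersetCard.1 hs).2)
    fun x _ => mem_powersetCard.2 ⟨subset_univ _, card3 x⟩
  simpa using this

theorem deg_main {t : ℕ} (i : Fin t) :
    Fintype.card (Nbr (.inl i : TV t)) ≤ t - 1 + 3 * (t - 1).choose 2 := by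
  rw [Fintype.card_subtype, card_filter, Fintype.sum_sum_type, ← card_filter, ← card_filter]
  refine add_le_add ?_ ?_
  · have : (univ.filter fun j : Fin t => tAdj (.inl i : TV t) (.inl j) = true) = univ.erase i := by
      ext j
      simp only [tAdj, mem_filter, mem_univ, true_and, decide_eq_true_eq, mem_erase, and_true]
      exact ne_comm
    rw [this]; simp
  · refine (helper_card _ ((powersetCard 3 univ).filter ({i} ⊆ ·)) (fun s hs =>
      (mem_powersetCard.1 (mem_filter.1 hs).1).2) fun x hx => mem_filter.2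
        ⟨mem_powersetCard.2 ⟨subset_univ _, card3 x⟩, by simpa [tAdj] using hx⟩).trans ?_
    rw [card_filter_powersetCard_subset _ _ _ (subset_univ _) (by simp)]
    simp

theorem deg_helper {t : ℕ} (h : Helper t) : Fintype.card (Nbr (.inr h : TV t)) ≤ 3 := by
  rw [Fintype.card_subtype]
  refine (card_le_card (t := {.inl h.1.1, .inl h.1.2.1, .inl h.1.2.2}) ?_).trans card_le_three
  rintro (j | h') hj
  · simpa [tAdj] using hj
  · simp [tAdj] at hj

end PLBasicA

open PLBasicA

theorem lift_simple {t : ℕ} (C : ChoiceSystem t) (b : TV t → Bool) :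
    IsSimple (asMatrix (liftAdj C b)) := by
  have hb : ∀ u v, bAdj C u v = bAdj C v u := by
    rintro (u | u) (v | v) <;> simp [bAdj, Bool.or_comm]
  have ht : ∀ a : TV t, tAdj a a = false := by
    rintro (a | a) <;> simp [tAdj]
  refine ⟨fun v w => ?_, fun v => ?_⟩
  · simp only [asMatrix, liftAdj, decide_eq_decide]
    constructor <;> rintro ⟨h, h', e1, e2⟩ <;> exact ⟨h', h, hb _ _ ▸ e1, e2.symm⟩
  · simp only [asMatrix, liftAdj, decide_eq_false_iff_not]
    rintro ⟨h, -⟩
    simp [ht] at h

theorem lift_card_eq {t : ℕ} (ht : 4 ≤ t) (C : ChoiceSystem t) :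
    Fintype.card (LiftV C (lift0Parity t)) = Fintype.card (LiftV C (liftStarParity t)) := by
  rw [lift_card ht, lift_card ht]

theorem lift_card_le {t : ℕ} (ht : 4 ≤ t) (C : ChoiceSystem t) (A : ℕ) (hA : C.SizeAtMost A) :
    Fintype.card (LiftV C (lift0Parity t)) ≤ A * orderFactor t := by
  rw [lift_card ht, Fintype.sum_sum_type, Fintype.sum_sigma, Fintype.sum_sigma, orderFactor, mul_add]
  refine add_le_add ?_ ?_
  · calc _ ≤ ∑ _i : Fin t, A * 2 ^ (t - 2 + 3 * (t - 1).choose 2) := by
          refine sum_le_sum fun i _ => ?_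
          show ∑ _d : Fin (C.dom i), 2 ^ (Fintype.card (Nbr (.inl i : TV t)) - 1) ≤ _
          rw [sum_const, card_univ, Fintype.card_fin, smul_eq_mul]
          refine Nat.mul_le_mul (hA.1 i) (Nat.pow_le_pow_right (by norm_num) ?_)
          have := deg_main i
          omega
      _ = _ := by simp; ring
  · calc _ ≤ ∑ _h : Helper t, A * 2 ^ 2 := by
          refine sum_le_sum fun h _ => ?_
          show ∑ _d : Fin (C.lab h.1.1 h.1.2.1), 2 ^ (Fintype.card (Nbr (.inr h : TV t)) - 1) ≤ _
          rw [sum_const, card_univ, Fintype.card_fin, smul_eq_mul]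
          refine Nat.mul_le_mul (hA.2 _ _ h.2.1) (Nat.pow_le_pow_right (by norm_num) ?_)
          have := deg_helper h
          omega
      _ ≤ _ := by
          rw [sum_const, card_univ, smul_eq_mul]
          calc _ ≤ 3 * t.choose 3 * (A * 2 ^ 2) := Nat.mul_le_mul_right _ card_helper
            _ = _ := by ring

end Crest.Agent.R290
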