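import Crest.Agent.R290.PLInv

/-!
# Row 290 (S0438), task PLDetect: the clique invariant is seen at round 1 (separate) / 2 (joint)

Plan.  For graphs `G, H` on `Fin n`, `Fin m`, `k ≥ 4`:
* if `scolor G k 1 v = scolor H k 1 v'` or `jcolor G k 1 v = jcolor H k 1 v'` then the atomic types
  agree and `cn G (v i) (v j) (v l) = cn H (v' i) (v' j) (v' l)` for all `i, j, l`: take a coordinate
  `r ∉ {i, j, l}` and count the members of the round-1 multiset whose atomic type has `true` at
  `(i, r), (j, r), (l, r)`.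
* if `jcolor G k 2 v = jcolor H k 2 v'` then for each `z` there is `z'` with
  `jcolor G k 1 (update v i z) = jcolor H k 1 (update v' i z')` for all `i`; every pair/triple of
  `Fin.snoc v z` lies in `v` or in some `update v i z`.
* equal histograms give a partner with the same colour (`Multiset.mem_map`).
* pure versions: apply the above with `G = H = asMatrix (unionAdj G H)`; `QCl` in the union for
  `e ∘ inl ∘ v` is `QCl` in `G` (common neighbours of `inl` vertices are `inl` vertices); the partner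
  `z'` is adjacent to an `inr` vertex, so is an `inr` vertex.
* `QCl.transport`: relabelling.
-/

set_option autoImplicit false

namespace Crest.Agent.R290

open Finset Crest.WLRefine Crest.WLRefine.ParityLift

theorem QCl.transport {V W ι : Type} [Fintype V] [Fintype W] {A : V → V → Bool} {B : W → W → Bool}
    (e : V ≃ W) (h : ∀ x y, B (e x) (e y) = A x y) (v : ι → V) : QCl B (e ∘ v) ↔ QCl A v := by
  have : ∀ x y z, cn B (e x) (e y) (e z) = cn A x y z := fun x y z =>
    (Finset.card_equiv e (by simp [h])).symm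
  simp [QCl, h, this]

/-- adjacency and common-neighbour counts agree -/
def PldSame {n m : ℕ} {ι : Type} (G : Fin n → Fin n → Bool) (H : Fin m → Fin m → Bool)
    (v : ι → Fin n) (v' : ι → Fin m) : Prop :=
  (∀ i j, G (v i) (v j) = H (v' i) (v' j)) ∧
    ∀ i j l, cn G (v i) (v j) (v l) = cn H (v' i) (v' j) (v' l)

theorem PldSame.qcl {n m : ℕ} {ι : Type} {G : Fin n → Fin n → Bool} {H : Fin m → Fin m → Bool}
    {v : ι → Fin n} {v' : ι → Fin m} (h : PldSame G H v v') (hv : QCl G v) : QCl H v' := by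
  simpa only [QCl, ← h.1, ← h.2] using hv

theorem pld_partner {α β γ : Type} [Fintype α] [Fintype β] {f : α → γ} {g : β → γ}
    (h : univ.val.map f = univ.val.map g) (a : α) : ∃ b, f a = g b := by
  have : f a ∈ univ.val.map g := h ▸ Multiset.mem_map_of_mem f (mem_univ_val a)
  obtain ⟨b, -, hb⟩ := Multiset.mem_map.1 this
  exact ⟨b, hb.symm⟩

theorem pld_free {α : Type} {k : ℕ} (hk : 4 ≤ k) (f : Fin k ↪ α) (i j l : α) :
    ∃ r, i ≠ f r ∧ j ≠ f r ∧ l ≠ f r := by
  classical
  obtain ⟨_, h1, h2⟩ := exists_mem_notMem_of_card_lt_card (s := {i, j, l}) (t := univ.map f)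
    (card_le_three.trans_lt (by rw [card_map, card_fin]; omega))
  obtain ⟨r, -, rfl⟩ := mem_map.1 h1
  exact ⟨r, by simpa [not_or, eq_comm] using h2⟩

theorem pld_same {n m k : ℕ} (hk : 4 ≤ k) {G : Fin n → Fin n → Bool} {H : Fin m → Fin m → Bool}
    {v : Fin k → Fin n} {v' : Fin k → Fin m} (h0 : atomicType G v = atomicType H v')
    (h1 : ∀ r, (univ.val.map fun z => atomicType G (Function.update v r z)) =
      univ.val.map fun z => atomicType H (Function.update v' r z)) : PldSame G H v v' := by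
  refine ⟨fun i j => congrFun₂ (congrArg Prod.snd h0) i j, fun i j l => ?_⟩
  obtain ⟨r, hi, hj, hl⟩ := pld_free hk (Function.Embedding.refl _) i j l
  simp only [Function.Embedding.refl_apply] at hi hj hl
  have := congrArg (Multiset.countP fun c => c.2 i r = true ∧ c.2 j r = true ∧ c.2 l r = true) (h1 r)
  simp only [Multiset.countP_map, atomicType, Function.update_self, Function.update_of_ne hi,
    Function.update_of_ne hj, Function.update_of_ne hl] at this
  exact this

theorem pld_same_s {n m k : ℕ} (hk : 4 ≤ k) {G : Fin n → Fin n → Bool} {H : Fin m → Fin m → Bool}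
    {v : Fin k → Fin n} {v' : Fin k → Fin m} (h : scolor G k 1 v = scolor H k 1 v') :
    PldSame G H v v' :=
  pld_same hk (congrArg Prod.fst h) fun r => congrFun (congrArg Prod.snd h) r

theorem pld_same_j {n m k : ℕ} (hk : 4 ≤ k) {G : Fin n → Fin n → Bool} {H : Fin m → Fin m → Bool}
    {v : Fin k → Fin n} {v' : Fin k → Fin m} (h : jcolor G k 1 v = jcolor H k 1 v') :
    PldSame G H v v' :=
  pld_same hk (congrArg Prod.fst h) fun r => by
    have := congrArg (Multiset.map fun c : Fin k → JColor k 0 => c r) (congrArg Prod.snd h)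
    simp only [jcolor, Multiset.map_map] at this
    exact this

theorem pld_j2 {n m k : ℕ} (hk : 4 ≤ k) {G : Fin n → Fin n → Bool} {H : Fin m → Fin m → Bool}
    {w : Fin (k + 1) → Fin n} {v' : Fin k → Fin m}
    (h : jcolor G k 2 (Fin.init w) = jcolor H k 2 v') (hw : QCl G w) :
    ∃ z, QCl H (Fin.snoc v' z : Fin (k + 1) → Fin m) := by
  obtain ⟨z, hz⟩ := pld_partner (f := fun z i => jcolor G k 1 (Function.update (Fin.init w) i z))
    (g := fun z i => jcolor H k 1 (Function.update v' i z)) (congrArg Prod.snd h) (w (Fin.last k))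
  have h1 : ∀ (r : Fin k) (x : Fin (k + 1)), x ≠ Fin.castSuccEmb r → ∃ y,
      w x = Function.update (Fin.init w) r (w (Fin.last k)) y ∧
      (Fin.snoc v' z : Fin (k + 1) → Fin m) x = Function.update v' r z y := fun r x hx => by
    induction x using Fin.lastCases with
    | last => exact ⟨r, by simp⟩
    | cast a =>
      have : a ≠ r := fun e => hx (by simp [e])
      exact ⟨a, by simp [this, Fin.init]⟩
  refine ⟨z, PldSame.qcl (G := G) ⟨fun i j => ?_, fun i j l => ?_⟩ hw⟩
  · obtain ⟨r, hi, hj, -⟩ := pld_free hk Fin.castSuccEmb i j j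
    obtain ⟨a, a1, a2⟩ := h1 r i hi
    obtain ⟨b, b1, b2⟩ := h1 r j hj
    rw [a1, a2, b1, b2, (pld_same_j hk (congrFun hz r)).1]
  · obtain ⟨r, hi, hj, hl⟩ := pld_free hk Fin.castSuccEmb i j l
    obtain ⟨a, a1, a2⟩ := h1 r i hi
    obtain ⟨b, b1, b2⟩ := h1 r j hj
    obtain ⟨c, c1, c2⟩ := h1 r l hl
    rw [a1, a2, b1, b2, c1, c2, (pld_same_j hk (congrFun hz r)).2]

theorem pld_inl {n m : ℕ} {ι : Type} {G : Fin n → Fin n → Bool} (H : Fin m → Fin m → Bool)
    (v : ι → Fin n) :
    QCl (asMatrix (unionAdj G H)) (Fintype.equivFin _ ∘ Sum.inl ∘ v) ↔ QCl G v := by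
  have : ∀ a b c, cn (unionAdj G H) (.inl a) (.inl b) (.inl c) = cn G a b c := fun a b c => by
    rw [cn, cn, card_filter, card_filter, Fintype.sum_sum_type]
    simp [unionAdj, -sum_boole]
    rfl
  rw [QCl.transport (A := unionAdj G H) _ (by simp [asMatrix])]
  simp [QCl, this, unionAdj]

theorem pld_inr {n m : ℕ} {ι : Type} (G : Fin n → Fin n → Bool) {H : Fin m → Fin m → Bool}
    (v : ι → Fin m) :
    QCl (asMatrix (unionAdj G H)) (Fintype.equivFin _ ∘ Sum.inr ∘ v) ↔ QCl H v := by
  have : ∀ a b c, cn (unionAdj G H) (.inr a) (.inr b) (.inr c) = cn H a b c := fun a b c => by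
    rw [cn, cn, card_filter, card_filter, Fintype.sum_sum_type]
    simp [unionAdj, -sum_boole]
    rfl
  rw [QCl.transport (A := unionAdj G H) _ (by simp [asMatrix])]
  simp [QCl, this, unionAdj]

theorem qcl_of_shist {n m k : ℕ} (hk : 4 ≤ k) {G : Fin n → Fin n → Bool} {H : Fin m → Fin m → Bool}
    (h : univ.val.map (scolor G k 1) = univ.val.map (scolor H k 1)) {v : Fin k → Fin n}
    (hv : QCl G v) : ∃ v' : Fin k → Fin m, QCl H v' := by
  obtain ⟨v', h'⟩ := pld_partner h v
  exact ⟨v', (pld_same_s hk h').qcl hv⟩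

theorem qcl_of_jhist {n m k : ℕ} (hk : 4 ≤ k) {G : Fin n → Fin n → Bool} {H : Fin m → Fin m → Bool}
    (h : univ.val.map (jcolor G k 2) = univ.val.map (jcolor H k 2)) {v : Fin (k + 1) → Fin n}
    (hv : QCl G v) : ∃ v' : Fin (k + 1) → Fin m, QCl H v' := by
  obtain ⟨v', h'⟩ := pld_partner h (Fin.init v)
  obtain ⟨z, hz⟩ := pld_j2 hk h' hv
  exact ⟨_, hz⟩

theorem qcl_of_pureS {n m k : ℕ} (hk : 4 ≤ k) {G : Fin n → Fin n → Bool} {H : Fin m → Fin m → Bool}
    (h : PureSHistEq k 1 G H) {v : Fin k → Fin n} (hv : QCl G v) :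
    ∃ v' : Fin k → Fin m, QCl H v' := by
  obtain ⟨v', h'⟩ := pld_partner h v
  exact ⟨v', (pld_inr G v').1 ((pld_same_s hk h').qcl ((pld_inl H v).2 hv))⟩

theorem qcl_of_pureJ {n m k : ℕ} (hk : 4 ≤ k) {G : Fin n → Fin n → Bool} {H : Fin m → Fin m → Bool}
    (h : PureJHistEq k 2 G H) {v : Fin (k + 1) → Fin n} (hv : QCl G v) :
    ∃ v' : Fin (k + 1) → Fin m, QCl H v' := by
  obtain ⟨v', h'⟩ := pld_partner h (Fin.init v)
  obtain ⟨z, hz⟩ := pld_j2 (w := Fintype.equivFin _ ∘ Sum.inl ∘ v) hk h' ((pld_inl H v).2 hv)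
  obtain ⟨z, rfl⟩ := (Fintype.equivFin (Fin n ⊕ Fin m)).surjective z
  rcases z with z | z
  · simpa [asMatrix, unionAdj] using
      hz.1 (Fin.castSucc ⟨0, by omega⟩) (Fin.last k) (Fin.castSucc_ne_last _)
  · refine ⟨Fin.snoc v' z, (pld_inr G _).1 ?_⟩
    rwa [← Function.comp_assoc, Fin.comp_snoc]

end Crest.Agent.R290
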