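import Crest.Agent.R290.WL
import Crest.Prelude.Def_ParityLift

/-!
# Row 290 (S0438), task PLGame: no successful choice ⇒ Duplicator wins with `t` pebbles

A *gauge* `g` gives a shift vector `g u : TV t → ZMod 2` at every base vertex `u`, with
`g u (typeOf v) = g v (typeOf u)` for adjacent `u`, `v`, whose parity `π` depends only on the type of
`u`; it is *normal* when `π` vanishes at the helpers.  A pair `(x, y)` *fits* `g` when both lie over the
same base vertex `u` and `tag y = tag x + g u`.  A position is winning when each of its subsets with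
fewer than `t` pairs fits a normal gauge.  The gauges used: `E a b` (flip a template edge) and
`F h q + F h' q` (two helpers of the same pair, flip the label `q`).
-/

set_option autoImplicit false

namespace Crest.Agent.R290

open Finset Crest.WLRefine Crest.WLRefine.ParityLift

namespace PG

variable {t : ℕ} {C : ChoiceSystem t}

def bz (b : Bool) : ZMod 2 := if b then 1 else 0

theorem bz_inj {a b : Bool} : bz a = bz b ↔ a = b := by revert a b; decide

theorem bz_dec (c : ZMod 2) : bz (decide (c = 1)) = c := by revert c; decide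

theorem z2 (c : ZMod 2) : c + c = 0 := by revert c; decide

theorem z2' {c c' : ZMod 2} (h : c ≠ c') : c + 1 = c' := by revert c c'; decide

def par (c : TV t) (z : TV t → ZMod 2) : ZMod 2 := ∑ a with tAdj c a = true, z a

theorem par_add (c : TV t) (z w : TV t → ZMod 2) : par c (z + w) = par c z + par c w :=
  sum_add_distrib

theorem par_congr {c : TV t} {z w : TV t → ZMod 2} (h : ∀ a, tAdj c a = true → z a = w a) :
    par c z = par c w := sum_congr rfl fun a ha => h a (mem_filter.1 ha).2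

theorem par_ite {c b : TV t} (h : tAdj c b = true) (P : Prop) [Decidable P] :
    par c (fun a => if P ∧ a = b then 1 else 0) = if P then 1 else 0 := by
  by_cases hP : P <;> simp [par, hP, h]

theorem cond_iff (c : TV t) (z : Nbr c → Bool) (β : Bool) :
    (univ.filter fun a' => z a' = true).card % 2 = β.toNat ↔ ∑ a', bz (z a') = bz β := by
  have : ∑ a', bz (z a') = ((univ.filter fun a' => z a' = true).card : ZMod 2) := by simp [bz]
  rw [this]
  generalize (univ.filter fun a' => z a' = true).card = N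
  rw [← ZMod.natCast_mod N 2]
  rcases Nat.mod_two_eq_zero_or_one N with h | h <;> rw [h] <;> cases β <;> decide

theorem par_eq (c : TV t) (z : TV t → ZMod 2) : par c z = ∑ a' : Nbr c, z a' :=
  sum_subtype _ (by simp) _

variable {b b' : TV t → Bool}

def tag (x : LiftV C b) (a : TV t) : ZMod 2 :=
  if h : tAdj (typeOf C x.1.1) a = true then bz (x.1.2 ⟨a, h⟩) else 0

theorem par_tag (x : LiftV C b) : par (typeOf C x.1.1) (tag x) = bz (b (typeOf C x.1.1)) := by
  rw [par_eq, ← (cond_iff _ _ _).1 x.2]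
  exact sum_congr rfl fun a _ => dif_pos a.2

theorem lift_ext {x y : LiftV C b} (h : x.1.1 = y.1.1)
    (h' : ∀ a, tAdj (typeOf C x.1.1) a = true → tag x a = tag y a) : x = y := by
  obtain ⟨⟨u, z⟩, hz⟩ := x
  obtain ⟨⟨v, w⟩, hw⟩ := y
  obtain rfl : u = v := h
  obtain rfl : z = w := by
    funext a
    have := h' a a.2
    rwa [tag, tag, dif_pos a.2, dif_pos a.2, bz_inj] at this
  rfl

theorem lift_mk (u : BV C) (z : TV t → ZMod 2) (hz : par (typeOf C u) z = bz (b (typeOf C u))) :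
    ∃ x : LiftV C b, x.1.1 = u ∧ ∀ a, tAdj (typeOf C u) a = true → tag x a = z a :=
  ⟨⟨⟨u, fun a => decide (z a = 1)⟩, (cond_iff _ _ _).2 (by simp only [bz_dec]; rwa [← par_eq])⟩, rfl,
    fun a h => (dif_pos h).trans (bz_dec _)⟩

theorem liftAdj_iff (x y : LiftV C b) : liftAdj C b x y = true ↔
    tAdj (typeOf C x.1.1) (typeOf C y.1.1) = true ∧ tAdj (typeOf C y.1.1) (typeOf C x.1.1) = true ∧
      bAdj C x.1.1 y.1.1 = true ∧ tag x (typeOf C y.1.1) = tag y (typeOf C x.1.1) := by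
  rw [liftAdj, decide_eq_true_eq]
  constructor
  · rintro ⟨h, h', h1, h2⟩
    exact ⟨h, h', h1, by rw [tag, tag, dif_pos h, dif_pos h', h2]⟩
  · rintro ⟨h, h', h1, h2⟩
    rw [tag, tag, dif_pos h, dif_pos h', bz_inj] at h2
    exact ⟨h, h', h1, h2⟩

/-- `y` is `x` shifted by `s` -/
def Sh (s : TV t → ZMod 2) (x : LiftV C b) (y : LiftV C b') : Prop :=
  y.1.1 = x.1.1 ∧ ∀ a, tAdj (typeOf C x.1.1) a = true → tag y a = tag x a + s a

theorem exists_equiv (s : BV C → TV t → ZMod 2)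
    (hs : ∀ u, par (typeOf C u) (s u) = bz (b (typeOf C u)) + bz (b' (typeOf C u))) :
    ∃ f : LiftV C b ≃ LiftV C b', ∀ x, Sh (s x.1.1) x (f x) := by
  have h1 : ∀ x : LiftV C b, ∃ y : LiftV C b', Sh (s x.1.1) x y := fun x =>
    lift_mk x.1.1 (tag x + s x.1.1) (by rw [par_add, par_tag, hs, ← add_assoc, z2, zero_add])
  have h2 : ∀ x : LiftV C b', ∃ y : LiftV C b, Sh (s x.1.1) x y := fun x =>
    lift_mk x.1.1 (tag x + s x.1.1)
      (by rw [par_add, par_tag, hs, add_comm, add_assoc, z2, add_zero])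
  choose f hf using h1
  choose f' hf' using h2
  refine ⟨⟨f, f', fun x => ?_, fun x => ?_⟩, hf⟩
  · refine (lift_ext ((hf' _).1.trans (hf x).1).symm fun a ha => ?_).symm
    rw [(hf' _).2 a ((hf x).1 ▸ ha), (hf x).2 a ha, (hf x).1, add_assoc, z2, add_zero]
  · refine (lift_ext ((hf _).1.trans (hf' x).1).symm fun a ha => ?_).symm
    rw [(hf _).2 a ((hf' x).1 ▸ ha), (hf' x).2 a ha, (hf' x).1, add_assoc, z2, add_zero]

/-- gauges with parity `π` -/
def Gau (g : BV C → TV t → ZMod 2) (π : TV t → ZMod 2) : Prop :=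
  (∀ u v, bAdj C u v = true → g u (typeOf C v) = g v (typeOf C u)) ∧
    ∀ u, par (typeOf C u) (g u) = π (typeOf C u)

theorem Gau.add {g g' : BV C → TV t → ZMod 2} {π π' : TV t → ZMod 2} (h : Gau g π) (h' : Gau g' π') :
    Gau (g + g') (π + π') :=
  ⟨fun u v e => by simp only [Pi.add_apply, h.1 u v e, h'.1 u v e],
    fun u => by rw [Pi.add_apply, par_add, h.2, h'.2]; rfl⟩

def Nor (g : BV C → TV t → ZMod 2) : Prop := ∃ π, Gau g π ∧ ∀ h, π (Sum.inr h) = 0

theorem Nor.add {g g' : BV C → TV t → ZMod 2} (h : Nor g) (h' : Nor g') : Nor (g + g') := by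
  obtain ⟨π, h, h0⟩ := h
  obtain ⟨π', h', h0'⟩ := h'
  exact ⟨_, h.add h', fun k => by simp [h0, h0']⟩

def E (C : ChoiceSystem t) (a c : TV t) : BV C → TV t → ZMod 2 :=
  fun u => (fun k => if typeOf C u = a ∧ k = c then 1 else 0) +
    fun k => if typeOf C u = c ∧ k = a then 1 else 0

theorem gau_E {a c : TV t} (h : tAdj a c = true) (h' : tAdj c a = true) :
    Gau (E C a c) fun k => (if k = a then 1 else 0) + if k = c then 1 else 0 := by
  refine ⟨fun u v _ => ?_, fun u => ?_⟩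
  · simp only [E, Pi.add_apply, and_comm (a := typeOf C v = _)]; exact add_comm _ _
  · rw [E, par_add]
    congr 1
    · by_cases e : typeOf C u = a
      · exact par_ite (e ▸ h) _
      · simp [e, par]
    · by_cases e : typeOf C u = c
      · exact par_ite (e ▸ h') _
      · simp [e, par]

theorem nor_EE {h : Helper t} {i j : Fin t} (hi : tAdj (Sum.inl i) (Sum.inr h) = true)
    (hj : tAdj (Sum.inl j) (Sum.inr h) = true) :
    Nor (E C (Sum.inl i) (Sum.inr h) + E C (Sum.inl j) (Sum.inr h)) :=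
  ⟨_, (gau_E hi hi).add (gau_E hj hj), fun k => by simp [z2]⟩

def F (h : Helper t) (q : Fin (C.lab h.1.1 h.1.2.1)) : BV C → TV t → ZMod 2 :=
  fun u => (fun k => if ((typeOf C u = Sum.inl h.1.1 ∨ typeOf C u = Sum.inl h.1.2.1) ∧
      bAdj C u (Sum.inr ⟨h, q⟩) = true) ∧ k = Sum.inr h then 1 else 0) +
    ((fun k => if u = Sum.inr ⟨h, q⟩ ∧ k = Sum.inl h.1.1 then 1 else 0) +
      fun k => if u = Sum.inr ⟨h, q⟩ ∧ k = Sum.inl h.1.2.1 then 1 else 0)

theorem bAdj_left (h : Helper t) (q : Fin (C.lab h.1.1 h.1.2.1)) (d : Fin (C.dom h.1.1)) :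
    bAdj C (Sum.inl ⟨h.1.1, d⟩) (Sum.inr ⟨h, q⟩) = true ↔ q = C.lamL _ _ d := by
  simp [bAdj, helperAgree, h.2.1.ne, h.2.2.1.symm]

theorem bAdj_right (h : Helper t) (q : Fin (C.lab h.1.1 h.1.2.1)) (d : Fin (C.dom h.1.2.1)) :
    bAdj C (Sum.inl ⟨h.1.2.1, d⟩) (Sum.inr ⟨h, q⟩) = true ↔ q = C.lamR _ _ d := by
  simp [bAdj, helperAgree, h.2.1.ne', h.2.2.2.symm]

theorem F_cons (h : Helper t) (q : Fin (C.lab h.1.1 h.1.2.1)) (u v : BV C) (e : bAdj C u v = true) :
    F h q u (typeOf C v) = F h q v (typeOf C u) := by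
  have key : ∀ p v, bAdj C (Sum.inl p) (Sum.inr v) = true →
      F h q (Sum.inl p) (Sum.inr v.1) = F h q (Sum.inr v) (Sum.inl p.1) := by
    rintro ⟨x, d⟩ ⟨k, r⟩ e
    by_cases hk : k = h
    · subst hk
      by_cases h1 : x = k.1.1
      · subst h1
        rw [bAdj_left] at e
        simp [F, typeOf, bAdj_left, e, k.2.1.ne, eq_comm (a := q)]
      by_cases h2 : x = k.1.2.1
      · subst h2
        rw [bAdj_right] at e
        simp [F, typeOf, bAdj_right, e, k.2.1.ne', eq_comm (a := q)]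
      simp [F, typeOf, h1, h2]
    · simp [F, typeOf, hk]
  rcases u with p | p <;> rcases v with r | r
  · simp [F, typeOf]
  · exact key p r e
  · exact (key r p e).symm
  · simp [bAdj] at e

theorem F_par (h : Helper t) (q : Fin (C.lab h.1.1 h.1.2.1)) (u : BV C) :
    par (typeOf C u) (F h q u) = if (typeOf C u = Sum.inl h.1.1 ∨ typeOf C u = Sum.inl h.1.2.1) ∧
      bAdj C u (Sum.inr ⟨h, q⟩) = true then 1 else 0 := by
  rw [F, par_add, par_add]
  by_cases e : u = Sum.inr ⟨h, q⟩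
  · subst e
    rw [par_ite (b := Sum.inl h.1.1) (by simp [typeOf, tAdj]),
      par_ite (b := Sum.inl h.1.2.1) (by simp [typeOf, tAdj]), z2]
    simp [par, typeOf]
  · by_cases e' : typeOf C u = Sum.inl h.1.1 ∨ typeOf C u = Sum.inl h.1.2.1
    · rw [par_ite (by rcases e' with e' | e' <;> simp [e', tAdj])]
      simp [par, e]
    · simp [par, e, e']

theorem nor_FF {i j l l' : Fin t} (h : i < j ∧ l ≠ i ∧ l ≠ j) (h' : i < j ∧ l' ≠ i ∧ l' ≠ j)
    (q : Fin (C.lab i j)) : Nor (F ⟨(i, j, l), h⟩ q + F ⟨(i, j, l'), h'⟩ q) := by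
  refine ⟨0, ⟨fun u v e => ?_, fun u => ?_⟩, fun _ => rfl⟩
  · simp only [Pi.add_apply, F_cons _ _ u v e]
  · rw [Pi.add_apply, par_add, F_par, F_par]
    refine (congrArg _ (if_congr ?_ rfl rfl)).trans (z2 _)
    refine and_congr_right fun e => ?_
    rcases u with ⟨x, d⟩ | u
    · rcases e with e | e <;> obtain rfl := Sum.inl.inj e
      · exact (bAdj_left ⟨(_, j, l'), h'⟩ q d).trans (bAdj_left ⟨(_, j, l), h⟩ q d).symm
      · exact (bAdj_right ⟨(i, _, l'), h'⟩ q d).trans (bAdj_right ⟨(i, _, l), h⟩ q d).symm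
    · simp [typeOf] at e

/-- the correcting gauge -/
theorem exists_corr (d : (i : Fin t) → Fin (C.dom i)) (h : Helper t)
    (hd : C.lamL h.1.1 h.1.2.1 (d _) ≠ C.lamR h.1.1 h.1.2.1 (d _)) {m m' : Fin t}
    (hm : tAdj (Sum.inl m) (Sum.inr h) = true) :
    ∃ δ : BV C → TV t → ZMod 2, Nor δ ∧ ∀ x ≠ m', ∀ k,
      δ (Sum.inl ⟨x, d x⟩) k = if x = m ∧ k = Sum.inr h then 1 else 0 := by
  by_cases hm' : tAdj (Sum.inl m') (Sum.inr h) = true
  · exact ⟨_, nor_EE hm hm', fun x hx k => by simp [E, typeOf, hx]⟩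
  obtain ⟨⟨i, j, l⟩, h⟩ := h
  simp only [tAdj, decide_eq_true_eq, not_or] at hm'
  have h' : i < j ∧ m' ≠ i ∧ m' ≠ j := ⟨h.1, hm'.1, hm'.2.1⟩
  refine ⟨_, ((nor_EE (j := i) hm (by simp [tAdj])).add (nor_FF h h' (C.lamL i j (d i)))).add
    (nor_EE (h := ⟨(i, j, m'), h'⟩) (i := i) (j := m') (by simp [tAdj]) (by simp [tAdj])),
    fun x hx k => ?_⟩
  have hF : ∀ l (h : i < j ∧ l ≠ i ∧ l ≠ j), F ⟨(i, j, l), h⟩ (C.lamL i j (d i)) (Sum.inl ⟨x, d x⟩) k =
      if x = i ∧ k = Sum.inr ⟨(i, j, l), h⟩ then 1 else 0 := by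
    intro l h
    by_cases h1 : x = i
    · subst h1
      simp [F, typeOf, (bAdj_left ⟨(_, j, l), h⟩ _ (d x)).2 rfl]
    by_cases h2 : x = j
    · subst h2
      simp [F, typeOf, h1, mt (bAdj_right ⟨(i, _, l), h⟩ _ (d x)).1 hd]
    simp [F, typeOf, h1, h2]
  simp only [Pi.add_apply, hF, E, typeOf, Sum.inl.injEq, hx, reduceCtorEq, false_and, if_false,
    add_zero]
  generalize (if x = m ∧ k = Sum.inr ⟨(i, j, l), h⟩ then 1 else 0 : ZMod 2) = a
  generalize (if x = i ∧ k = Sum.inr ⟨(i, j, l), h⟩ then 1 else 0 : ZMod 2) = b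
  generalize (if x = i ∧ k = Sum.inr ⟨(i, j, m'), h'⟩ then 1 else 0 : ZMod 2) = c
  revert a b c
  decide

def Win (p : Finset (LiftV C b × LiftV C b')) : Prop :=
  ∀ q ⊆ p, q.card < t → ∃ g, Nor g ∧ ∀ z ∈ q, Sh (g z.1.1.1) z.1 z.2

theorem Win.two (ht : 4 ≤ t) {p : Finset (LiftV C b × LiftV C b')} (h : Win p) {x y} (hx : x ∈ p)
    (hy : y ∈ p) : ∃ g, Nor g ∧ Sh (g x.1.1.1) x.1 x.2 ∧ Sh (g y.1.1.1) y.1 y.2 := by
  obtain ⟨g, hg, h⟩ := h {x, y} (by simp [insert_subset_iff, hx, hy]) (card_le_two.trans_lt (by omega))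
  exact ⟨g, hg, h x (by simp), h y (by simp)⟩

theorem step (ht : 4 ≤ t) (hC : ¬ C.Successful)
    {p : Finset (LiftV C (lift0Parity t) × LiftV C (liftStarParity t))} (hw : Win p) (hp : p.card < t)
    (u : BV C) : ∃ s, par (typeOf C u) s = bz (liftStarParity t (typeOf C u)) ∧
      ∀ x y, x.1.1 = u → Sh s x y → Win (insert (x, y) p) := by
  obtain ⟨g, hg, hf⟩ := hw p subset_rfl hp
  have easy : ∀ g : BV C → TV t → ZMod 2, Nor g → (∀ z ∈ p, Sh (g z.1.1.1) z.1 z.2) →
      ∀ x y, x.1.1 = u → Sh (g u) x y → Win (insert (x, y) p) := by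
    rintro g hg hf x y rfl hs q hq -
    refine ⟨g, hg, fun z hz => ?_⟩
    rcases mem_insert.1 (hq hz) with rfl | hz
    exacts [hs, hf z hz]
  obtain ⟨π, hπ, h0⟩ := id hg
  by_cases hu : π (typeOf C u) = bz (liftStarParity t (typeOf C u))
  · exact ⟨g u, (hπ.2 u).trans hu, easy g hg hf⟩
  rcases u with ⟨m, e⟩ | u
  swap
  · exact absurd ((h0 _).trans (by simp [bz, liftStarParity, typeOf])) hu
  have hm : ∀ z ∈ p, typeOf C z.1.1.1 ≠ Sum.inl m := by
    intro z hz e'
    have h1 := par_tag z.2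
    rw [(hf z hz).1, par_congr (w := tag z.1 + g z.1.1.1) (hf z hz).2, par_add, par_tag, hπ.2, e'] at h1
    exact hu ((zero_add _).symm.trans h1)
  by_cases hm' : ∃ m' ≠ m, ∀ z ∈ p, typeOf C z.1.1.1 ≠ Sum.inl m'
  · obtain ⟨m', hne, hm'⟩ := hm'
    have hE := gau_E (C := C) (a := Sum.inl m) (c := Sum.inl m') (by simp [tAdj, hne.symm])
      (by simp [tAdj, hne])
    refine ⟨(g + E C (Sum.inl m) (Sum.inl m')) _, ?_,
      easy _ (hg.add ⟨_, hE, fun _ => by simp⟩) fun z hz => ⟨(hf z hz).1, fun a ha => ?_⟩⟩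
    · rw [(hπ.add hE).2, ← z2' hu]; simp [typeOf, hne.symm]
    · simp [(hf z hz).2 a ha, E, hm z hz, hm' z hz]
  push Not at hm'
  have hd : ∀ i, ∃ di : Fin (C.dom i), (i = m → (⟨i, di⟩ : Σ i, Fin (C.dom i)) = ⟨m, e⟩) ∧
      (i ≠ m → ∃ z ∈ p, z.1.1.1 = Sum.inl ⟨i, di⟩) := by
    intro i
    by_cases hi : i = m
    · subst hi; exact ⟨e, fun _ => rfl, fun h => absurd rfl h⟩
    obtain ⟨z, hz, e'⟩ := hm' i hi
    rcases hv : z.1.1.1 with ⟨i', di⟩ | v <;> rw [hv] at e'
    · obtain rfl := Sum.inl.inj e'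
      exact ⟨di, fun h => absurd h hi, fun _ => ⟨z, hz, hv⟩⟩
    · simp [typeOf] at e'
  choose d hd1 hd2 using hd
  have hall : ∀ z ∈ p, ∃ i ≠ m, z.1.1.1 = Sum.inl ⟨i, d i⟩ := by
    intro z hz
    by_contra hn
    push Not at hn
    have := card_le_card_of_surjOn (s := p.erase z)
      (t := (univ.erase m).image fun i => (Sum.inl ⟨i, d i⟩ : BV C)) (fun z => z.1.1.1) (by
        intro v hv
        simp only [coe_image, Set.mem_image, mem_coe, mem_erase] at hv ⊢
        obtain ⟨i, hi, rfl⟩ := hv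
        obtain ⟨z', hz', e'⟩ := hd2 i hi.1
        exact ⟨z', ⟨fun h => hn i hi.1 (h ▸ e'), hz'⟩, e'⟩)
    rw [card_image_of_injective _ fun i j h => congrArg Sigma.fst (Sum.inl.inj h),
      card_erase_of_mem (mem_univ _), card_erase_of_mem hz, card_univ, Fintype.card_fin] at this
    omega
  simp only [ChoiceSystem.Successful, not_exists, not_forall] at hC
  obtain ⟨i, j, hij, hne⟩ := hC d
  obtain ⟨l, hl, hl'⟩ : ∃ l, (i < j ∧ l ≠ i ∧ l ≠ j) ∧ (m = i ∨ m = j ∨ m = l) := by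
    by_cases h : m = i ∨ m = j
    · obtain ⟨l, -, hl⟩ := exists_mem_notMem_of_card_lt_card (s := {i, j}) (t := univ)
        (card_le_two.trans_lt (by simp; omega))
      exact ⟨l, ⟨hij, by simpa using hl⟩, h.imp_right Or.inl⟩
    · exact ⟨m, ⟨hij, not_or.1 h⟩, by simp⟩
  have hmh : tAdj (Sum.inl m) (Sum.inr ⟨(i, j, l), hl⟩) = true := by simpa [tAdj] using hl'
  refine ⟨g (Sum.inl ⟨m, e⟩) + fun k => if True ∧ k = Sum.inr ⟨(i, j, l), hl⟩ then 1 else 0, ?_, ?_⟩
  · rw [par_add, hπ.2, par_ite (c := typeOf C (Sum.inl ⟨m, e⟩)) hmh, if_pos trivial, z2' hu]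
  intro x y hx hs q hq hqt
  obtain ⟨_, ⟨m', -, rfl⟩, hm'⟩ := exists_mem_notMem_of_card_lt_card
    (s := q.image fun z => typeOf C z.1.1.1) (t := univ.map ⟨Sum.inl, Sum.inl_injective⟩)
    (card_image_le.trans_lt (by simpa)) |>.imp fun _ h => h.imp_left mem_map.1
  simp only [mem_image, not_exists, not_and, Function.Embedding.coeFn_mk] at hm'
  by_cases hmm : m' = m
  · refine ⟨g, hg, fun z hz => ?_⟩
    rcases mem_insert.1 (hq hz) with rfl | hz'
    · exact absurd (by rw [hx, hmm]; rfl) (hm' _ hz)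
    · exact hf z hz'
  obtain ⟨δ, hδ, hδ'⟩ := exists_corr (m' := m') d ⟨(i, j, l), hl⟩ hne hmh
  refine ⟨g + δ, hg.add hδ, fun z hz => ?_⟩
  rcases mem_insert.1 (hq hz) with rfl | hz'
  · refine ⟨hs.1, fun a ha => ?_⟩
    have := hδ' m (Ne.symm hmm) a
    rw [hd1 m rfl] at this
    simp [hs.2 a ha, hx, this]
  · obtain ⟨k, hk, e'⟩ := hall z hz'
    refine ⟨(hf z hz').1, fun a ha => ?_⟩
    have := hδ' k (fun h => hm' z hz (by rw [e', h]; rfl)) a
    simp [(hf z hz').2 a ha, e', this, hk]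

end PG

theorem parity_game {t : ℕ} (ht : 4 ≤ t) (C : ChoiceSystem t) (h : ¬ C.Successful) :
    Game t (liftAdj C (lift0Parity t)) (liftAdj C (liftStarParity t)) := by
  refine ⟨PG.Win, fun q hq _ => ⟨0, ⟨0, ⟨fun _ _ _ => rfl, fun _ => by simp [PG.par]⟩, fun _ => rfl⟩,
    fun z hz => by simpa using hq hz⟩, fun hp hq q h => hp q (h.trans hq), fun hp x hx y hy => ?_,
    fun hp x hx y hy => ?_, fun hw hp => ?_⟩
  · obtain ⟨g, -, h1, h2⟩ := hp.two ht hx hy
    constructor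
    · intro e
      rw [← e] at h2
      exact PG.lift_ext (h1.1.trans h2.1.symm) fun a ha => by
        rw [h1.1] at ha; rw [h1.2 a ha, h2.2 a ha]
    · intro e
      rw [← e] at h2
      have e' := h1.1.symm.trans h2.1
      exact PG.lift_ext e' fun a ha => by
        have := (h1.2 a ha).symm.trans (h2.2 a (e' ▸ ha))
        rwa [← e', add_left_inj] at this
  · obtain ⟨g, ⟨π, hg, -⟩, h1, h2⟩ := hp.two ht hx hy
    rw [Bool.eq_iff_iff, PG.liftAdj_iff, PG.liftAdj_iff, h1.1, h2.1]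
    refine and_congr_right fun a1 => and_congr_right fun a2 => and_congr_right fun a3 => ?_
    rw [h1.2 _ a1, h2.2 _ a2, hg.1 _ _ a3, add_left_inj]
  · choose s hs hs' using PG.step ht h hw hp
    obtain ⟨f, hf⟩ := PG.exists_equiv (b := lift0Parity t) (b' := liftStarParity t) s
      fun u => by simp [hs, PG.bz, lift0Parity]
    exact ⟨f, fun x => hs' _ x _ rfl (hf x)⟩

end Crest.Agent.R290
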