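import Mathlib
import Crest.Prelude.Def_WL
/-! Realises the unfolding lemmas of the Prelude's recursive colour functions once, in a module that
every user imports (so that no two modules generate them separately). -/
namespace Crest.Agent.R290
theorem jcolor_eq_def_realised : True := by
  have _h0 := @Crest.WLRefine.jcolor.eq_def
  have _h1 := @Crest.WLRefine.jcolor.eq_1
  have _h2 := @Crest.WLRefine.jcolor.eq_2
  have _h3 := @Crest.WLRefine.scolor.eq_def
  have _h4 := @Crest.WLRefine.scolor.eq_1
  have _h5 := @Crest.WLRefine.scolor.eq_2
  have _h6 := @Crest.WLRefine.crcolor.eq_def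
  have _h7 := @Crest.WLRefine.crcolor.eq_1
  trivial
end Crest.Agent.R290
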