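import Mathlib
import Crest.Prelude.Def_ParityLift
import Crest.Agent.R290.WLEq

/-!
# Row 290 (S0438), task PLInv: the clique invariant

`QCl A v`: `v` is a clique all of whose triples have an odd number of common neighbours.

Plan.
* (E) For any three lift vertices `x, y, z` the number of common neighbours that are *main* vertices
  is even: a main type `m` has `≥ 5` template neighbours, choose two, `a ≠ a'`, different from the
  types of `x, y, z` (depending only on `m`); flipping the tag at `a` and `a'` is a fixed-point-free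
  involution on these common neighbours (`Finset.sum_involution` in `ZMod 2`, or
  `Finset.card_involution`-like lemmas).
* (H) For pairwise adjacent mains `x_i, x_j, x_l` (distinct types) the helper common neighbours: the
  helper type `h` has `{i, j, l}` as its three mains, its label is forced, its tag is forced, and it
  exists iff `z_i h + z_j h + z_l h = 0`.  There are three such `h`.
* `lift0_qcl`: take the successful choice with all tags `false`: every triple has an even number of
  main and exactly three helper common neighbours.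
* `liftStar_no_qcl`: if some `v a` is a helper vertex, a triple containing it has only main common
  neighbours, contradiction with (E).  So all `v a` are mains, of pairwise distinct types, hence one
  of each type; reindex.  Sum of the parities of all tags is `1`; the main-main coordinates cancel in
  pairs (`z_i (inl j) = z_j (inl i)`), so `∑ h, (z_i h + z_j h + z_l h) = 1`; group the helper types by
  their triples: by (E), (H) and oddness each triple contributes `0`.  (To avoid grouping by
  unordered triples: for `i < j < l` the three helpers are `(i,j,l)`, `(i,l,j)`, `(j,l,i)`, and this is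
  a bijection `{i<j<l} × Fin 3 ≃ Helper t`; or use an involution/`Finset.sum_fiberwise` over the map
  `h ↦ {h.1, h.2.1, h.2.2}`.)
-/

set_option autoImplicit false

namespace Crest.Agent.R290

open Finset Crest.WLRefine Crest.WLRefine.ParityLift

/-- number of common neighbours of three vertices -/
def cn {V : Type} [Fintype V] (A : V → V → Bool) (x y z : V) : ℕ :=
  (univ.filter fun w => A x w = true ∧ A y w = true ∧ A z w = true).card

/-- a clique all of whose triples have an odd number of common neighbours -/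
def QCl {V ι : Type} [Fintype V] (A : V → V → Bool) (v : ι → V) : Prop :=
  (∀ i j, i ≠ j → A (v i) (v j) = true) ∧
    ∀ i j l, i ≠ j → i ≠ l → j ≠ l → Odd (cn A (v i) (v j) (v l))

namespace PLI

variable {t : ℕ} {C : ChoiceSystem t} {b : TV t → Bool}

/-- type of a lift vertex -/
def ty (x : LiftV C b) : TV t := typeOf C x.1.1

/-- tag of a lift vertex, extended by `false` -/
def tag (x : LiftV C b) (a : TV t) : Bool :=
  if h : tAdj (typeOf C x.1.1) a = true then x.1.2 ⟨a, h⟩ else false

/-- a Boolean as an element of `ZMod 2` -/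
def z2 (c : Bool) : ZMod 2 := if c = true then 1 else 0

theorem z2_false : z2 false = 0 := rfl

theorem z2_inj {c d : Bool} (h : z2 c = z2 d) : c = d := by
  revert h; cases c <;> cases d <;> decide

theorem z2_xor (c d : Bool) : z2 (xor c d) = z2 c + z2 d := by
  cases c <;> cases d <;> decide

theorem tAdj_symm (a a' : TV t) : tAdj a a' = tAdj a' a := by
  rcases a with i | h <;> rcases a' with j | h' <;> simp [tAdj, eq_comm]

theorem tAdj_self (a : TV t) : tAdj a a = false := by
  rcases a with i | h <;> simp [tAdj]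

theorem tAdj_of_bAdj {u v : BV C} (h : bAdj C u v = true) :
    tAdj (typeOf C u) (typeOf C v) = true := by
  rcases u with p | p <;> rcases v with q | q
  · simp only [bAdj, mainAgree, Bool.or_eq_true, decide_eq_true_eq] at h
    simp only [typeOf, tAdj, decide_eq_true_eq]
    rcases h with ⟨h, -⟩ | ⟨h, -⟩
    · exact h.ne
    · exact h.ne'
  · simp only [bAdj, helperAgree, decide_eq_true_eq] at h
    simp only [typeOf, tAdj, decide_eq_true_eq]
    rcases h with ⟨h, -⟩ | ⟨h, -⟩ | h
    · exact Or.inl h
    · exact Or.inr (Or.inl h)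
    · exact Or.inr (Or.inr h)
  · simp only [bAdj, helperAgree, decide_eq_true_eq] at h
    simp only [typeOf, tAdj, decide_eq_true_eq]
    rcases h with ⟨h, -⟩ | ⟨h, -⟩ | h
    · exact Or.inl h
    · exact Or.inr (Or.inl h)
    · exact Or.inr (Or.inr h)
  · simp [bAdj] at h

theorem adj_iff (x y : LiftV C b) :
    liftAdj C b x y = true ↔ bAdj C x.1.1 y.1.1 = true ∧ tag x (ty y) = tag y (ty x) := by
  simp only [liftAdj, decide_eq_true_eq]
  constructor
  · rintro ⟨h, h', h1, h2⟩
    refine ⟨h1, ?_⟩
    simp only [tag, ty, dif_pos h, dif_pos h', h2]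
  · rintro ⟨h1, h2⟩
    have h := tAdj_of_bAdj h1
    have h' : tAdj (typeOf C y.1.1) (typeOf C x.1.1) = true := by rw [tAdj_symm]; exact h
    refine ⟨h, h', h1, ?_⟩
    simpa only [tag, ty, dif_pos h, dif_pos h'] using h2

theorem tAdj_of_adj {x y : LiftV C b} (h : liftAdj C b x y = true) : tAdj (ty x) (ty y) = true :=
  tAdj_of_bAdj ((adj_iff x y).1 h).1

theorem tag_of_not {x : LiftV C b} {a : TV t} (h : tAdj (ty x) a = false) : tag x a = false := by
  have : ¬ tAdj (typeOf C x.1.1) a = true := by
    change ¬ tAdj (ty x) a = true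
    simp [h]
  simp only [tag, dif_neg this]

theorem ext' {x y : LiftV C b} (h1 : x.1.1 = y.1.1) (h2 : tag x = tag y) : x = y := by
  obtain ⟨⟨u, z⟩, hx⟩ := x
  obtain ⟨⟨u', z'⟩, hy⟩ := y
  dsimp only at h1
  subst h1
  have : z = z' := by
    funext n
    have := congrFun h2 n.1
    simpa only [tag, dif_pos n.2] using this
  subst this
  rfl

theorem parity_iff {a : TV t} (z : Nbr a → Bool) (c : Bool) :
    (univ.filter fun n => z n = true).card % 2 = c.toNat ↔
      ∑ s : TV t, z2 (if h : tAdj a s = true then z ⟨s, h⟩ else false) = z2 c := by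
  have h1 : ∑ s : TV t, z2 (if h : tAdj a s = true then z ⟨s, h⟩ else false) =
      ∑ n : Nbr a, z2 (z n) := by
    rw [← Fintype.sum_subtype_add_sum_subtype (fun s => tAdj a s = true)]
    have e2 : ∑ s : {s : TV t // ¬ tAdj a s = true},
        z2 (if h : tAdj a s.1 = true then z ⟨s.1, h⟩ else false) = 0 :=
      Finset.sum_eq_zero fun s _ => by rw [dif_neg s.2]; rfl
    rw [e2, add_zero]
    exact Finset.sum_congr rfl fun s _ => by rw [dif_pos s.2]
  have h2 : ∑ n : Nbr a, z2 (z n) = ((univ.filter fun n => z n = true).card : ZMod 2) := by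
    simp only [z2, Finset.sum_boole]
  rw [h1, h2]
  generalize (univ.filter fun n => z n = true).card = N
  rcases Nat.mod_two_eq_zero_or_one N with h | h
  · have : (N : ZMod 2) = 0 := by rw [← ZMod.natCast_mod, h]; rfl
    rw [h, this]; cases c <;> decide
  · have : (N : ZMod 2) = 1 := by rw [← ZMod.natCast_mod, h]; rfl
    rw [h, this]; cases c <;> decide

theorem tag_sum (x : LiftV C b) : ∑ s, z2 (tag x s) = z2 (b (ty x)) :=
  (parity_iff x.1.2 _).1 x.2

/-- constructor -/
def mk (u : BV C) (z : TV t → Bool)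
    (h : ∑ s, z2 (tAdj (typeOf C u) s && z s) = z2 (b (typeOf C u))) : LiftV C b :=
  ⟨⟨u, fun n => z n.1⟩, (parity_iff _ _).2 (by
    rw [← h]
    refine Finset.sum_congr rfl fun s _ => ?_
    by_cases hs : tAdj (typeOf C u) s = true
    · rw [dif_pos hs, hs, Bool.true_and]
    · rw [dif_neg hs, Bool.eq_false_iff.2 hs, Bool.false_and])⟩

theorem mk_base (u : BV C) (z : TV t → Bool) (h) : (mk (b := b) u z h).1.1 = u := rfl

theorem ty_mk (u : BV C) (z : TV t → Bool) (h) : ty (mk (b := b) u z h) = typeOf C u := rfl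

theorem tag_mk (u : BV C) (z : TV t → Bool) (h) (s : TV t) :
    tag (mk (b := b) u z h) s = (tAdj (typeOf C u) s && z s) := by
  by_cases hs : tAdj (typeOf C u) s = true
  · have : tAdj (typeOf C (mk (b := b) u z h).1.1) s = true := hs
    rw [tag, dif_pos this, hs, Bool.true_and]
    rfl
  · have : ¬ tAdj (typeOf C (mk (b := b) u z h).1.1) s = true := hs
    rw [tag, dif_neg this, Bool.eq_false_iff.2 hs, Bool.false_and]

theorem and_tag (x : LiftV C b) (s : TV t) : (tAdj (ty x) s && tag x s) = tag x s := by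
  cases h : tAdj (ty x) s
  · rw [tag_of_not h]; rfl
  · rfl

theorem exists_two (ht : 4 ≤ t) (m : Fin t) (p q r : TV t) :
    ∃ a a' : TV t, a ≠ a' ∧ tAdj (Sum.inl m) a = true ∧ tAdj (Sum.inl m) a' = true ∧
      (a ≠ p ∧ a ≠ q ∧ a ≠ r) ∧ (a' ≠ p ∧ a' ≠ q ∧ a' ≠ r) := by
  obtain ⟨i, j, k, hij, hjk, hi, hj, hk⟩ :
      ∃ i j k : Fin t, i < j ∧ j < k ∧ m ≠ i ∧ m ≠ j ∧ m ≠ k := by
    have hm := m.2
    refine ⟨⟨if m.1 = 0 then 1 else 0, by split_ifs <;> omega⟩,
      ⟨if m.1 ≤ 1 then 2 else 1, by split_ifs <;> omega⟩,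
      ⟨if m.1 ≤ 2 then 3 else 2, by split_ifs <;> omega⟩, ?_, ?_, ?_, ?_, ?_⟩ <;>
    simp only [Fin.lt_def, ne_eq, Fin.ext_iff] <;> split_ifs <;> omega
  set h1 : Helper t := ⟨(i, j, m), hij, hi, hj⟩ with hh1
  set h2 : Helper t := ⟨(i, k, m), hij.trans hjk, hi, hk⟩ with hh2
  have h12 : h1 ≠ h2 := fun e => hjk.ne (congrArg (fun h : Helper t => h.1.2.1) e)
  set N : Finset (TV t) := {Sum.inl i, Sum.inl j, Sum.inl k, Sum.inr h1, Sum.inr h2} with hN
  have hcard : N.card = 5 := by
    rw [hN, card_insert_of_notMem (by simp [hij.ne, (hij.trans hjk).ne]),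
      card_insert_of_notMem (by simp [hjk.ne]), card_insert_of_notMem (by simp),
      card_insert_of_notMem (by simp [h12]), card_singleton]
  have hadj : ∀ a ∈ N, tAdj (Sum.inl m) a = true := by
    intro a ha
    simp only [hN, mem_insert, mem_singleton] at ha
    rcases ha with rfl | rfl | rfl | rfl | rfl <;> simp [tAdj, hi, hj, hk, hh1, hh2]
  have h3 : ({p, q, r} : Finset (TV t)).card ≤ 3 := card_le_three
  have h4 := le_card_sdiff ({p, q, r} : Finset (TV t)) N
  obtain ⟨a, ha, a', ha', hne⟩ := one_lt_card.1 (show 1 < (N \ {p, q, r}).card by omega)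
  simp only [mem_sdiff, mem_insert, mem_singleton, not_or] at ha ha'
  exact ⟨a, a', hne, hadj a (by simpa [hN] using ha.1), hadj a' (by simpa [hN] using ha'.1),
    ha.2, ha'.2⟩

/-- flipping two coordinates -/
def flip (w : LiftV C b) (a a' : TV t) (hne : a ≠ a') (ha : tAdj (ty w) a = true)
    (ha' : tAdj (ty w) a' = true) : LiftV C b :=
  mk w.1.1 (fun s => xor (tag w s) (decide (s = a ∨ s = a'))) (by
    have e : ∀ s, z2 (tAdj (typeOf C w.1.1) s && xor (tag w s) (decide (s = a ∨ s = a'))) =
        z2 (tag w s) + ((if s = a then 1 else 0) + if s = a' then 1 else 0) := by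
      intro s
      change z2 (tAdj (ty w) s && _) = _
      by_cases h1 : s = a
      · subst h1; simp [ha, hne, z2]; cases tag w s <;> decide
      · by_cases h2 : s = a'
        · subst h2; simp [ha', h1, z2]; cases tag w s <;> decide
        · simp [h1, h2, and_tag]
    simp only [e, Finset.sum_add_distrib, tag_sum, Finset.sum_ite_eq', mem_univ, if_true]
    have : (1 + 1 : ZMod 2) = 0 := by decide
    rw [this, add_zero]
    rfl)

theorem tag_flip (w : LiftV C b) (a a' : TV t) (hne : a ≠ a') (ha : tAdj (ty w) a = true)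
    (ha' : tAdj (ty w) a' = true) (s : TV t) :
    tag (flip w a a' hne ha ha') s = xor (tag w s) (decide (s = a ∨ s = a')) := by
  rw [flip, tag_mk]
  change (tAdj (ty w) s && _) = _
  by_cases h1 : s = a
  · subst h1; simp [ha]
  · by_cases h2 : s = a'
    · subst h2; simp [ha']
    · simp [h1, h2, and_tag]

theorem even_main (ht : 4 ≤ t) (x y z : LiftV C b) (m : Fin t) :
    ((univ.filter fun w => ty w = Sum.inl m ∧ liftAdj C b x w = true ∧ liftAdj C b y w = true ∧
      liftAdj C b z w = true).card : ZMod 2) = 0 := by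
  obtain ⟨a, a', hne, ha, ha', h1, h2⟩ := exists_two ht m (ty x) (ty y) (ty z)
  rw [Finset.card_eq_sum_ones, Nat.cast_sum]
  have key : ∀ (w : LiftV C b) (hw : ty w = Sum.inl m) (p : LiftV C b), a ≠ ty p → a' ≠ ty p →
      liftAdj C b p w = true →
        liftAdj C b p (flip w a a' hne (hw ▸ ha) (hw ▸ ha')) = true := by
    intro w hw p hp hp' h
    rw [adj_iff] at h ⊢
    refine ⟨h.1, ?_⟩
    rw [tag_flip]
    change tag p (ty w) = _
    simp [h.2, hp.symm, hp'.symm]
  refine Finset.sum_involution
    (fun w hw => flip w a a' hne ((mem_filter.1 hw).2.1 ▸ ha) ((mem_filter.1 hw).2.1 ▸ ha'))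
    (fun _ _ => by decide) (fun w hw _ e => ?_) (fun w hw => ?_) (fun w hw => ?_)
  · have := congrArg (fun w => tag w a) e
    simp only [tag_flip] at this
    simp at this
  · obtain ⟨hw0, hx, hy, hz⟩ := (mem_filter.1 hw).2
    exact mem_filter.2 ⟨mem_univ _, hw0, key w hw0 x h1.1 h2.1 hx, key w hw0 y h1.2.1 h2.2.1 hy,
      key w hw0 z h1.2.2 h2.2.2 hz⟩
  · refine ext' rfl (funext fun s => ?_)
    rw [tag_flip, tag_flip]
    simp

theorem cn_eq (ht : 4 ≤ t) (x y z : LiftV C b) :
    (cn (liftAdj C b) x y z : ZMod 2) = ∑ h : Helper t,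
      ((univ.filter fun w => ty w = Sum.inr h ∧ liftAdj C b x w = true ∧ liftAdj C b y w = true ∧
        liftAdj C b z w = true).card : ZMod 2) := by
  rw [cn, card_eq_sum_card_fiberwise (f := ty) (t := univ) (fun _ _ => mem_univ _), Nat.cast_sum,
    Fintype.sum_sum_type]
  simp only [filter_filter, and_comm (b := ty _ = _)]
  rw [Finset.sum_eq_zero fun m _ => even_main ht x y z m, zero_add]

/-- the three mains of a helper -/
def supp (h : Helper t) : Finset (Fin t) := {h.1.1, h.1.2.1, h.1.2.2}

theorem mem_supp {h : Helper t} {m : Fin t} :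
    m ∈ supp h ↔ tAdj (Sum.inr h : TV t) (Sum.inl m) = true := by
  simp [supp, tAdj]

theorem card_supp (h : Helper t) : (supp h).card = 3 :=
  card_eq_three.2 ⟨_, _, _, h.2.1.ne, h.2.2.1.symm, h.2.2.2.symm, rfl⟩

theorem card_fib {T : Finset (Fin t)} (hT : T.card = 3) :
    (univ.filter fun h : Helper t => supp h = T).card = 3 := by
  obtain ⟨i, j, l, hij, hjl, rfl⟩ : ∃ i j l : Fin t, i < j ∧ j < l ∧ T = {i, j, l} := by
    obtain ⟨i, j, l, h1, h2, h3, rfl⟩ := card_eq_three.1 hT
    rcases lt_or_gt_of_ne h1 with a | a <;> rcases lt_or_gt_of_ne h2 with c | c <;>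
      rcases lt_or_gt_of_ne h3 with d | d
    · exact ⟨i, j, l, a, d, rfl⟩
    · exact ⟨i, l, j, c, d, by ext; simp; tauto⟩
    · exact absurd (a.trans d) (not_lt.2 c.le)
    · exact ⟨l, i, j, c, a, by ext; simp; tauto⟩
    · exact ⟨j, i, l, a, c, by ext; simp; tauto⟩
    · exact absurd (c.trans d) (not_lt.2 a.le)
    · exact ⟨j, l, i, d, c, by ext; simp; tauto⟩
    · exact ⟨l, j, i, d, a, by ext; simp; tauto⟩
  have hil := hij.trans hjl
  refine card_eq_three.2 ⟨⟨(i, j, l), hij, hil.ne', hjl.ne'⟩, ⟨(i, l, j), hil, hij.ne', hjl.ne⟩,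
    ⟨(j, l, i), hjl, hij.ne, hil.ne⟩, fun e => ?_, fun e => ?_, fun e => ?_, ?_⟩
  · exact hjl.ne (congrArg (fun h : Helper t => h.1.2.1) e)
  · exact hij.ne (congrArg (fun h : Helper t => h.1.1) e)
  · exact hij.ne (congrArg (fun h : Helper t => h.1.1) e)
  · ext ⟨⟨a, c, d⟩, h1, h2, h3⟩
    simp only [mem_filter, mem_univ, true_and, mem_insert, mem_singleton]
    constructor
    · intro h
      have ha : a ∈ ({i, j, l} : Finset (Fin t)) := h ▸ by simp [supp]
      have hc : c ∈ ({i, j, l} : Finset (Fin t)) := h ▸ by simp [supp]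
      have hd : d ∈ ({i, j, l} : Finset (Fin t)) := h ▸ by simp [supp]
      simp only [mem_insert, mem_singleton] at ha hc hd
      dsimp only at h1 h2 h3
      rcases ha with rfl | rfl | rfl <;> rcases hc with rfl | rfl | rfl <;>
        rcases hd with rfl | rfl | rfl <;>
        first
          | exact Or.inl rfl
          | exact Or.inr (Or.inl rfl)
          | exact Or.inr (Or.inr rfl)
          | exact absurd rfl h2
          | exact absurd rfl h3
          | (exfalso; simp only [Fin.lt_def] at *; omega)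
    · rintro (h | h | h) <;> rw [h] <;> ext <;> simp [supp] <;> tauto

section sel

variable {v : Fin t → LiftV C b} {d : (i : Fin t) → Fin (C.dom i)}

theorem card_W (hb : ∀ h, b (Sum.inr h) = false) (hv : ∀ i, (v i).1.1 = Sum.inl ⟨i, d i⟩)
    (hd : ∀ i j, i < j → C.lamL i j (d i) = C.lamR i j (d j)) (h : Helper t) :
    ((univ.filter fun w => ty w = Sum.inr h ∧ ∀ m ∈ supp h, liftAdj C b (v m) w = true).card :
      ZMod 2) = 1 + ∑ m, z2 (tag (v m) (Sum.inr h)) := by
  have hty : ∀ i, ty (v i) = Sum.inl i := fun i => by rw [ty, hv i]; rfl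
  set u : BV C := Sum.inr ⟨h, C.lamL h.1.1 h.1.2.1 (d h.1.1)⟩ with hu
  set z : TV t → Bool := Sum.elim (fun m => tag (v m) (Sum.inr h)) (fun _ => false) with hz
  have hzz : ∀ s, (tAdj (Sum.inr h) s && z s) = z s := by
    rintro (m | h')
    · cases e : tAdj (Sum.inr h : TV t) (Sum.inl m)
      · have : z (Sum.inl m) = false := tag_of_not (by rw [hty, tAdj_symm, e])
        rw [this]; rfl
      · rfl
    · rfl
  have hsum : ∑ s, z2 (z s) = ∑ m, z2 (tag (v m) (Sum.inr h)) := by
    rw [Fintype.sum_sum_type]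
    simp [hz, z2_false]
  have hforce : ∀ w : LiftV C b, ty w = Sum.inr h → (∀ m ∈ supp h, liftAdj C b (v m) w = true) →
      w.1.1 = u ∧ tag w = z := by
    intro w hw hadj
    constructor
    · have h1 := ((adj_iff _ _).1 (hadj h.1.1 (by simp [supp]))).1
      rw [hv] at h1
      rcases e : w.1.1 with p | ⟨h', q⟩
      · rw [ty, e] at hw; exact absurd hw (by simp [typeOf])
      · rw [ty, e] at hw
        obtain rfl : h' = h := Sum.inr.inj hw
        rw [e] at h1
        simp only [bAdj, helperAgree, decide_eq_true_eq] at h1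
        rcases h1 with ⟨_, h1⟩ | ⟨h1, -⟩ | h1
        · rw [hu, h1]; rfl
        · exact absurd h1 h'.2.1.ne
        · exact absurd h1 h'.2.2.1.symm
    · funext s
      cases e : tAdj (Sum.inr h : TV t) s
      · rw [tag_of_not (by rw [hw, e]), ← hzz, e]; rfl
      · rcases s with m | h'
        · have h1 := ((adj_iff _ _).1 (hadj m (mem_supp.2 e))).2
          rw [hw, hty] at h1
          exact h1.symm
        · simp [tAdj] at e
  by_cases h0 : ∑ m, z2 (tag (v m) (Sum.inr h)) = 0
  · have hpar : ∑ s, z2 (tAdj (typeOf C u) s && z s) = z2 (b (typeOf C u)) := by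
      change ∑ s, z2 (tAdj (Sum.inr h) s && z s) = z2 (b (Sum.inr h))
      simp only [hzz, hsum, h0, hb, z2_false]
    have htag : tag (mk (b := b) u z hpar) = z := funext fun s => by rw [tag_mk]; exact hzz s
    have : (univ.filter fun w => ty w = Sum.inr h ∧ ∀ m ∈ supp h, liftAdj C b (v m) w = true) =
        {mk u z hpar} := by
      ext w
      simp only [mem_filter, mem_univ, true_and, mem_singleton]
      constructor
      · rintro ⟨h1, h2⟩
        obtain ⟨h3, h4⟩ := hforce w h1 h2
        exact ext' h3 (h4.trans htag.symm)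
      · rintro rfl
        refine ⟨rfl, fun m hm => (adj_iff _ _).2 ⟨?_, ?_⟩⟩
        · rw [hv, mk_base, hu]
          simp only [bAdj, helperAgree, decide_eq_true_eq]
          simp only [supp, mem_insert, mem_singleton] at hm
          rcases hm with rfl | rfl | rfl
          · exact Or.inl ⟨rfl, rfl⟩
          · exact Or.inr (Or.inl ⟨rfl, hd _ _ h.2.1⟩)
          · exact Or.inr (Or.inr rfl)
        · rw [htag, hty]; rfl
    rw [this, h0, card_singleton]; rfl
  · have : (univ.filter fun w => ty w = Sum.inr h ∧ ∀ m ∈ supp h, liftAdj C b (v m) w = true) =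
        ∅ := by
      refine filter_eq_empty_iff.2 fun w _ hw => h0 ?_
      have := tag_sum w
      rw [(hforce w hw.1 hw.2).2, hw.1, hb, hsum] at this
      exact this
    rw [this, card_empty, Nat.cast_zero]
    revert h0
    generalize ∑ m, z2 (tag (v m) (Sum.inr h)) = c
    revert c
    decide

theorem cn_sel (ht : 4 ≤ t) (hb : ∀ h, b (Sum.inr h) = false)
    (hv : ∀ i, (v i).1.1 = Sum.inl ⟨i, d i⟩)
    (hd : ∀ i j, i < j → C.lamL i j (d i) = C.lamR i j (d j)) {i j l : Fin t} (hij : i ≠ j)
    (hil : i ≠ l) (hjl : j ≠ l) :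
    (cn (liftAdj C b) (v i) (v j) (v l) : ZMod 2) =
      1 + ∑ h ∈ univ.filter fun h : Helper t => supp h = {i, j, l},
        ∑ m, z2 (tag (v m) (Sum.inr h)) := by
  have hty : ∀ i, ty (v i) = Sum.inl i := fun i => by rw [ty, hv i]; rfl
  have hT : ({i, j, l} : Finset (Fin t)).card = 3 := card_eq_three.2 ⟨_, _, _, hij, hil, hjl, rfl⟩
  have h3 : (1 : ZMod 2) = ∑ _h ∈ univ.filter fun h : Helper t => supp h = {i, j, l}, 1 := by
    rw [sum_const, card_fib hT]; decide
  rw [cn_eq ht, h3, ← sum_add_distrib, sum_filter]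
  refine Finset.sum_congr rfl fun h _ => ?_
  split_ifs with e
  · rw [← card_W hb hv hd h]
    congr 2
    ext w
    simp [e]
  · rw [filter_eq_empty_iff.2, card_empty, Nat.cast_zero]
    rintro w - ⟨hw, h1, h2, h3⟩
    have key : ∀ m, liftAdj C b (v m) w = true → m ∈ supp h := fun m hm => by
      have := tAdj_of_adj hm
      rw [hw, hty, tAdj_symm] at this
      exact mem_supp.2 this
    refine e (eq_of_subset_of_card_le ?_ (by rw [hT, card_supp])).symm
    intro m hm
    simp only [mem_insert, mem_singleton] at hm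
    rcases hm with rfl | rfl | rfl
    exacts [key _ h1, key _ h2, key _ h3]

end sel

theorem star_sel (ht : 4 ≤ t) {v : Fin t → LiftV C (liftStarParity t)}
    (hty : ∀ i, ty (v i) = Sum.inl i) : ¬ QCl (liftAdj C (liftStarParity t)) v := by
  rintro ⟨hc, ho⟩
  have hb : ∀ h, liftStarParity t (Sum.inr h) = false := fun h => by simp [liftStarParity]
  have hex : ∀ i, ∃ e : Fin (C.dom i), (v i).1.1 = Sum.inl ⟨i, e⟩ := fun i => by
    have := hty i
    rw [ty] at this
    rcases e : (v i).1.1 with ⟨i', q⟩ | p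
    · rw [e] at this
      obtain rfl : i' = i := Sum.inl.inj this
      exact ⟨q, rfl⟩
    · rw [e] at this; exact absurd this (by simp [typeOf])
  choose d hv using hex
  have hd : ∀ i j, i < j → C.lamL i j (d i) = C.lamR i j (d j) := fun i j hij => by
    have := ((adj_iff _ _).1 (hc i j hij.ne)).1
    rw [hv, hv] at this
    simp only [bAdj, mainAgree, Bool.or_eq_true, decide_eq_true_eq] at this
    rcases this with ⟨_, h⟩ | ⟨h, -⟩
    · exact h
    · exact absurd h (not_lt.2 hij.le)
  have h1 : ∑ m, ∑ s, z2 (tag (v m) s) = 1 := by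
    simp only [tag_sum, hty]
    have h0 : 0 < t := by omega
    rw [Finset.sum_eq_single (⟨0, h0⟩ : Fin t)]
    · simp [liftStarParity, h0, z2]
    · intro m _ hm
      simp [liftStarParity, z2, hm]
    · simp
  have h2 : ∑ m, ∑ j, z2 (tag (v m) (Sum.inl j)) = 0 := by
    rw [← Finset.sum_product']
    refine Finset.sum_involution (fun p _ => p.swap) (fun p _ => ?_) (fun p _ hp e => hp ?_)
      (fun p _ => by simp) (fun p _ => rfl)
    · by_cases e : p.1 = p.2
      · simp only [Prod.fst_swap, Prod.snd_swap, e]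
        exact CharTwo.add_self_eq_zero _
      · have := ((adj_iff _ _).1 (hc _ _ e)).2
        rw [hty, hty] at this
        simp only [Prod.fst_swap, Prod.snd_swap, this]
        exact CharTwo.add_self_eq_zero _
    · have e' : p.2 = p.1 := congrArg Prod.fst e
      rw [e', tag_of_not (by rw [hty, tAdj_self])]
      rfl
  have h3 : ∑ h : Helper t, ∑ m, z2 (tag (v m) (Sum.inr h)) = 0 := by
    rw [← Finset.sum_fiberwise_of_maps_to (g := supp) (t := univ.image supp)
      fun h _ => mem_image_of_mem _ (mem_univ h)]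
    refine Finset.sum_eq_zero fun T hT => ?_
    obtain ⟨h, -, rfl⟩ := mem_image.1 hT
    have e := cn_sel ht hb hv hd h.2.1.ne h.2.2.1.symm h.2.2.2.symm
    rw [(ZMod.natCast_eq_one_iff_odd).2 (ho _ _ _ h.2.1.ne h.2.2.1.symm h.2.2.2.symm)] at e
    exact left_eq_add.1 e
  simp only [Fintype.sum_sum_type, Finset.sum_add_distrib] at h1
  rw [h2, Finset.sum_comm, h3] at h1
  exact absurd h1 (by decide)

end PLI

open PLI

theorem lift0_qcl {t : ℕ} (ht : 4 ≤ t) (C : ChoiceSystem t) (h : C.Successful) :
    ∃ v : Fin t → LiftV C (lift0Parity t), QCl (liftAdj C (lift0Parity t)) v := by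
  obtain ⟨d, hd⟩ := h
  set v : Fin t → LiftV C (lift0Parity t) := fun i =>
    PLI.mk (Sum.inl ⟨i, d i⟩) (fun _ => false) (by simp [lift0Parity, z2_false]) with hv
  have htag : ∀ i s, tag (v i) s = false := fun i s => by rw [hv, tag_mk]; simp
  refine ⟨v, fun i j hij => (adj_iff _ _).2 ⟨?_, by rw [htag, htag]⟩, fun i j l hij hil hjl => ?_⟩
  · change bAdj C (Sum.inl ⟨i, d i⟩) (Sum.inl ⟨j, d j⟩) = true
    simp only [bAdj, mainAgree, Bool.or_eq_true, decide_eq_true_eq]
    rcases lt_or_gt_of_ne hij with e | e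
    · exact Or.inl ⟨e, hd _ _ e⟩
    · exact Or.inr ⟨e, hd _ _ e⟩
  · have e := cn_sel (v := v) ht (fun _ => rfl) (fun _ => rfl) hd hij hil hjl
    simp only [htag, z2_false, Finset.sum_const_zero, add_zero] at e
    exact ZMod.natCast_eq_one_iff_odd.1 e

theorem liftStar_no_qcl {t : ℕ} (ht : 4 ≤ t) (C : ChoiceSystem t)
    (v : Fin t → LiftV C (liftStarParity t)) : ¬ QCl (liftAdj C (liftStarParity t)) v := by
  rintro ⟨hc, ho⟩
  have hmain : ∀ a, ∃ i, ty (v a) = Sum.inl i := by
    intro a
    rcases e : ty (v a) with i | h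
    · exact ⟨i, rfl⟩
    · exfalso
      obtain ⟨j, l, h1, h2, h3⟩ : ∃ j l : Fin t, a ≠ j ∧ a ≠ l ∧ j ≠ l := by
        have hm := a.2
        refine ⟨⟨if a.1 = 0 then 1 else 0, by split_ifs <;> omega⟩,
          ⟨if a.1 ≤ 1 then 2 else 1, by split_ifs <;> omega⟩, ?_, ?_, ?_⟩ <;>
        simp only [ne_eq, Fin.ext_iff] <;> split_ifs <;> first | omega | decide
      have h4 := ZMod.natCast_eq_one_iff_odd.2 (ho a j l h1 h2 h3)
      rw [cn_eq ht, Finset.sum_eq_zero] at h4
      · exact absurd h4 (by decide)
      · intro h' _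
        rw [filter_eq_empty_iff.2, card_empty, Nat.cast_zero]
        rintro w - ⟨hw, h5, -⟩
        have := tAdj_of_adj h5
        rw [e, hw] at this
        simp [tAdj] at this
  choose f hf using hmain
  have hinj : Function.Injective f := fun i j e => by
    by_contra hij
    have := tAdj_of_adj (hc i j hij)
    rw [hf, hf, e, tAdj_self] at this
    exact absurd this (by decide)
  let e : Fin t ≃ Fin t := Equiv.ofBijective f (Finite.injective_iff_bijective.1 hinj)
  refine star_sel ht (v := fun i => v (e.symm i)) (fun i => ?_) ⟨fun i j hij => ?_,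
    fun i j l hij hil hjl => ?_⟩
  · rw [hf]; exact congrArg Sum.inl (e.apply_symm_apply i)
  · exact hc _ _ (e.symm.injective.ne hij)
  · exact ho _ _ _ (e.symm.injective.ne hij) (e.symm.injective.ne hil) (e.symm.injective.ne hjl)

end Crest.Agent.R290
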