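import Crest.Agent.R290.FM
import Crest.Agent.R290.GDefs
import Crest.Agent.Lib.PT.Code

/-!
# Row 290: encodings of the data types, `idxOf` and `dedup` in polynomial time
-/

set_option autoImplicit false

namespace Crest.Agent.R290

open Crest.Agent.PTime

instance : Enc Rule := ⟨fun r => enc (r.out, r.in1, r.sh1, r.in2, r.sh2)⟩
instance : Enc Horn := ⟨fun H => enc (H.rules, H.q0, H.qf)⟩

def Fam.code : Fam → List ℕ
  | .rule i part l => [0, i, part.toNat, l]
  | .reset qi l j ρ => [1, qi, l, j, ρ]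

def XV.code : XV → List ℕ
  | .zeta => [0]
  | .x q l j ρ => [1, q.1, q.2.1, q.2.2, l, j, ρ]
  | .mu i l j ρ => [2, i, l, j, ρ]
  | .e a pos j ρ => 3 :: pos :: j :: ρ :: a.code
  | .y0 l j => [4, l, j]
  | .yf l j => [5, l, j]

def GV.code : GV → List ℕ
  | .B v => [0, v]
  | .A v => [1, v]
  | .Z v => [2, v]
  | .T v o β => [3, v, o, β.val]
  | .S v o β => [4, v, o, β.val]
  | .P o β => [5, o, β.val]
  | .M κ t₀ t₁ => [6, κ, t₀.val, t₁.val]

instance : Enc Fam := ⟨fun a => enc a.code⟩
instance : Enc XV := ⟨fun a => enc a.code⟩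
instance : Enc GV := ⟨fun a => enc a.code⟩

theorem Fam.code_inj : Function.Injective Fam.code := by
  intro a b h
  cases a with
  | rule i p l =>
    cases b with
    | rule i' p' l' => cases p <;> cases p' <;> simp_all [Fam.code]
    | reset => simp_all [Fam.code]
  | reset => cases b <;> simp_all [Fam.code]

theorem XV.code_inj : Function.Injective XV.code := by
  intro a b h
  cases a <;> cases b <;> simp_all [XV.code, Fam.code_inj.eq_iff, Prod.ext_iff]

theorem GV.code_inj : Function.Injective GV.code := by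
  have hv : ∀ a b : ZMod 2, a.val = b.val ↔ a = b := fun a b => (ZMod.val_injective 2).eq_iff
  intro a b h
  cases a <;> cases b <;> simp_all [GV.code]

instance : EncInj Fam := ⟨fun _ _ h => Fam.code_inj (EncInj.inj h)⟩
instance : EncInj XV := ⟨fun _ _ h => XV.code_inj (EncInj.inj h)⟩
instance : EncInj GV := ⟨fun _ _ h => GV.code_inj (EncInj.inj h)⟩

variable {α β : Type} [Enc α] [Enc β]

@[fun_prop] theorem PT.ruleMk {a b d : α → Sg} {c e : α → ℤ} (ha : PT a) (hb : PT b) (hc : PT c)
    (hd : PT d) (he : PT e) : PT (fun z => (⟨a z, b z, c z, d z, e z⟩ : Rule)) :=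
  (ha.pair (hb.pair (hc.pair (hd.pair he)))).of_enc fun _ => rfl

theorem PT.ruleParts {r : α → Rule} (h : PT r) :
    PT (fun z => ((r z).out, (r z).in1, (r z).sh1, (r z).in2, (r z).sh2)) := h.of_enc fun _ => rfl

@[fun_prop] theorem PT.ruleOut {r : α → Rule} (h : PT r) : PT (fun z => (r z).out) :=
  (PT.ruleParts h).fst
@[fun_prop] theorem PT.ruleIn1 {r : α → Rule} (h : PT r) : PT (fun z => (r z).in1) :=
  (PT.ruleParts h).snd.fst
@[fun_prop] theorem PT.ruleSh1 {r : α → Rule} (h : PT r) : PT (fun z => (r z).sh1) :=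
  (PT.ruleParts h).snd.snd.fst
@[fun_prop] theorem PT.ruleIn2 {r : α → Rule} (h : PT r) : PT (fun z => (r z).in2) :=
  (PT.ruleParts h).snd.snd.snd.fst
@[fun_prop] theorem PT.ruleSh2 {r : α → Rule} (h : PT r) : PT (fun z => (r z).sh2) :=
  (PT.ruleParts h).snd.snd.snd.snd

@[fun_prop] theorem PT.hornMk {a : α → List Rule} {b c : α → Sg} (ha : PT a) (hb : PT b) (hc : PT c) :
    PT (fun z => (⟨a z, b z, c z⟩ : Horn)) := (ha.pair (hb.pair hc)).of_enc fun _ => rfl

theorem PT.hornParts {H : α → Horn} (h : PT H) : PT (fun z => ((H z).rules, (H z).q0, (H z).qf)) :=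
  h.of_enc fun _ => rfl

@[fun_prop] theorem PT.hornRules {H : α → Horn} (h : PT H) : PT (fun z => (H z).rules) :=
  (PT.hornParts h).fst
@[fun_prop] theorem PT.hornQ0 {H : α → Horn} (h : PT H) : PT (fun z => (H z).q0) :=
  (PT.hornParts h).snd.fst
@[fun_prop] theorem PT.hornQf {H : α → Horn} (h : PT H) : PT (fun z => (H z).qf) :=
  (PT.hornParts h).snd.snd

@[fun_prop] theorem PT.idxOf [EncInj β] [DecidableEq β] {x : α → β} {l : α → List β} (hx : PT x)
    (hl : PT l) : PT (fun a => (l a).idxOf (x a)) := by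
  have h : PT (fun a => (l a).findIdx (fun y => y == x a)) := by fun_prop
  exact h.congr fun a => rfl

omit [Enc β] in
theorem dedup_eq_foldr [DecidableEq β] (l : List β) :
    l.dedup = l.foldr (fun x acc => if x ∈ acc then acc else x :: acc) [] := by
  induction l with
  | nil => rfl
  | cons x l ih =>
    rw [List.foldr_cons, ← ih]
    by_cases h : x ∈ l
    · rw [List.dedup_cons_of_mem h, if_pos (List.mem_dedup.2 h)]
    · rw [List.dedup_cons_of_notMem h, if_neg (fun h' => h (List.mem_dedup.1 h'))]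

@[fun_prop] theorem PT.dedup [EncInj β] [DecidableEq β] {l : α → List β} (hl : PT l) :
    PT (fun a => (l a).dedup) := by
  refine (PT.foldr_add (f := fun _ (x : β) (acc : List β) => if x ∈ acc then acc else x :: acc)
    (init := fun _ => []) (l := l) (g := fun p => sz p.2 + 1) (by fun_prop) (by fun_prop) hl
    (by fun_prop) fun a s b _ => ?_).congr fun a => dedup_eq_foldr _
  split_ifs <;> simp; omega

end Crest.Agent.R290
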