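import Crest.Agent.R290.PTDefs
import Crest.Agent.R290.Codes

/-!
# Row 290, task PTG: the graph and its code are polynomial time

Plan.  Constructors of `GV` with constant labels are `PT` via `PT.of_enc`.  For `gadj`, define
`edgeC cs b (x y : List ℕ) : Prop` on codes (with `getD`), prove
`edge cs (if b then 1 else 0) x y = true ↔ edgeC cs b x.code y.code` by cases (labels in `ZMod 2`:
`fin_cases`/`decide`), and `fun_prop`.
-/

set_option autoImplicit false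

namespace Crest.Agent.R290

open Crest.Agent.PTime

variable {α : Type} [Enc α]

/-- the right-hand side as a Boolean -/
def bz (b : Bool) : ZMod 2 := if b then 1 else 0

@[fun_prop] theorem PT.gvB {v : α → ℕ} (h : PT v) : PT (fun a => GV.B (v a)) :=
  (show PT (fun a => [0, v a]) by fun_prop).of_enc fun _ => rfl

@[fun_prop] theorem PT.gvA {v : α → ℕ} (h : PT v) : PT (fun a => GV.A (v a)) :=
  (show PT (fun a => [1, v a]) by fun_prop).of_enc fun _ => rfl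

@[fun_prop] theorem PT.gvZ {v : α → ℕ} (h : PT v) : PT (fun a => GV.Z (v a)) :=
  (show PT (fun a => [2, v a]) by fun_prop).of_enc fun _ => rfl

@[fun_prop] theorem PT.gvT {v o : α → ℕ} (β : ZMod 2) (h : PT v) (h' : PT o) : PT (fun a => GV.T (v a) (o a) β) :=
  (show PT (fun a => [3, v a, o a, β.val]) by fun_prop).of_enc fun _ => rfl

@[fun_prop] theorem PT.gvS {v o : α → ℕ} (β : ZMod 2) (h : PT v) (h' : PT o) : PT (fun a => GV.S (v a) (o a) β) :=
  (show PT (fun a => [4, v a, o a, β.val]) by fun_prop).of_enc fun _ => rfl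

@[fun_prop] theorem PT.gvP {o : α → ℕ} (β : ZMod 2) (h : PT o) : PT (fun a => GV.P (o a) β) :=
  (show PT (fun a => [5, o a, β.val]) by fun_prop).of_enc fun _ => rfl

@[fun_prop] theorem PT.gvM {o : α → ℕ} (β γ : ZMod 2) (h : PT o) : PT (fun a => GV.M (o a) β γ) :=
  (show PT (fun a => [6, o a, β.val, γ.val]) by fun_prop).of_enc fun _ => rfl

@[fun_prop] theorem PT.gvCode {x : α → GV} (h : PT x) : PT (fun a => (x a).code) := h.of_enc fun _ => rfl

theorem PT.gvl {nv nc : α → ℕ} (h1 : PT nv) (h2 : PB nv) (h3 : PT nc) (h4 : PB nc) :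
    PT (fun a => gvl (nv a) (nc a)) := by
  unfold Crest.Agent.R290.gvl
  refine PT.dedup (PT.append (PT.append (PT.append (PT.append ?_ ?_) ?_) ?_) ?_)
  · exact PT.flatMap (by fun_prop) (h1.range h2)
  · exact PT.flatMap (PT.flatMap (by fun_prop) (PT.range (by fun_prop) (by fun_prop))) (h1.range h2)
  · exact PT.flatMap (PT.flatMap (by fun_prop) (PT.range (by fun_prop) (by fun_prop))) (h1.range h2)
  · exact PT.flatMap (by fun_prop) (PT.range (by fun_prop) (by fun_prop))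
  · exact PT.flatMap (by fun_prop) (h3.range h4)

@[fun_prop] theorem PT.var {cs : α → List (ℕ × ℕ × ℕ)} {o : α → ℕ} (h1 : PT cs) (h2 : PT o) :
    PT (fun a => var (cs a) (o a)) := by
  unfold Crest.Agent.R290.var
  fun_prop

/-- the value of `lab` on codes -/
def labC (b : Bool) (κ pos t₀ t₁ : ℕ) : ℕ :=
  if pos = 0 then t₀ else if pos = 1 then t₁ else (t₀ + t₁ + if κ = 0 then b.toNat else 0) % 2

theorem labC_eq (b : Bool) (κ pos : ℕ) (t₀ t₁ : ZMod 2) :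
    labC b κ pos t₀.val t₁.val = (lab (bz b) κ pos t₀ t₁).val := by
  unfold labC lab rhs bz
  split_ifs <;> first | rfl | (revert t₀ t₁ b; decide)

@[fun_prop] theorem PT.labC {b : α → Bool} {κ pos t₀ t₁ : α → ℕ} (h1 : PT b) (h2 : PT κ) (h3 : PT pos)
    (h4 : PT t₀) (h5 : PT t₁) : PT (fun a => labC (b a) (κ a) (pos a) (t₀ a) (t₁ a)) := by
  unfold Crest.Agent.R290.labC
  fun_prop

/-- oriented edges on the entries of the codes -/
def edgeC (cs : List (ℕ × ℕ × ℕ)) (b : Bool) (x0 x1 x2 x3 y0 y1 y2 y3 : ℕ) : Prop :=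
  (x0 = 0 ∧ y0 = 1 ∧ x1 = y1) ∨ (x0 = 1 ∧ y0 = 0 ∧ y1 = x1 + 1) ∨ (x0 = 1 ∧ y0 = 2 ∧ x1 = y1) ∨
  (x0 = 2 ∧ y0 = 3 ∧ x1 = y1 ∧ y2 = 0) ∨ (x0 = 3 ∧ y0 = 4 ∧ x1 = y1 ∧ x2 = y2 ∧ x3 = y3) ∨
  (x0 = 4 ∧ y0 = 3 ∧ x1 = y1 ∧ y2 = x2 + 1 ∧ x3 = y3) ∨
  (x0 = 3 ∧ y0 = 3 ∧ x1 = y1 ∧ x2 = 3 * cs.length ∧ y2 = 3 * cs.length ∧ ¬ x3 = y3) ∨
  (x0 = 3 ∧ y0 = 5 ∧ x2 = y1 ∧ x1 = var cs x2 ∧ x3 = y2) ∨
  (x0 = 5 ∧ y0 = 6 ∧ x1 / 3 = y1 ∧ x2 = labC b y1 (x1 % 3) y2 y3)

theorem edge_iff (cs : List (ℕ × ℕ × ℕ)) (b : Bool) (x y : GV) :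
    edge cs (bz b) x y = true ↔ edgeC cs b (x.code.getD 0 0) (x.code.getD 1 0) (x.code.getD 2 0) (x.code.getD 3 0)
      (y.code.getD 0 0) (y.code.getD 1 0) (y.code.getD 2 0) (y.code.getD 3 0) := by
  have hv : ∀ a b : ZMod 2, a.val = b.val ↔ a = b := fun a b => (ZMod.val_injective 2).eq_iff
  cases x <;> cases y <;> simp [edge, edgeC, GV.code, labC_eq, hv]

theorem PT.edge {cs : α → List (ℕ × ℕ × ℕ)} {b : α → Bool} {x y : α → GV} (h1 : PT cs) (h2 : PT b) (h3 : PT x)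
    (h4 : PT y) : PT (fun a => edge (cs a) (bz (b a)) (x a) (y a)) := by
  classical
  have key : ∀ {x0 x1 x2 x3 y0 y1 y2 y3 : α → ℕ}, PT x0 → PT x1 → PT x2 → PT x3 → PT y0 → PT y1 → PT y2 → PT y3 →
      PT (fun a => edgeC (cs a) (b a) (x0 a) (x1 a) (x2 a) (x3 a) (y0 a) (y1 a) (y2 a) (y3 a)) := by
    intro x0 x1 x2 x3 y0 y1 y2 y3 _ _ _ _ _ _ _ _
    unfold edgeC
    fun_prop
  have h := key (x0 := fun a => (x a).code.getD 0 0) (x1 := fun a => (x a).code.getD 1 0)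
    (x2 := fun a => (x a).code.getD 2 0) (x3 := fun a => (x a).code.getD 3 0)
    (y0 := fun a => (y a).code.getD 0 0) (y1 := fun a => (y a).code.getD 1 0)
    (y2 := fun a => (y a).code.getD 2 0) (y3 := fun a => (y a).code.getD 3 0)
    (by fun_prop) (by fun_prop) (by fun_prop) (by fun_prop) (by fun_prop) (by fun_prop) (by fun_prop) (by fun_prop)
  exact h.decide.congr fun a => by rw [Bool.eq_iff_iff, edge_iff, decide_eq_true_iff]

theorem PT.gN {nv : α → ℕ} {cs : α → List (ℕ × ℕ × ℕ)} (h1 : PT nv) (h2 : PB nv) (h3 : PT cs) :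
    PT (fun a => gN (nv a) (cs a)) ∧ PB (fun a => gN (nv a) (cs a)) :=
  have h := PT.gvl h1 h2 h3.length (PB.length h3)
  ⟨h.length, PB.length h⟩

theorem PT.gF {nv i j : α → ℕ} {cs : α → List (ℕ × ℕ × ℕ)} {b : α → Bool} (h1 : PT nv) (h2 : PB nv)
    (h3 : PT cs) (h4 : PT b) (h5 : PT i) (h6 : PT j) :
    PT (fun a => gF (nv a) (cs a) (bz (b a)) (i a) (j a)) :=
  have h := PT.gvl h1 h2 h3.length (PB.length h3)
  have hi := h5.getD h (PT.const (GV.B 0))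
  have hj := h6.getD h (PT.const (GV.B 0))
  (PT.edge h3 h4 hi hj).bor (PT.edge h3 h4 hj hi)

theorem PT.padF {N i j : α → ℕ} {f : α → ℕ → ℕ → Bool} (h1 : PT N)
    (h2 : PT (fun p : α × ℕ × ℕ => f p.1 p.2.1 p.2.2)) (h5 : PT i) (h6 : PT j) :
    PT (fun a => padF (N a) (f a) (i a) (j a)) := by
  have h : PT (fun a => f a (i a - 1) (j a - 1)) :=
    h2.comp (g := fun a => (a, i a - 1, j a - 1)) (by fun_prop)
  unfold Crest.Agent.R290.padF
  exact PT.ite (by fun_prop) (by fun_prop) (PT.ite (by fun_prop) (by fun_prop) (PT.band (by fun_prop) h))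

theorem PT.codeF {n : α → ℕ} {f : α → ℕ → ℕ → Bool} (h1 : PT n) (h2 : PB n)
    (h3 : PT (fun p : α × ℕ × ℕ => f p.1 p.2.1 p.2.2)) : PT (fun a => codeF (n a) (f a)) := by
  unfold Crest.Agent.R290.codeF
  refine h1.natCode.append (PT.flatMap (PT.map ?_ (PT.range (by fun_prop) (by fun_prop))) (h1.range h2))
  exact h3.comp (g := fun p : (α × ℕ) × ℕ => (p.1.1, p.1.2, p.2)) (by fun_prop)

end Crest.Agent.R290
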