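import Crest.Agent.R290.PTDefs

/-!
# Row 290, task PTX: the XOR system is polynomial time

Plan.  All parameters `s, w, N, G, P, F, om, Y, n', r` are `PT` and `PB` (`P = ps.sum` by hypothesis;
`p j ≤ P + 1`).  Constructors of `XV`/`Fam` are `PT` via `PT.of_enc` and their codes.  Either prove
`num`, `src`, `dst`, `grd` `PT` by reading the code of the family, or rewrite
`chains.flatMap …` as nested `flatMap`s over ranges (`List.flatMap_append`, `List.flatMap_assoc`,
`List.flatMap_map`).  `cp a t l = cp a t' l` is an equation in `ZMod 2`; express it through the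
defining conditions (Booleans).
-/

set_option autoImplicit false

namespace Crest.Agent.R290

open Crest.Agent.PTime

variable {α β : Type} [Enc α] [Enc β]

namespace PTXA

local instance encXIn : Enc XIn := ⟨fun X => enc (X.H, X.ps)⟩
local instance encZ2 : Enc (ZMod 2) := ⟨fun z => enc z.val⟩
local instance encInjZ2 : EncInj (ZMod 2) := ⟨fun _ _ h => ZMod.val_injective 2 (EncInj.inj h)⟩

variable {X : α → XIn} {a : α → Fam} {i l j ρ t : α → ℕ}

@[fun_prop] theorem pH (h : PT X) : PT (fun z => (X z).H) :=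
  (h.of_enc (f := fun z => ((X z).H, (X z).ps)) fun _ => rfl).fst
@[fun_prop] theorem pps (h : PT X) : PT (fun z => (X z).ps) :=
  (h.of_enc (f := fun z => ((X z).H, (X z).ps)) fun _ => rfl).snd

@[fun_prop] theorem pcode (h : PT a) : PT (fun z => (a z).code) := h.of_enc fun _ => rfl

@[fun_prop] theorem pRule {b : α → Bool} (h1 : PT i) (h2 : PT b) (h3 : PT l) :
    PT (fun z => Fam.rule (i z) (b z) (l z)) :=
  (show PT (fun z => [0, i z, (b z).toNat, l z]) by fun_prop).of_enc fun _ => rfl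
@[fun_prop] theorem pReset (h1 : PT i) (h2 : PT l) (h3 : PT j) (h4 : PT ρ) :
    PT (fun z => Fam.reset (i z) (l z) (j z) (ρ z)) :=
  (show PT (fun z => [1, i z, l z, j z, ρ z]) by fun_prop).of_enc fun _ => rfl
@[fun_prop] theorem pX {q : α → Sg} (h1 : PT q) (h2 : PT l) (h3 : PT j) (h4 : PT ρ) :
    PT (fun z => XV.x (q z) (l z) (j z) (ρ z)) :=
  (show PT (fun z => [1, (q z).1, (q z).2.1, (q z).2.2, l z, j z, ρ z]) by fun_prop).of_enc
    fun _ => rfl
@[fun_prop] theorem pMu (h1 : PT i) (h2 : PT l) (h3 : PT j) (h4 : PT ρ) :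
    PT (fun z => XV.mu (i z) (l z) (j z) (ρ z)) :=
  (show PT (fun z => [2, i z, l z, j z, ρ z]) by fun_prop).of_enc fun _ => rfl
@[fun_prop] theorem pE (h1 : PT a) (h2 : PT t) (h3 : PT j) (h4 : PT ρ) :
    PT (fun z => XV.e (a z) (t z) (j z) (ρ z)) :=
  (show PT (fun z => 3 :: t z :: j z :: ρ z :: (a z).code) by fun_prop).of_enc fun _ => rfl
@[fun_prop] theorem pY0 (h2 : PT l) (h3 : PT j) : PT (fun z => XV.y0 (l z) (j z)) :=
  (show PT (fun z => [4, l z, j z]) by fun_prop).of_enc fun _ => rfl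
@[fun_prop] theorem pYf (h2 : PT l) (h3 : PT j) : PT (fun z => XV.yf (l z) (j z)) :=
  (show PT (fun z => [5, l z, j z]) by fun_prop).of_enc fun _ => rfl

@[fun_prop] theorem ps (h : PT X) : PT (fun z => (X z).s) := by unfold XIn.s; fun_prop
@[fun_prop] theorem bs (h : PT X) : PB (fun z => (X z).s) := by unfold XIn.s; fun_prop
@[fun_prop] theorem pR (h : PT X) : PT (fun z => (X z).R) := by unfold XIn.R; fun_prop
@[fun_prop] theorem bR (h : PT X) : PB (fun z => (X z).R) := by unfold XIn.R; fun_prop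
@[fun_prop] theorem pp (h : PT X) (hj : PT j) : PT (fun z => (X z).p (j z)) := by
  unfold XIn.p; fun_prop
@[fun_prop] theorem pres {c : α → ℤ} (h : PT X) (hj : PT j) (hc : PT c) :
    PT (fun z => (X z).res (j z) (c z)) := by
  unfold XIn.res; fun_prop
@[fun_prop] theorem prl (h : PT X) (hj : PT j) : PT (fun z => (X z).rl (j z)) := by
  unfold XIn.rl; fun_prop
@[fun_prop] theorem psigs (h : PT X) : PT (fun z => (X z).sigs) := by
  unfold XIn.sigs; fun_prop
@[fun_prop] theorem psg (h : PT X) (hj : PT j) : PT (fun z => (X z).sg (j z)) := by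
  unfold XIn.sg; fun_prop
@[fun_prop] theorem pw (h : PT X) : PT (fun z => (X z).w) := by unfold XIn.w; fun_prop
@[fun_prop] theorem bw (h : PT X) : PB (fun z => (X z).w) := by unfold XIn.w; fun_prop
@[fun_prop] theorem pN (h : PT X) : PT (fun z => (X z).N) := by unfold XIn.N; fun_prop
@[fun_prop] theorem bN (h : PT X) : PB (fun z => (X z).N) := by unfold XIn.N; fun_prop
@[fun_prop] theorem pG (h : PT X) : PT (fun z => (X z).G) := by unfold XIn.G; fun_prop
@[fun_prop] theorem bG (h : PT X) : PB (fun z => (X z).G) := by unfold XIn.G; fun_prop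
@[fun_prop] theorem pP (h : PT X) : PT (fun z => (X z).P) := by unfold XIn.P; fun_prop
@[fun_prop] theorem pF (h : PT X) : PT (fun z => (X z).F) := by unfold XIn.F; fun_prop
@[fun_prop] theorem pom (h : PT X) : PT (fun z => (X z).om) := by unfold XIn.om; fun_prop
@[fun_prop] theorem pY (h : PT X) : PT (fun z => (X z).Y) := by unfold XIn.Y; fun_prop
@[fun_prop] theorem pn' (h : PT X) : PT (fun z => (X z).n') := by unfold XIn.n'; fun_prop
@[fun_prop] theorem pr (h : PT X) : PT (fun z => (X z).r) := by unfold XIn.r; fun_prop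

theorem br (h : PT X) (hP : PB fun z => (X z).P) : PB (fun z => (X z).r) := by
  unfold XIn.r XIn.n' XIn.Y XIn.om XIn.F; fun_prop

theorem p_le (X : XIn) (j : ℕ) : X.p j ≤ X.P + 1 := by
  unfold XIn.p XIn.P
  by_cases h : j < X.ps.length
  · rw [List.getD_eq_getElem _ _ h]
    exact (List.single_le_sum (by simp) _ (List.getElem_mem h)).trans (Nat.le_succ _)
  · rw [List.getD_eq_default _ _ (not_lt.1 h)]; omega

@[fun_prop] theorem pcpv (h : PT X) (h1 : PT t) (h2 : PT l) :
    PT (fun z => (X z).cpv (t z) (l z)) := by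
  unfold XIn.cpv; fun_prop

theorem pc (h : PT a) (k : ℕ) : PT (fun z => (a z).code.getD k 0) :=
  PT.getD (PT.const k) (pcode h) (PT.const 0)

theorem pnum (h : PT X) (h1 : PT a) : PT (fun z => (X z).num (a z)) :=
  (PT.ite ((pc h1 0).eq (PT.const 0))
    ((pc h1 3).add ((pr h).mul (((PT.const 2).mul (pc h1 1)).add (pc h1 2))))
    ((pc h1 2).add ((pr h).mul (((PT.const 2).mul (pR h)).add
      ((((((pc h1 1).mul (ps h)).add (pc h1 3)).mul (pP h)).add (pc h1 4))))))).congr fun z => by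
    cases a z <;> simp [XIn.num, Fam.code]

theorem pcp (h : PT X) (h0 : PT a) (h1 : PT t) (h2 : PT l) :
    PT (fun z => (X z).cp (a z) (t z) (l z)) :=
  PT.ite ((h1.eq (PT.const 0)).or ((pN h).le h1)) (PT.const _)
    (pcpv h (((pnum h h0).mul (pN h)).add h1) h2)

theorem psrc (h0 : PT a) (h1 : PT j) (h2 : PT ρ) :
    PT (fun z => XIn.src (a z) (j z) (ρ z)) :=
  (PT.ite (((pc h0 0).eq (PT.const 0)).and ((pc h0 2).eq (PT.const 1)))
    (pMu (pc h0 1) (pc h0 3) h1 h2) (PT.const XV.zeta)).congr fun z => by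
    rcases a z with ⟨i, _ | _, l⟩ | _ <;> simp [XIn.src, Fam.code]

theorem pdst (h : PT X) (h0 : PT a) (h1 : PT j) (h2 : PT ρ) :
    PT (fun z => (X z).dst (a z) (j z) (ρ z)) :=
  (PT.ite ((pc h0 0).eq (PT.const 0)) (PT.ite ((pc h0 2).eq (PT.const 0))
    (pMu (pc h0 1) (pc h0 3) h1 h2) (pX (PT.ruleOut (prl h (pc h0 1))) (pc h0 3) h1 h2))
    (pX (psg h (pc h0 1)) (pc h0 2) h1 h2)).congr fun z => by
    rcases a z with ⟨i, _ | _, l⟩ | _ <;> simp [XIn.dst, Fam.code]

theorem pgrd (h : PT X) (h0 : PT a) (h3 : PT l) (h1 : PT j) (h2 : PT ρ) :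
    PT (fun z => (X z).grd (a z) (l z) (j z) (ρ z)) :=
  (PT.ite ((pc h0 0).eq (PT.const 0)) (PT.ite ((pc h0 2).eq (PT.const 0))
    (pX (PT.ruleIn1 (prl h (pc h0 1))) h3 h1
      (pres h h1 (h2.natCast_int.int_add (PT.ruleSh1 (prl h (pc h0 1))))))
    (pX (PT.ruleIn2 (prl h (pc h0 1))) h3 h1
      (pres h h1 (h2.natCast_int.int_add (PT.ruleSh2 (prl h (pc h0 1)))))))
    (pYf h3 (ps h))).congr fun z => by
    rcases a z with ⟨i, _ | _, l⟩ | _ <;> simp [XIn.grd, Fam.code]

@[fun_prop] theorem pev (h : PT X) (h0 : PT a) (h3 : PT t) (h1 : PT j) (h2 : PT ρ) :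
    PT (fun z => (X z).ev (a z) (t z) (j z) (ρ z)) :=
  PT.ite (h3.eq (PT.const 0)) (psrc h0 h1 h2)
    (PT.ite (h3.eq ((pN h).mul (pr h))) (pdst h h0 h1 h2) (pE h0 h3 h1 h2))

@[fun_prop] theorem pgv (h : PT X) (h0 : PT a) (h3 : PT t) (h1 : PT j) (h2 : PT ρ) :
    PT (fun z => (X z).gv (a z) (t z) (j z) (ρ z)) := by
  have h4 := pr h
  unfold XIn.gv
  exact PT.ite (PT.eq (pcp h h0 (h3.div h4) (h3.mod h4))
    (pcp h h0 ((h3.div h4).add (PT.const 1)) (h3.mod h4))) (PT.const _)
    (pgrd h h0 (h3.mod h4) h1 h2)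

@[fun_prop] theorem py0v (h : PT X) (h3 : PT l) (h1 : PT j) :
    PT (fun z => (X z).y0v (l z) (j z)) := by
  unfold XIn.y0v; fun_prop

@[fun_prop] theorem pyfv (h3 : PT l) (h1 : PT j) : PT (fun z => XIn.yfv (l z) (j z)) := by
  unfold XIn.yfv; fun_prop

attribute [local irreducible] XIn.ev XIn.gv XIn.y0v XIn.yfv XIn.r XIn.N XIn.s XIn.p

theorem pregs (h : PT X) (hP : PB fun z => (X z).P) : PT (fun z => (X z).regs) := by
  unfold XIn.regs
  refine PT.flatMap (f := fun z j => (List.range ((X z).p j)).map fun ρ => (j, ρ)) ?_ (by fun_prop)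
  refine PT.map (f := fun (z : α × ℕ) ρ => (z.2, ρ)) (by fun_prop) (PT.range (by fun_prop) ?_)
  exact ((hP.comp (g := fun z : α × ℕ => z.1) (by fun_prop)).add (PB.const 1)).mono
    fun z => p_le _ _

theorem pchains (h : PT X) (hP : PB fun z => (X z).P) : PT (fun z => (X z).chains) := by
  have h1 := pregs h hP
  have h2 : PT fun z => List.range (X z).r := PT.range (pr h) (br h hP)
  have h3 : PT fun z => List.range (X z).R := by fun_prop
  have h4 : PT fun z => List.range (X z).sigs.length := by fun_prop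
  unfold XIn.chains
  refine PT.append (PT.flatMap ?_ h3) (PT.flatMap ?_ h4)
  · refine PT.flatMap ?_ (h2.comp (g := fun z : α × ℕ => z.1) (by fun_prop))
    refine PT.flatMap ?_ (h1.comp (g := fun z : (α × ℕ) × ℕ => z.1.1) (by fun_prop))
    fun_prop
  · refine PT.flatMap ?_ (h2.comp (g := fun z : α × ℕ => z.1) (by fun_prop))
    refine PT.map ?_ (h1.comp (g := fun z : (α × ℕ) × ℕ => z.1.1) (by fun_prop))
    fun_prop

theorem pcons (h : PT X) (hP : PB fun z => (X z).P) : PT (fun z => (X z).cons) := by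
  have h1 := pchains h hP
  have h2 : PT fun z => List.range (X z).r := PT.range (pr h) (br h hP)
  have h3 : PT fun z => List.range (X z).s := by fun_prop
  have h4 : PT fun z => List.range ((X z).N * (X z).r) :=
    PT.range (by fun_prop) ((bN h).mul (br h hP))
  unfold XIn.cons XIn.rest
  refine PT.cons ((pYf (PT.const 0) (ps h)).pair (PT.const _)) (PT.cons (PT.const _)
    (PT.append (PT.flatMap ?_ h2) (PT.flatMap ?_ h1)))
  · refine PT.flatMap ?_ (h3.comp (g := fun z : α × ℕ => z.1) (by fun_prop))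
    fun_prop
  · refine PT.map ?_ (h4.comp (g := fun z : α × Fam × ℕ × ℕ => z.1) (by fun_prop))
    fun_prop

theorem pmk {H : α → Horn} {ps : α → List ℕ} (h1 : PT H) (h2 : PT ps)
    (h3 : PB (fun a => (ps a).sum)) : PT (fun a => (XIn.mk (H a) (ps a)).cons) :=
  pcons (X := fun a => XIn.mk (H a) (ps a)) ((h1.pair h2).of_enc fun _ => rfl) h3

end PTXA

theorem PT.xcons {H : α → Horn} {ps : α → List ℕ} (h1 : PT H) (h2 : PT ps)
    (h3 : PB (fun a => (ps a).sum)) : PT (fun a => (XIn.mk (H a) (ps a)).cons) :=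
  PTXA.pmk h1 h2 h3

theorem PT.xvars [EncInj β] [DecidableEq β] {cs : α → List (β × β × β)} (h : PT cs) :
    PT (fun a => xvars (cs a)) := by
  unfold R290.xvars; fun_prop

theorem PT.natCons [EncInj β] [DecidableEq β] {cs : α → List (β × β × β)} (h : PT cs) :
    PT (fun a => natCons (cs a)) := by
  have h1 : PT (fun z : α × β × β × β => R290.xvars (cs z.1)) :=
    (PT.xvars h).comp (g := fun z : α × β × β × β => z.1) (by fun_prop)
  unfold R290.natCons
  exact PT.map (PT.pair (PT.idxOf (by fun_prop) h1) (PT.pair (PT.idxOf (by fun_prop) h1)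
    (PT.idxOf (by fun_prop) h1))) h

end Crest.Agent.R290
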