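import Crest.Agent.R290.WL

/-!
# Row 290, task Pad: padding to exactly `n` vertices with a universal vertex

Plan.  Write `ι : Fin N → Fin n`, `ι i = i + 1` (`N < n`).
* `pad_promise`: direct (`0` is adjacent to everything else; connectedness: every vertex is
  reachable from `0`).
* `pad_game`: `Win' r := (∀ x ∈ r, both entries are core, or x.1 = x.2 is not core) ∧
  Win (preimage of r under ι × ι)`; extension bijection: `f` on the core, identity elsewhere
  (`Equiv.Perm.extendDomain` or an explicit definition).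
* `pad_sim`: degrees in the padded graph: universal vertex `n - 1 ≥ 5`, core vertex `deg + 1 ∈ [2,4]`,
  other vertices `1`.  Put `R' u u' := R (ι ∘ u) (ι ∘ u')`.  Nonempty: move all coordinates to a core
  vertex with `forth`; partners have the same degree, so are core.  `forth`/`back` likewise
  (`Function.comp_update`).
-/

set_option autoImplicit false

namespace Crest.Agent.R290

open Finset Crest.WLRefine

namespace PadA

/-- the embedding of the core -/
def io {N n : ℕ} (hn : N < n) : Fin N ↪ Fin n :=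
  ⟨fun i => ⟨i.val + 1, by omega⟩, fun i j h => by
    simp only [Fin.mk.injEq] at h
    exact Fin.ext (by omega)⟩

variable {N n : ℕ} (hn : N < n) (f : ℕ → ℕ → Bool)

@[simp] theorem io_val (i : Fin N) : (io hn i).val = i.val + 1 := rfl

theorem mem_core {v : Fin n} : v ∈ Set.range (io hn) ↔ v.val ≠ 0 ∧ v.val ≤ N := by
  constructor
  · rintro ⟨i, rfl⟩
    have := i.2
    simp only [io_val]; omega
  · rintro ⟨h1, h2⟩
    exact ⟨⟨v.val - 1, by omega⟩, Fin.ext (by simp only [io_val]; omega)⟩

theorem pad_core (i j : Fin N) : mat n (padF N f) (io hn i) (io hn j) = mat N f i j := by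
  have h1 : i.val + 1 ≤ N := i.2
  have h2 : j.val + 1 ≤ N := j.2
  simp [mat, padF, h1, h2]

theorem pad_out_left {v : Fin n} (hv : v ∉ Set.range (io hn)) (w : Fin n) :
    mat n (padF N f) v w = decide ((v.val = 0) ≠ (w.val = 0)) := by
  rw [mem_core] at hv
  by_cases h0 : v.val = 0
  · simp [mat, padF, h0]
  · have h1 : ¬ v.val ≤ N := fun h => hv ⟨h0, h⟩
    by_cases h2 : w.val = 0 <;> simp [mat, padF, h0, h1, h2]

theorem pad_out_right {v : Fin n} (hv : v ∉ Set.range (io hn)) (w : Fin n) :
    mat n (padF N f) w v = decide ((v.val = 0) ≠ (w.val = 0)) := by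
  rw [mem_core] at hv
  by_cases h0 : v.val = 0
  · by_cases h2 : w.val = 0 <;> simp [mat, padF, h0, h2]
  · have h1 : ¬ v.val ≤ N := fun h => hv ⟨h0, h⟩
    by_cases h2 : w.val = 0 <;> simp [mat, padF, h0, h1, h2]

theorem deg_core (i : Fin N) : deg (mat n (padF N f)) (io hn i) = deg (mat N f) i + 1 := by
  unfold deg
  have h0 : (⟨0, by omega⟩ : Fin n) ∉ (univ.filter fun j => mat N f i j = true).map (io hn) := by
    simp only [mem_map, not_exists, not_and]
    intro j _ h
    simpa using congrArg Fin.val h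
  rw [← card_map (io hn) (s := univ.filter fun j => mat N f i j = true), ← card_insert_of_notMem h0]
  congr 1
  ext w
  by_cases hw : w ∈ Set.range (io hn)
  · obtain ⟨j, rfl⟩ := hw
    have : io hn j ≠ ⟨0, by omega⟩ := fun h => by simpa using congrArg Fin.val h
    simp [pad_core, this]
  · have : w ∉ (univ.filter fun j => mat N f i j = true).map (io hn) := by
      simp only [mem_map, not_exists, not_and]
      exact fun j _ h => hw ⟨j, h⟩
    simp only [mem_filter, mem_univ, true_and, pad_out_right hn f hw, mem_insert, this, or_false,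
      Fin.ext_iff]
    simp

theorem deg_out {v : Fin n} (hv : v ∉ Set.range (io hn)) :
    deg (mat n (padF N f)) v = n - 1 ∨ deg (mat n (padF N f)) v = 1 := by
  unfold deg
  by_cases h0 : v.val = 0
  · left
    have : (univ.filter fun w => mat n (padF N f) v w = true) = univ.erase v := by
      ext w
      simp only [mem_filter, mem_univ, true_and, pad_out_left hn f hv, mem_erase, and_true, h0,
        ne_eq, Fin.ext_iff]
      simp
    rw [this]; simp
  · right
    have : (univ.filter fun w => mat n (padF N f) v w = true) = {⟨0, by omega⟩} := by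
      ext w
      simp only [mem_filter, mem_univ, true_and, pad_out_left hn f hv, mem_singleton, h0,
        Fin.ext_iff]
      simp
    rw [this]; simp

theorem core_of_deg (hN : 5 ≤ N) {v : Fin n} (h1 : 2 ≤ deg (mat n (padF N f)) v)
    (h2 : deg (mat n (padF N f)) v ≤ 4) : v ∈ Set.range (io hn) := by
  by_contra hv
  rcases deg_out hn f hv with h | h <;> omega

end PadA

open PadA

theorem pad_promise {N n : ℕ} {f : ℕ → ℕ → Bool} (hf : IsSimple (mat N f)) (hn : N < n) :
    SimpleConnDiamTwo (mat n (padF N f)) := by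
  set z : Fin n := ⟨0, by omega⟩ with hz
  have hz0 : z ∉ Set.range (io hn) := by rw [mem_core]; simp [hz]
  have hl : ∀ w, w ≠ z → mat n (padF N f) z w = true := fun w hw => by
    rw [pad_out_left hn f hz0]
    simpa [hz, Fin.ext_iff] using hw
  have hr : ∀ w, w ≠ z → mat n (padF N f) w z = true := fun w hw => by
    rw [pad_out_right hn f hz0]
    simpa [hz, Fin.ext_iff] using hw
  refine ⟨⟨fun v w => ?_, fun v => ?_⟩, ?_, fun v w hvw => ?_⟩
  · by_cases hv : v ∈ Set.range (io hn)
    · by_cases hw : w ∈ Set.range (io hn)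
      · obtain ⟨i, rfl⟩ := hv
        obtain ⟨j, rfl⟩ := hw
        rw [pad_core, pad_core, hf.1]
      · rw [pad_out_left hn f hw, pad_out_right hn f hw]
    · rw [pad_out_left hn f hv, pad_out_right hn f hv]
  · by_cases hv : v ∈ Set.range (io hn)
    · obtain ⟨i, rfl⟩ := hv
      rw [pad_core, hf.2]
    · rw [pad_out_left hn f hv]; simp
  · refine (SimpleGraph.connected_iff_exists_forall_reachable _).mpr ⟨z, fun w => ?_⟩
    by_cases hw : w = z
    · rw [hw]
    · refine SimpleGraph.Adj.reachable ?_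
      simp only [adjGraph, SimpleGraph.fromRel_adj]
      exact ⟨Ne.symm hw, Or.inl (hl w hw)⟩
  · by_cases hv : v = z
    · left; rw [hv]; exact hl w (hv ▸ hvw.symm)
    · by_cases hw : w = z
      · left; rw [hw]; exact hr v hv
      · exact Or.inr ⟨z, hr v hv, hl w hw⟩

theorem pad_game {N n K : ℕ} {f g : ℕ → ℕ → Bool} (h : Game K (mat N f) (mat N g)) (hn : N < n) :
    Game K (mat n (padF N f)) (mat n (padF N g)) := by
  obtain ⟨Win, hW⟩ := h
  set e : Fin N × Fin N ↪ Fin n × Fin n := (io hn).prodMap (io hn) with he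
  have he' : ∀ x, e x = (io hn x.1, io hn x.2) := fun x => rfl
  set pre : Finset (Fin n × Fin n) → Finset (Fin N × Fin N) :=
    fun r => univ.filter fun x => e x ∈ r with hpre
  have mem_pre : ∀ r x, x ∈ pre r ↔ e x ∈ r := fun r x => by simp [hpre]
  refine ⟨fun r => (∀ x ∈ r, x ∈ Set.range e ∨ (x.1 = x.2 ∧ x.1 ∉ Set.range (io hn))) ∧
    Win (pre r), ⟨by simp, ?_⟩, ?_, ?_, ?_, ?_⟩
  · have : pre ∅ = ∅ := by ext x; simp [mem_pre]
    rw [this]; exact hW.empty
  · rintro p q ⟨h1, h2⟩ hq
    exact ⟨fun x hx => h1 x (hq hx),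
      hW.sub h2 fun x hx => (mem_pre _ _).mpr (hq ((mem_pre _ _).mp hx))⟩
  · rintro p ⟨h1, h2⟩ x hx y hy
    rcases h1 x hx with ⟨a, rfl⟩ | ⟨a1, a2⟩
    · rcases h1 y hy with ⟨b, rfl⟩ | ⟨b1, b2⟩
      · simpa [he'] using hW.eq h2 a ((mem_pre _ _).mpr hx) b ((mem_pre _ _).mpr hy)
      · rw [← b1, he']
        exact iff_of_false (fun h => b2 ⟨_, h⟩) fun h => b2 ⟨_, h⟩
    · rcases h1 y hy with ⟨b, rfl⟩ | ⟨b1, b2⟩
      · rw [← a1, he']
        exact iff_of_false (fun h => a2 ⟨_, h.symm⟩) fun h => a2 ⟨_, h.symm⟩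
      · rw [← a1, ← b1]
  · rintro p ⟨h1, h2⟩ x hx y hy
    rcases h1 x hx with ⟨a, rfl⟩ | ⟨a1, a2⟩
    · rcases h1 y hy with ⟨b, rfl⟩ | ⟨b1, b2⟩
      · simpa [he', pad_core] using hW.adj h2 a ((mem_pre _ _).mpr hx) b ((mem_pre _ _).mpr hy)
      · rw [← b1, he', pad_out_right hn f b2, pad_out_right hn g b2]; simp
    · rw [← a1, pad_out_left hn f a2, pad_out_left hn g a2]
      rcases h1 y hy with ⟨b, rfl⟩ | ⟨b1, b2⟩
      · simp [he']
      · rw [b1]
  · rintro p ⟨h1, h2⟩ hp
    have hc : (pre p).card ≤ p.card :=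
      card_le_card_of_injOn e (fun x hx => (mem_pre _ _).mp hx) e.injective.injOn
    obtain ⟨σ, hσ⟩ := hW.ext h2 (hc.trans_lt hp)
    refine ⟨Equiv.Perm.viaEmbedding σ (io hn), fun v => ?_⟩
    by_cases hv : v ∈ Set.range (io hn)
    · obtain ⟨i, rfl⟩ := hv
      rw [Equiv.Perm.viaEmbedding_apply]
      refine ⟨fun x hx => ?_, ?_⟩
      · rcases mem_insert.mp hx with rfl | hx
        · exact Or.inl ⟨(i, σ i), rfl⟩
        · exact h1 x hx
      · refine hW.sub (hσ i) fun x hx => ?_
        rcases mem_insert.mp ((mem_pre _ _).mp hx) with h3 | h3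
        · exact mem_insert.mpr (Or.inl (e.injective h3))
        · exact mem_insert_of_mem ((mem_pre _ _).mpr h3)
    · rw [Equiv.Perm.viaEmbedding_apply_of_notMem _ _ _ hv]
      refine ⟨fun x hx => ?_, ?_⟩
      · rcases mem_insert.mp hx with rfl | hx
        · exact Or.inr ⟨rfl, hv⟩
        · exact h1 x hx
      · refine hW.sub h2 fun x hx => ?_
        rcases mem_insert.mp ((mem_pre _ _).mp hx) with h3 | h3
        · exact absurd ⟨x.1, congrArg Prod.fst h3⟩ hv
        · exact (mem_pre _ _).mpr h3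

theorem pad_sim {N n k : ℕ} {f g : ℕ → ℕ → Bool} (hN : 5 ≤ N) (hn : N < n)
    (hf : ∀ i, 1 ≤ deg (mat N f) i ∧ deg (mat N f) i ≤ 3)
    (hg : ∀ i, 1 ≤ deg (mat N g) i ∧ deg (mat N g) i ≤ 3)
    (h : Sim k (mat n (padF N f)) (mat n (padF N g))) : Sim k (mat N f) (mat N g) := by
  obtain ⟨R, hR⟩ := h
  have c1 : ∀ {u u'}, R u u' → ∀ i, u i ∈ Set.range (io hn) → u' i ∈ Set.range (io hn) := by
    rintro u u' hu i ⟨a, ha⟩
    have h1 := hR.deg hu i
    rw [← ha, deg_core] at h1
    have h2 := hf a
    exact core_of_deg hn g hN (by omega) (by omega)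
  have c2 : ∀ {u u'}, R u u' → ∀ i, u' i ∈ Set.range (io hn) → u i ∈ Set.range (io hn) := by
    rintro u u' hu i ⟨a, ha⟩
    have h1 := hR.deg hu i
    rw [← ha, deg_core] at h1
    have h2 := hg a
    exact core_of_deg hn f hN (by omega) (by omega)
  refine ⟨fun u u' => R (io hn ∘ u) (io hn ∘ u'), ?_, fun hu i j => ?_, fun hu i j => ?_,
    fun {u u'} hu i x => ?_, fun {u u'} hu i y => ?_, fun hu i => ?_⟩
  · have key : ∀ s : Finset (Fin k), ∃ u u', R u u' ∧ ∀ i ∈ s, u i ∈ Set.range (io hn) := by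
      intro s
      induction s using Finset.induction_on with
      | empty =>
        obtain ⟨u, u', hu⟩ := hR.ne
        exact ⟨u, u', hu, by simp⟩
      | insert i s _ ih =>
        obtain ⟨u, u', hu, hs⟩ := ih
        obtain ⟨y, hy⟩ := hR.forth hu i (io hn ⟨0, by omega⟩)
        refine ⟨_, _, hy, fun j hj => ?_⟩
        by_cases hji : j = i
        · rw [hji, Function.update_self]; exact ⟨_, rfl⟩
        · rw [Function.update_of_ne hji]
          exact hs j ((mem_insert.mp hj).resolve_left hji)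
    obtain ⟨u, u', hu, hs⟩ := key univ
    choose a ha using fun i => hs i (mem_univ i)
    choose b hb using fun i => c1 hu i (hs i (mem_univ i))
    refine ⟨a, b, ?_⟩
    have e1 : io hn ∘ a = u := funext ha
    have e2 : io hn ∘ b = u' := funext hb
    rw [e1, e2]; exact hu
  · simpa using hR.eq hu i j
  · simpa [pad_core] using hR.adj hu i j
  · obtain ⟨y, hy⟩ := hR.forth hu i (io hn x)
    obtain ⟨b, hb⟩ := c1 hy i (by rw [Function.update_self]; exact ⟨_, rfl⟩)
    rw [Function.update_self] at hb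
    refine ⟨b, ?_⟩
    rw [Function.comp_update, Function.comp_update, hb]; exact hy
  · obtain ⟨x, hx⟩ := hR.back hu i (io hn y)
    obtain ⟨a, ha⟩ := c2 hx i (by rw [Function.update_self]; exact ⟨_, rfl⟩)
    rw [Function.update_self] at ha
    refine ⟨a, ?_⟩
    rw [Function.comp_update, Function.comp_update, ha]; exact hx
  · simpa [deg_core] using hR.deg hu i

end Crest.Agent.R290
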