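import Crest.Agent.R290.XVec

/-!
# Row 290, task XReloc: relocation of a robber

Notation: `D j ρ := bval Hd (src a j ρ) + bval Hd (dst a j ρ)`; for `κ : Sg → ℕ → ℕ → ZMod 2` put
`gκ (rule i part _) j ρ := κ (in1/in2) j (res j (ρ + sh i part))`,
`gκ (reset …) _ _ := ∑ j' < s, κ qf j' 0`.

Plan.
1. `exists_group`: each `u ∈ Z` blocks at most two groups (that of its coordinate `crd u` and, for
   `e a' pos _ _`, that of `pos % r`); with group `0`, at most `2 (w - 1) + 1 < G` are blocked.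
2. `exists_flip`: for `g` unblocked and `u = e a' pos j ρ ∈ Z`, on the group `g` the vector `pv a' pos`
   equals `cp a' t'` with `t' = pos / r + 1` if `g < (pos % r) / n'` and `t' = pos / r` otherwise.  Let
   `U` be the set of indices `num a' * N + t'` with `0 < t' < N`, `T ⊆ U` those with `a' = a` and
   `min τ τ' < t' ≤ max τ τ'`; `exists_delta`, `num_lt`, `num_inj`.  As blocks `τ a`, `τ'` carry no
   pebble of family `a`, `t'` is in the interval iff the pebble changes side.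
3. `exists_kappa`: reset family (real chain `(j₀, ρ₀)`): `κ q j ρ := [q = qf ∧ j = π₀ ∧ ρ = 0] D j₀ ρ₀`,
   `π₀` private for the address `0` in `A` (`exists_private`, `J = ∅`); `qf` is not derivable at `0`.
   Rule family with guard signal `q₁` and shift `σ`: `Dv c := ∑ j < s, D j (res j c)`,
   `A' := {c' ∈ A | Der q₁ c' ∧ c' - σ ∉ A}`, `π c'` private for `c'` in `A` and outside
   `tchS Z (c' - σ)` (`c' - σ ∈ Rng B` by `Bnd`),
   `κ q j ρ := [q = q₁] (D j (res j (ρ - σ)) + ∑ c' ∈ A', [j = π c' ∧ ρ = res j c'] Dv (c' - σ))`.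
   If `c ∈ A`, `Der q₁ c` and `c - σ ∈ A` then `Dv (c - σ) = 0` by `InvA` at `c - σ` (part 1: `μ = 0`;
   part 2: either `in1` holds, then `out` is derivable and both vanish, or `μ = x out`).
4. `relocate`: `Hd' (x q l j ρ) := Hd (x q l j ρ) + κ q j ρ * δ l`;
   `Hd' (mu i l j ρ) := Hd (…)` if `l / n' ≠ g`, else `∑ c ∈ A, [j = π c ∧ ρ = res j c] req i l c`, where
   `π c` is private for `c` in `A` and `req` is the value required by `InvA` for the new `x` values.
   Then `bval Hd' (grd a' l' j ρ) = bval Hd (grd …) + gκ a' j ρ * δ l'`, and `src`, `dst` of pebbled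
   families are unchanged.
-/

set_option autoImplicit false

namespace Crest.Agent.R290

open Finset

namespace XIn

/-- the coordinate of a family -/
def _root_.Crest.Agent.R290.Fam.crd : Fam → ℕ
  | .rule _ _ l => l
  | .reset _ l _ _ => l

/-- the coordinate of a variable -/
def _root_.Crest.Agent.R290.XV.crd : XV → ℕ
  | .zeta => 0
  | .x _ l _ _ => l
  | .mu _ l _ _ => l
  | .e a _ _ _ => a.crd
  | .y0 l _ => l
  | .yf l _ => l

/-- effective change of the guard of a real chain -/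
def gκ (X : XIn) (κ : Sg → ℕ → ℕ → ZMod 2) : Fam → ℕ → ℕ → ZMod 2
  | .rule i false _, j, ρ => κ (X.rl i).in1 j (X.res j (ρ + (X.rl i).sh1))
  | .rule i true _, j, ρ => κ (X.rl i).in2 j (X.res j (ρ + (X.rl i).sh2))
  | .reset _ _ _ _, _, _ => ∑ j' ∈ range X.s, κ X.H.qf j' 0

variable {X : XIn}

theorem exists_group (h : X.Ok) {Z : Finset XV} (hZ : Z.card < X.w) :
    ∃ g < X.G, g ≠ 0 ∧ (∀ u ∈ Z, u.crd / X.n' ≠ g) ∧
      ∀ a pos j ρ, XV.e a pos j ρ ∈ Z → (pos % X.r) / X.n' ≠ g := by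
  have _ := h
  obtain ⟨g, h1, h2⟩ := exists_mem_notMem_of_card_lt_card (t := range X.G)
    (s := insert 0 (Z.image (fun u => u.crd / X.n') ∪ Z.image fun u => match u with
      | .e _ pos _ _ => (pos % X.r) / X.n'
      | _ => 0))
    ((card_insert_le _ _).trans_lt (by
      rw [card_range, G]
      exact Nat.succ_lt_succ ((card_union_le _ _).trans_lt
        ((add_le_add card_image_le card_image_le).trans_lt (by omega)))))
  rw [mem_insert, mem_union, not_or, not_or] at h2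
  exact ⟨g, mem_range.1 h1, h2.1, fun u hu e => h2.2.1 (mem_image.2 ⟨u, hu, e⟩),
    fun a pos j ρ hu e => h2.2.2 (mem_image.2 ⟨_, hu, e⟩)⟩

theorem exists_flip (h : X.Ok) {Z : Finset XV} (hZ : Z.card < X.w) (hV : X.ValidZ Z) {g : ℕ}
    (hg : g < X.G) (hb : ∀ a pos j ρ, XV.e a pos j ρ ∈ Z → (pos % X.r) / X.n' ≠ g) (a : Fam)
    {t t' : ℕ} (ht : t < X.N) (ht' : t' < X.N)
    (hf : ∀ pos j ρ, XV.e a pos j ρ ∈ Z → pos / X.r ≠ t ∧ pos / X.r ≠ t') :
    ∃ δ : ℕ → ZMod 2, (∀ l, l / X.n' ≠ g → δ l = 0) ∧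
      ∀ a' pos j ρ, XV.e a' pos j ρ ∈ Z → ∑ l ∈ range X.r, X.pv a' pos l * δ l =
        if a' = a ∧ ¬ (pos / X.r ≤ t ↔ pos / X.r ≤ t') then 1 else 0 := by
  classical
  let tt : ℕ → ℕ := fun pos => if g < (pos % X.r) / X.n' then pos / X.r + 1 else pos / X.r
  have htt : ∀ pos, tt pos = pos / X.r ∨ tt pos = pos / X.r + 1 := fun pos => by
    simp only [tt]; split_ifs <;> simp
  let idx : XV → ℕ := fun u => match u with
    | .e a' pos _ _ => X.num a' * X.N + tt pos
    | _ => 0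
  let U := (Z.filter fun u => ∃ a' pos j ρ, u = .e a' pos j ρ ∧ tt pos < X.N).image idx
  obtain ⟨δ, h1, h2⟩ := exists_delta h U (U.filter fun n => ∃ pos j ρ, XV.e a pos j ρ ∈ Z ∧
    n = X.num a * X.N + tt pos ∧ min t t' < tt pos ∧ tt pos ≤ max t t')
    (fun n hn => by
      obtain ⟨u, hu, rfl⟩ := mem_image.1 hn
      obtain ⟨hu, a', pos, j, ρ, rfl, hp⟩ := mem_filter.1 hu
      exact num_lt h (hV _ _ _ _ hu).1 hp)
    (card_image_le.trans ((card_filter_le _ _).trans hZ.le)) (filter_subset _ _) hg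
  refine ⟨δ, h1, fun a' pos j ρ hu => ?_⟩
  have hp : pos / X.r < X.N := Nat.div_lt_of_lt_mul (mul_comm X.N X.r ▸ (hV _ _ _ _ hu).2)
  have e : ∀ l, X.pv a' pos l * δ l = X.cp a' (tt pos) l * δ l := fun l => by
    by_cases hl : l / X.n' = g
    · congr 1
      simp only [pv, tt]
      by_cases hlt : g < (pos % X.r) / X.n'
      · rw [if_pos hlt, if_pos (Nat.lt_of_div_lt_div (hl ▸ hlt))]
      · rw [if_neg hlt, if_neg fun h' => hlt (lt_of_le_of_ne (hl ▸ Nat.div_le_div_right h'.le)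
          (hb _ _ _ _ hu).symm)]
    · rw [h1 l hl, mul_zero, mul_zero]
  simp only [e, cp]
  have h3 := htt pos
  by_cases hc : tt pos = 0 ∨ X.N ≤ tt pos
  · simp only [if_pos hc, zero_mul, sum_const_zero]
    rw [if_neg]
    rintro ⟨rfl, h4⟩
    have := hf _ _ _ hu
    omega
  · simp only [if_neg hc]
    have hU : X.num a' * X.N + tt pos ∈ U :=
      mem_image.2 ⟨_, mem_filter.2 ⟨hu, _, _, _, _, rfl, by omega⟩, rfl⟩
    rw [h2 _ hU]
    refine if_congr ?_ rfl rfl
    rw [mem_filter]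
    constructor
    · rintro ⟨-, pos', j', ρ', hu', h4, h5, h6⟩
      have h7 : tt pos' < X.N := by omega
      have h9 := congrArg (· % X.N) h4
      simp only [Nat.mul_add_mod_self_right, Nat.mod_eq_of_lt h7,
        Nat.mod_eq_of_lt (show tt pos < X.N by omega)] at h9
      rw [h9, add_left_inj] at h4
      obtain rfl := num_inj h (hV _ _ _ _ hu).1 (hV _ _ _ _ hu').1
        (Nat.eq_of_mul_eq_mul_right (by omega) h4)
      have := hf _ _ _ hu
      exact ⟨rfl, by omega⟩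
    · rintro ⟨rfl, h4⟩
      have := hf _ _ _ hu
      exact ⟨hU, pos, j, ρ, hu, rfl, by omega, by omega⟩

theorem z2_add (c : ZMod 2) : c + c = 0 := by revert c; decide

theorem sum_private {A A' : Finset ℤ} (hA : A' ⊆ A) {π : ℤ → ℕ} (h1 : ∀ c ∈ A', π c < X.s)
    (h2 : ∀ c ∈ A', ∀ c' ∈ A, c' ≠ c → X.res (π c) c' ≠ X.res (π c) c) (f : ℤ → ZMod 2) {c : ℤ}
    (hc : c ∈ A) : (∑ j ∈ range X.s, ∑ c' ∈ A', if j = π c' ∧ X.res j c = X.res j c' then f c' else 0) =
      if c ∈ A' then f c else 0 := by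
  have _ := hA
  rw [sum_comm, ← sum_ite_eq A' c f]
  refine sum_congr rfl fun c' hc' => ?_
  rw [sum_eq_single_of_mem (π c') (mem_range.2 (h1 c' hc')) fun j _ hj => if_neg fun e => hj e.1]
  refine if_congr ⟨fun e => by_contra fun hne => h2 c' hc' c hc hne e.2, fun e => ?_⟩ rfl rfl
  rw [e]
  exact ⟨rfl, rfl⟩

theorem exists_kappa {B e : ℕ} (h : X.DOk B e) {A : Finset ℤ} (hA : A ⊆ Rng B) (hc : A.card ≤ 32)
    (h0 : (0 : ℤ) ∈ A) {Z : Finset XV} (hV : X.ValidZ Z)
    (hn : ∀ c ∈ Rng B, c ∉ A → 2 * (X.tchS Z c).card < X.s) {Hd : XV → ZMod 2} (hI : X.InvA A Hd)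
    {a : Fam} {j₀ ρ₀ : ℕ} (ha : (a, j₀, ρ₀) ∈ X.chains) :
    ∃ κ : Sg → ℕ → ℕ → ZMod 2,
      (∀ pos j ρ, XV.e a pos j ρ ∈ Z →
        X.gκ κ a j ρ = X.bval Hd (src a j ρ) + X.bval Hd (X.dst a j ρ)) ∧
      ∀ c ∈ A, ∀ q, Der X.H q c → ∑ j ∈ range X.s, κ q j (X.res j c) = 0 := by
  classical
  set D : ℕ → ℕ → ZMod 2 := fun j ρ => X.bval Hd (src a j ρ) + X.bval Hd (X.dst a j ρ) with hD
  cases a with
  | reset qi l j₁ ρ₁ =>
    obtain ⟨π, h1, -, h2⟩ := exists_private h hA hc (hA h0) ∅ (by simpa using h.ok.1)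
    refine ⟨fun q j ρ => if j = π ∧ q = X.H.qf ∧ ρ = 0 then D j₁ ρ₁ else 0, fun pos j ρ hu => ?_,
      fun c hcA q hq => sum_eq_zero fun j _ => if_neg ?_⟩
    · obtain ⟨-, -, -, -, rfl, rfl⟩ := (X.mem_chains_reset ..).1 (hV _ _ _ _ hu).1
      simp only [gκ, and_true, sum_ite_eq', mem_range, if_pos h1, hD]
    · rintro ⟨rfl, rfl, h3⟩
      exact h2 c hcA (fun e => h.nder (e ▸ hq)) (h3.trans (res_zero _).symm)
  | rule i part l =>
    have hi := ((X.mem_chains_rule ..).1 ha).1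
    have hr : X.rl i ∈ X.H.rules := by
      rw [rl, List.getD_eq_getElem _ _ hi]; exact List.getElem_mem hi
    set q₁ := if part then (X.rl i).in2 else (X.rl i).in1 with hq₁
    set σ := X.sh i part with hσ
    have hσB : |σ| ≤ B := by
      have := h.bnd.2 _ hr
      cases part
      exacts [this.1, this.2]
    let A' := A.filter fun c => Der X.H q₁ c ∧ c - σ ∉ A
    have hπ : ∀ c, ∃ j, c ∈ A' → j < X.s ∧ j ∉ X.tchS Z (c - σ) ∧
        ∀ c' ∈ A, c' ≠ c → X.res j c' ≠ X.res j c := fun c => by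
      by_cases hc' : c ∈ A'
      · obtain ⟨h1, h2, h3⟩ := mem_filter.1 hc'
        have h4 := abs_le.1 (h.bnd.1 _ _ h2)
        have h5 := abs_le.1 hσB
        obtain ⟨j, hj⟩ := exists_private h hA hc (hA h1) _
          (hn (c - σ) (mem_Icc.2 ⟨by omega, by omega⟩) h3)
        exact ⟨j, fun _ => hj⟩
      · exact ⟨0, fun h' => absurd h' hc'⟩
    choose π hπ using hπ
    let Dv : ℤ → ZMod 2 := fun c => ∑ j ∈ range X.s, D j (X.res j c)
    refine ⟨fun q j ρ => if q = q₁ then D j (X.res j (ρ + -σ)) +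
      ∑ c ∈ A', if j = π c ∧ ρ = X.res j c then Dv (c - σ) else 0 else 0, fun pos j ρ hu => ?_,
      fun c hcA q hq => ?_⟩
    · obtain ⟨-, -, hj, hρ⟩ := (X.mem_chains_rule ..).1 (hV _ _ _ _ hu).1
      have e1 : X.res j (X.res j (ρ + σ) + -σ) = ρ := by
        rw [h.ok.res_res_add, add_neg_cancel_right, res_nat hρ]
      have e2 : ∀ κ, X.gκ κ (.rule i part l) j ρ = κ q₁ j (X.res j (ρ + σ)) := fun κ => by
        cases part <;> rfl
      rw [e2, if_pos rfl, e1, sum_eq_zero fun c hc' => if_neg ?_, add_zero]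
      rintro ⟨rfl, h3⟩
      refine (hπ c hc').2.1 (mem_filter.2 ⟨mem_range.2 hj, _, hu, ?_⟩)
      rw [h3, h.ok.res_res_add, ← sub_eq_add_neg] at e1
      rw [e1]
      exact mem_insert_self _ _
    · by_cases hq' : q = q₁
      swap
      · exact sum_eq_zero fun j _ => if_neg hq'
      subst hq'
      simp only [if_true, sum_add_distrib, h.ok.res_res_add]
      simp only [← sub_eq_add_neg]
      rw [sum_private (filter_subset _ _) (fun c hc => (hπ c hc).1) (fun c hc => (hπ c hc).2.2) _ hcA]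
      split_ifs with hc'
      · exact z2_add _
      have h3 : c - σ ∈ A := by_contra fun h' => hc' (mem_filter.2 ⟨hcA, hq, h'⟩)
      have h4 := (hI _ h3).2 i hi l
      rw [add_zero]
      cases part
      · rw [if_pos (by rw [show (X.rl i).sh1 = σ from rfl, sub_add_cancel]; exact hq)] at h4
        rw [← h4]
        exact sum_congr rfl fun j _ => zero_add _
      · have h5 : ∑ j ∈ range X.s, D j (X.res j (c - σ)) =
            X.vmu Hd i l (c - σ) + X.vx Hd (X.rl i).out l (c - σ) := sum_add_distrib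
        rw [h5, h4]
        split_ifs with h6
        · rw [zero_add]
          exact (hI _ h3).1 _ _ (.rule hr h6
            (by rw [show (X.rl i).sh2 = σ from rfl, sub_add_cancel]; exact hq))
        · exact z2_add _

theorem relocate {B e : ℕ} (h : X.DOk B e) {A : Finset ℤ} (hA : A ⊆ Rng B) (hc : A.card ≤ 32)
    (h0 : (0 : ℤ) ∈ A) {Z : Finset XV} (hZ : Z.card < X.w) (hV : X.ValidZ Z)
    (hn : ∀ c ∈ Rng B, c ∉ A → 2 * (X.tchS Z c).card < X.s) {Hd : XV → ZMod 2} (hI : X.InvA A Hd)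
    {τ : Fam → ℕ} (hF : X.Free Z τ) {a : Fam} {j₀ ρ₀ : ℕ} (ha : (a, j₀, ρ₀) ∈ X.chains) {t' : ℕ}
    (ht' : t' < X.N) (hf : ∀ pos j ρ, XV.e a pos j ρ ∈ Z → pos / X.r ≠ t') :
    ∃ Hd', X.InvA A Hd' ∧ X.vx Hd' X.H.qf 0 0 = X.vx Hd X.H.qf 0 0 ∧
      ∀ u ∈ Z, X.val Hd' (Function.update τ a t') u = X.val Hd τ u := by
  classical
  obtain ⟨g, hg, hg0, g1, g2⟩ := exists_group h.ok hZ
  obtain ⟨δ, d1, d2⟩ := exists_flip h.ok hZ hV hg g2 a (hF a).1 ht'
    fun pos j ρ hu => ⟨(hF a).2 pos j ρ hu, hf pos j ρ hu⟩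
  obtain ⟨κ, k1, k2⟩ := exists_kappa h hA hc h0 hV hn hI ha
  have hπ : ∀ c, ∃ j, c ∈ A → j < X.s ∧ ∀ c' ∈ A, c' ≠ c → X.res j c' ≠ X.res j c := fun c => by
    by_cases hc' : c ∈ A
    · obtain ⟨j, h1, -, h2⟩ := exists_private h hA hc (hA hc') ∅ (by simpa using h.ok.1)
      exact ⟨j, fun _ => ⟨h1, h2⟩⟩
    · exact ⟨0, fun h' => absurd h' hc'⟩
  choose π hπ using hπ
  let vx' : Sg → ℕ → ℤ → ZMod 2 := fun q l c =>
    X.vx Hd q l c + (∑ j ∈ range X.s, κ q j (X.res j c)) * δ l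
  let Hd' : XV → ZMod 2 := fun u => match u with
    | .x q l j ρ => Hd (.x q l j ρ) + κ q j ρ * δ l
    | .mu i l j ρ => if l / X.n' = g then ∑ c ∈ A, if j = π c ∧ ρ = X.res j c then
        (if Der X.H (X.rl i).in1 (c + (X.rl i).sh1) then 0 else vx' (X.rl i).out l c) else 0
        else Hd (.mu i l j ρ)
    | u => Hd u
  have hvx : ∀ q l c, X.vx Hd' q l c = vx' q l c := fun q l c => by
    simp only [vx', vx, Hd', sum_add_distrib, sum_mul]
  have hb : ∀ u : XV, u.crd / X.n' ≠ g → X.bval Hd' u = X.bval Hd u := fun u hu => by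
    cases u with
    | mu i l j ρ => exact if_neg hu
    | zeta => rfl
    | e => rfl
    | x q l j ρ => simp only [bval, Hd', d1 l hu, mul_zero, add_zero]
    | y0 l j => simp only [bval, Hd', d1 l hu, mul_zero, add_zero]
    | yf l j => simp only [bval, Hd', d1 l hu, mul_zero, add_zero]
  have hz : 0 / X.n' ≠ g := by rw [Nat.zero_div]; exact hg0.symm
  refine ⟨Hd', fun c hcA => ⟨fun q l hq => ?_, fun i hi l => ?_⟩, ?_, fun u hu => ?_⟩
  · simp only [hvx, vx', (hI c hcA).1 q l hq, k2 c hcA q hq, zero_mul, add_zero]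
  · by_cases hl : l / X.n' = g
    · simp only [vmu, Hd', if_pos hl, hvx]
      rw [sum_private subset_rfl (fun c hc => (hπ c hc).1) (fun c hc => (hπ c hc).2) _ hcA,
        if_pos hcA]
    · simp only [hvx, vx', d1 l hl, mul_zero, add_zero, ← (hI c hcA).2 i hi l, vmu, Hd', if_neg hl]
  · simp only [hvx, vx', d1 0 hz, mul_zero, add_zero]
  · have h1 := g1 u hu
    cases u with
    | e a' pos j ρ =>
      have e1 : X.bval Hd' (src a' j ρ) = X.bval Hd (src a' j ρ) := hb _ (by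
        rcases a' with ⟨i, _ | _, l⟩ | _
        exacts [hz, h1, hz])
      have e2 : X.bval Hd' (X.dst a' j ρ) = X.bval Hd (X.dst a' j ρ) := hb _ (by
        rcases a' with ⟨i, _ | _, l⟩ | _
        exacts [h1, h1, h1])
      have e3 : ∀ l, X.bval Hd' (X.grd a' l j ρ) =
          X.bval Hd (X.grd a' l j ρ) + X.gκ κ a' j ρ * δ l := fun l => by
        rcases a' with ⟨i, _ | _, l⟩ | _
        · rfl
        · rfl
        · simp only [grd, bval, gκ, Hd', sum_add_distrib, sum_mul]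
      simp only [val, e1, e2, e3, mul_add, sum_add_distrib, mul_left_comm _ (X.gκ κ a' j ρ),
        ← mul_sum, d2 a' pos j ρ hu]
      by_cases ha' : a' = a
      · subst ha'
        rw [Function.update_self, k1 pos j ρ hu]
        generalize X.bval Hd (src a' j ρ) = x
        generalize X.bval Hd (X.dst a' j ρ) = y
        generalize ∑ l ∈ range X.r, X.pv a' pos l * X.bval Hd (X.grd a' l j ρ) = z
        by_cases c1 : pos / X.r ≤ τ a' <;> by_cases c2 : pos / X.r ≤ t' <;>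
          simp only [c1, c2, if_true, if_false, true_and, iff_true, iff_false, not_true, not_false_iff] <;>
          revert x y z <;> decide
      · simp only [Function.update_of_ne ha', ha', false_and, if_false, mul_zero, add_zero]
    | _ => exact hb _ h1

end XIn

end Crest.Agent.R290
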