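import Crest.Agent.R290.XAct
import Crest.Agent.R290.XReloc

/-!
# Row 290, task XDup: Duplicator's family is consistent

Plan.  `ne`: `Act B ∅ = {0}`, `init_state`, `τ = 0`.  `sub`: `Act_mono`.  `sat`: `x_sat`.
`ext`: let `Z' = insert v Z`, `A' = Act B Z'` (`card_Act_le`).  First `activate` from `Act B Z` to `A'`.
If `v = e a pos j ρ` with `pos / r = τ a`, choose `t' < N = w + 1` different from `τ a` and from the
blocks of the `< w` pebbles of `Z`, and `relocate` (for `A'`; `not_mem_Act` and `tchS_mono`).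
-/

set_option autoImplicit false

namespace Crest.Agent.R290

open Finset

theorem x_cons {X : XIn} {B e : ℕ} (h : X.DOk B e) : Cons X.cons 1 (7 * X.s) := by
  have h0 : ∀ Z, (0 : ℤ) ∈ X.Act B Z := fun Z => mem_insert_self _ _
  refine ⟨X.Good B, ?_, ?_, ?_, ?_⟩
  · obtain ⟨Hd, h1, h2⟩ := XIn.init_state h.ok h.nder
    refine ⟨_, by simp [XIn.ValidZ], Hd, fun _ => 0, h1.mono fun c hc => ?_, h2,
      fun a => ⟨Nat.succ_pos _, by simp⟩, rfl⟩
    have := h.ok.1
    simp only [XIn.Act, XIn.tchS, mem_insert, mem_filter, notMem_empty, false_and, exists_false,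
      filter_false, card_empty] at hc
    exact mem_singleton.2 (hc.resolve_right (by omega))
  · rintro Z Z' _ ⟨hV, Hd, τ, h1, h2, h3, rfl⟩ hZ
    exact ⟨fun a pos j ρ hu => hV a pos j ρ (hZ hu), Hd, τ, h1.mono (X.Act_mono B hZ), h2,
      fun a => ⟨(h3 a).1, fun pos j ρ hu => (h3 a).2 pos j ρ (hZ hu)⟩, rfl⟩
  · rintro Z _ ⟨hV, Hd, τ, h1, h2, h3, rfl⟩ hZ v hv
    have hZ : Z.card < X.w := hZ
    have hv' := XIn.validZ_of_occ h.ok hv
    have hV' : X.ValidZ (insert v Z) := fun a pos j ρ hu =>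
      (mem_insert.1 hu).elim (fun e => hv' a pos j ρ (mem_singleton.2 e)) (hV a pos j ρ)
    have hm := X.Act_mono B (subset_insert v Z)
    have hs := X.Act_subset B (insert v Z)
    have hc := XIn.card_Act_le h (Z := insert v Z) ((card_insert_le _ _).trans hZ)
    obtain ⟨Hd₁, a1, a2, a3⟩ := XIn.activate h hm hs hc (h0 _)
      (fun c hc hn => X.not_mem_Act (hs hc) hn) h1
    by_cases hb : ∃ a pos j ρ, v = .e a pos j ρ ∧ pos / X.r = τ a
    · obtain ⟨a, pos, j, ρ, rfl, hp⟩ := hb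
      obtain ⟨t', b1, b2⟩ := exists_mem_notMem_of_card_lt_card (t := range X.N)
        (s := insert (τ a) (Z.image fun u => match u with
          | .e _ pos _ _ => pos / X.r
          | _ => 0))
        ((card_insert_le _ _).trans_lt (by
          rw [card_range]; exact Nat.succ_lt_succ (card_image_le.trans_lt hZ)))
      rw [mem_insert, not_or] at b2
      have b3 : ∀ pos j ρ, XV.e a pos j ρ ∈ Z → pos / X.r ≠ t' := fun pos j ρ hu e =>
        b2.2 (mem_image.2 ⟨_, hu, e⟩)
      obtain ⟨Hd₂, c1, c2, c3⟩ := XIn.relocate h hs hc (h0 _) hZ hV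
        (fun c hc hn => X.not_mem_Act hc fun h' => hn (hm h')) a1 h3
        (hv' a pos j ρ (mem_singleton_self _)).1 (mem_range.1 b1) b3
      refine ⟨_, fun u hu => (c3 u hu).trans (a3 τ u hu), hV', Hd₂, _, c1, c2.trans (a2.trans h2),
        fun a' => ?_, rfl⟩
      by_cases ha : a' = a
      · subst ha
        rw [Function.update_self]
        refine ⟨mem_range.1 b1, fun pos' j' ρ' hu => (mem_insert.1 hu).elim (fun e => ?_) (b3 _ _ _)⟩
        cases e
        exact fun e => b2.1 (e.symm.trans hp)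
      · rw [Function.update_of_ne ha]
        refine ⟨(h3 a').1, fun pos' j' ρ' hu => (mem_insert.1 hu).elim (fun e => ?_) ((h3 a').2 _ _ _)⟩
        cases e
        exact (ha rfl).elim
    · exact ⟨_, a3 τ, hV', Hd₁, τ, a1, a2.trans h2, fun a => ⟨(h3 a).1, fun pos j ρ hu =>
        (mem_insert.1 hu).elim (fun e e' => hb ⟨a, pos, j, ρ, e.symm, e'⟩) ((h3 a).2 _ _ _)⟩, rfl⟩
  · rintro Z _ ⟨-, Hd, τ, h1, h2, h3, rfl⟩
    exact XIn.x_sat h.ok (h0 _) h1 h2 h3

end Crest.Agent.R290
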