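import Crest.Agent.R290.XDefs

/-!
# Row 290, task XNat: renaming the variables of a system to an initial segment of `ℕ`

Plan.  `idx v := (xvars cs).idxOf v` is injective on occurring variables, with inverse
`n ↦ (xvars cs)[n]`.
* `Cons.toNat`: `Good' Z Y := (∀ n ∈ Z, n < len) ∧ ∃ Y₀, Good (Z.image nth) Y₀ ∧ ∀ n ∈ Z, Y n = Y₀ (nth n)`.
* `Rigid.toNat`: from a family `Good` for `natCons cs` build
  `Good' Z Y := (∀ v ∈ Z, Occ cs v) ∧ ∃ Y₀, Good (Z.image idx) Y₀ ∧ ∀ v ∈ Z, Y v = Y₀ (idx v)`;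
  for the conclusion restrict to the singleton `{n}`.
* `solvable_of_cons`: extend from `∅` over all of `(xvars cs).toFinset`.
-/

set_option autoImplicit false

namespace Crest.Agent.R290

variable {α : Type} [DecidableEq α]

theorem mem_xvars (cs : List (α × α × α)) (v : α) : v ∈ xvars cs ↔ Occ cs v := by
  simp only [xvars, List.mem_dedup, List.mem_flatMap, List.mem_cons, List.not_mem_nil, or_false, Occ]

theorem occ_natCons (cs : List (α × α × α)) (n : ℕ) :
    Occ (natCons cs) n ↔ n < (xvars cs).length := by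
  have key : Occ (natCons cs) n ↔ ∃ v, Occ cs v ∧ n = (xvars cs).idxOf v := by
    simp only [Occ, natCons, List.mem_map]
    constructor
    · rintro ⟨_, ⟨c, hc, rfl⟩, h | h | h⟩
      · exact ⟨c.1, ⟨c, hc, .inl rfl⟩, h⟩
      · exact ⟨c.2.1, ⟨c, hc, .inr (.inl rfl)⟩, h⟩
      · exact ⟨c.2.2, ⟨c, hc, .inr (.inr rfl)⟩, h⟩
    · rintro ⟨v, ⟨c, hc, h⟩, rfl⟩
      refine ⟨_, ⟨c, hc, rfl⟩, ?_⟩
      rcases h with rfl | rfl | rfl <;> simp
  rw [key]
  constructor
  · rintro ⟨v, hv, rfl⟩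
    exact List.idxOf_lt_length_of_mem ((mem_xvars cs v).2 hv)
  · intro h
    exact ⟨(xvars cs)[n], (mem_xvars cs _).1 (List.getElem_mem h),
      ((List.nodup_dedup _).idxOf_getElem n h).symm⟩

namespace XNatAux

theorem len (cs : List (α × α × α)) : (natCons cs).length = cs.length := List.length_map _

theorem get' (cs : List (α × α × α)) (κ : ℕ) (h : κ < (natCons cs).length) :
    (natCons cs)[κ] = ((xvars cs).idxOf (cs[κ]'(len cs ▸ h)).1,
      (xvars cs).idxOf (cs[κ]'(len cs ▸ h)).2.1, (xvars cs).idxOf (cs[κ]'(len cs ▸ h)).2.2) :=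
  List.getElem_map _

omit [DecidableEq α] in
theorem occ3 (cs : List (α × α × α)) (κ : ℕ) (h : κ < cs.length) :
    Occ cs cs[κ].1 ∧ Occ cs cs[κ].2.1 ∧ Occ cs cs[κ].2.2 :=
  ⟨⟨_, List.getElem_mem h, .inl rfl⟩, ⟨_, List.getElem_mem h, .inr (.inl rfl)⟩,
    ⟨_, List.getElem_mem h, .inr (.inr rfl)⟩⟩

theorem nth_idx {cs : List (α × α × α)} (d : α) {v : α} (hv : Occ cs v) :
    (xvars cs).getD ((xvars cs).idxOf v) d = v := by
  have h := List.idxOf_lt_length_of_mem ((mem_xvars cs v).2 hv)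
  rw [List.getD_eq_getElem _ _ h, List.getElem_idxOf]

theorem occ_nth {cs : List (α × α × α)} (d : α) {n : ℕ} (hn : n < (xvars cs).length) :
    Occ cs ((xvars cs).getD n d) := by
  rw [List.getD_eq_getElem _ _ hn]
  exact (mem_xvars cs _).1 (List.getElem_mem hn)

/-- transport of consistent families along a renaming -/
theorem transport {β : Type} [DecidableEq β] {cs : List (α × α × α)} {ds : List (β × β × β)}
    {f : β → α} (hl : ds.length = cs.length) (hocc : ∀ v, Occ ds v → Occ cs (f v))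
    (hf : ∀ (κ : ℕ) (h : κ < ds.length), cs[κ]'(hl ▸ h) = (f ds[κ].1, f ds[κ].2.1, f ds[κ].2.2))
    {b : ZMod 2} {w : ℕ} {Good : Finset α → (α → ZMod 2) → Prop} (h : IsCons cs b w Good) :
    IsCons ds b w fun Z Y => (∀ v ∈ Z, Occ ds v) ∧
      ∃ Y₀, Good (Z.image f) Y₀ ∧ ∀ v ∈ Z, Y v = Y₀ (f v) := by
  refine ⟨?_, ?_, ?_, ?_⟩
  · obtain ⟨Y, hY⟩ := h.ne
    exact ⟨0, by simp, Y, by simpa using hY, by simp⟩
  · rintro Z Z' Y ⟨h1, Y₀, h2, h3⟩ hZ
    exact ⟨fun v hv => h1 v (hZ hv), Y₀, h.sub h2 (Finset.image_subset_image hZ),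
      fun v hv => h3 v (hZ hv)⟩
  · rintro Z Y ⟨h1, Y₀, h2, h3⟩ hc v hv
    obtain ⟨Y₁, e1, e2⟩ := h.ext h2 (Finset.card_image_le.trans_lt hc) (f v) (hocc v hv)
    refine ⟨fun u => Y₁ (f u), fun u hu => ?_, ?_, Y₁, by rwa [Finset.image_insert], fun _ _ => rfl⟩
    · exact (e1 _ (Finset.mem_image_of_mem f hu)).trans (h3 u hu).symm
    · intro u hu
      rcases Finset.mem_insert.1 hu with rfl | hu
      exacts [hv, h1 u hu]
  · rintro Z Y ⟨-, Y₀, h2, h3⟩ κ hκ m1 m2 m3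
    have := h.sat h2 κ (hl ▸ hκ)
    rw [hf κ hκ] at this
    rw [h3 _ m1, h3 _ m2, h3 _ m3]
    exact this (Finset.mem_image_of_mem f m1) (Finset.mem_image_of_mem f m2)
      (Finset.mem_image_of_mem f m3)

end XNatAux

open XNatAux

theorem Cons.toNat {cs : List (α × α × α)} {b : ZMod 2} {w : ℕ} (h : Cons cs b w) :
    Cons (natCons cs) b w := by
  obtain ⟨Good, h⟩ := h
  rcases cs with _ | ⟨⟨d, c⟩, cs⟩
  · exact ⟨fun _ _ => True, ⟨0, trivial⟩, fun _ _ => trivial,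
      fun _ _ v hv => by simp [Occ, natCons] at hv, fun _ κ hκ => by simp [natCons] at hκ⟩
  refine ⟨_, transport (f := fun n => (xvars ((d, c) :: cs)).getD n d) (len _)
    (fun v hv => occ_nth d ((occ_natCons _ _).1 hv)) (fun κ hκ => ?_) h⟩
  obtain ⟨o1, o2, o3⟩ := occ3 _ κ (len ((d, c) :: cs) ▸ hκ)
  simp only [get', nth_idx d o1, nth_idx d o2, nth_idx d o3]

theorem Rigid.toNat {cs : List (α × α × α)} {w : ℕ} (h : Rigid cs w) : Rigid (natCons cs) w := by
  intro b Good hG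
  obtain ⟨h1, h2⟩ := h b _ (transport (f := fun v => (xvars cs).idxOf v) (len cs).symm
    (fun v hv => (occ_natCons _ _).2 (List.idxOf_lt_length_of_mem ((mem_xvars cs v).2 hv)))
    (fun κ hκ => get' cs κ _) hG)
  refine ⟨h1, fun Z Y hZ n hn ho => ?_⟩
  have hl := (occ_natCons _ _).1 ho
  have e : (xvars cs).idxOf (xvars cs)[n] = n := (List.nodup_dedup _).idxOf_getElem n hl
  have o : Occ cs (xvars cs)[n] := (mem_xvars cs _).1 (List.getElem_mem hl)
  have := h2 {(xvars cs)[n]} (fun v => Y ((xvars cs).idxOf v)) ⟨by simpa using o, Y, by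
    rw [Finset.image_singleton, e]
    exact hG.sub hZ (Finset.singleton_subset_iff.2 hn), fun _ _ => rfl⟩ _
    (Finset.mem_singleton_self _) o
  rwa [e] at this

theorem Solvable.ofNat {cs : List (α × α × α)} {b : ZMod 2} (h : Solvable (natCons cs) b) :
    Solvable cs b := by
  obtain ⟨Y, hY⟩ := h
  refine ⟨fun v => Y ((xvars cs).idxOf v), fun κ hκ => ?_⟩
  have := hY κ ((len cs).symm ▸ hκ)
  rwa [get'] at this

theorem solvable_of_cons {cs : List (α × α × α)} {b : ZMod 2} (h : ∀ w, Cons cs b w) :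
    Solvable cs b := by
  obtain ⟨Good, hG⟩ := h ((xvars cs).toFinset.card)
  have key : ∀ Z : Finset α, Z ⊆ (xvars cs).toFinset → ∃ Y, Good Z Y := by
    intro Z
    induction Z using Finset.induction_on with
    | empty => exact fun _ => hG.ne
    | insert v Z hv ih =>
      intro hZ
      obtain ⟨Y, hY⟩ := ih ((Finset.subset_insert _ _).trans hZ)
      obtain ⟨Y', -, h'⟩ := hG.ext hY
        ((Finset.card_lt_card (Finset.ssubset_insert hv)).trans_le (Finset.card_le_card hZ)) v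
        ((mem_xvars cs v).1 (List.mem_toFinset.1 (hZ (Finset.mem_insert_self _ _))))
      exact ⟨Y', h'⟩
  obtain ⟨Y, hY⟩ := key _ subset_rfl
  refine ⟨Y, fun κ hκ => ?_⟩
  obtain ⟨o1, o2, o3⟩ := occ3 cs κ hκ
  exact hG.sat hY κ hκ (List.mem_toFinset.2 ((mem_xvars cs _).2 o1))
    (List.mem_toFinset.2 ((mem_xvars cs _).2 o2)) (List.mem_toFinset.2 ((mem_xvars cs _).2 o3))

end Crest.Agent.R290
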