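import Crest.Agent.R290.HDefs

/-!
# Row 290, task XSpoil: a derivable target forces everything; the system with `b = 1` is unsolvable

Plan for `x_rigid`.  Fix a consistent family `Good` of width `2s + 3`.  For `f : ℕ → XV` and `n` put
`Fz n f := ∀ Z Y, Good Z Y → (∀ j < n, f j ∈ Z) → ∑ j ∈ range n, Y (f j) = 0`.
* HYBRID LEMMA (generic): if for all `j < n` the triple `(f j, g j, h j)` is a constraint of `X.rest`
  (so all occur), `2n + 1 ≤` width, `Fz n f` and `Fz n g`, then `Fz n h`.  (Restrict to the image of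
  `h`, extend by the `g j`; then for `j = 0, …, n-1` extend by `f j` and drop `h j`:
  `Z_j = {h i | j ≤ i < n} ∪ {g i | i < n} ∪ {f i | i < j}` has `≤ 2n` elements and
  `∑_{i<j} (Y_j (f i) + Y_j (g i)) + ∑_{j≤i<n} Y_j (h i)` is constant; coincidences are harmless.)
* `ζ` is forced to `0` (`ζ + ζ + ζ = 0`), so `Fz n (fun _ => ζ)`.
* CHAIN: for a family `a` and residues `ρ j` with `(a, j, ρ j) ∈ chains` for `j < s`: if
  `Fz s (src a j (ρ j))` and `Fz s (grd a l' j (ρ j))` for all `l' < r`, then `Fz s (ev a pos j (ρ j))`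
  for all `pos ≤ N r`, in particular for `dst`.  The same with `n = 1` for a single real chain.
* wide chains: `Fz s (x q0 l j 0)` (extend along `y0v l j`, width `s + 2`), and
  `Fz s (x qf l j 0) →` `yf l s` is forced to `0` (width `s + 3`).
* induction on `Der`: `Der H q c → ∀ l < r, Fz s (fun j => x q l j (res j c))` (use `res_res_add`;
  a rule `r ∈ rules` is `rl i` for some `i < R`).
* so all `Ω l = yf l s` are forced to `0`; reset chains force all `x (sg qi) l j ρ`; then all variables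
  on all chains (guards are `x` variables of signals in `sigs`, or `Ω`), `μ`, `y0`, `yf` are forced to `0`
  one at a time; the first constraint gives `b = 0`.
Plan for `x_unsolv`.  For a solution `Y`: `Y ζ = 0`; along a reset chain
`Y (ev a pos j ρ) = ∑ l' < r, pv a pos l' * Y (Ω l')`, where
`pv a pos l' = if l' < pos % r then cp a (pos / r + 1) l' else cp a (pos / r) l'`; at `pos = N r` this
vanishes, so `Y (x qf l j 0) = 0`, hence `Y (yf 0 s) = 0 ≠ 1`.
-/

set_option autoImplicit false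
set_option linter.unusedSectionVars false

namespace Crest.Agent.R290

open Finset

namespace XSpoilA

section generic
variable {α : Type} [DecidableEq α] {cs : List (α × α × α)} {b : ZMod 2} {w : ℕ}
  {Good : Finset α → (α → ZMod 2) → Prop}

def Fz (Good : Finset α → (α → ZMod 2) → Prop) (n : ℕ) (f : ℕ → α) : Prop :=
  ∀ Z Y, Good Z Y → (∀ j < n, f j ∈ Z) → ∑ j ∈ range n, Y (f j) = 0

def F1 (Good : Finset α → (α → ZMod 2) → Prop) (v : α) : Prop :=
  ∀ Z Y, Good Z Y → v ∈ Z → Y v = 0

structure Con (cs : List (α × α × α)) (Good : Finset α → (α → ZMod 2) → Prop) (a b c : α) :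
    Prop where
  o1 : Occ cs a
  o2 : Occ cs b
  o3 : Occ cs c
  eq : ∀ Z Y, Good Z Y → a ∈ Z → b ∈ Z → c ∈ Z → Y a + Y b + Y c = 0

theorem Con.symm {a b c : α} (h : Con cs Good a b c) : Con cs Good c b a :=
  ⟨h.o3, h.o2, h.o1, fun Z Y hg h1 h2 h3 => by rw [← h.eq Z Y hg h3 h2 h1]; ring⟩

theorem F1_iff (v : α) : F1 Good v ↔ Fz Good 1 fun _ => v := by
  simp [F1, Fz]

theorem F1.fz {v : α} (h : F1 Good v) (n : ℕ) : Fz Good n fun _ => v :=
  fun Z Y hg hv => sum_eq_zero fun j hj => h Z Y hg (hv j (mem_range.1 hj))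

theorem ext_many (hG : IsCons cs b w Good) {Z : Finset α} {Y : α → ZMod 2} (hg : Good Z Y)
    (S : Finset α) (hS : ∀ v ∈ S, Occ cs v) (hc : (Z ∪ S).card ≤ w) :
    ∃ Y', (∀ u ∈ Z, Y' u = Y u) ∧ Good (Z ∪ S) Y' := by
  induction S using Finset.induction_on with
  | empty => exact ⟨Y, fun _ _ => rfl, by simpa using hg⟩
  | insert v S hv ih =>
    rw [union_insert] at hc ⊢
    obtain ⟨Y', h1, h2⟩ := ih (fun u hu => hS u (mem_insert_of_mem hu))
      ((card_le_card (subset_insert _ _)).trans hc)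
    by_cases hz : v ∈ Z ∪ S
    · exact ⟨Y', h1, by rwa [insert_eq_of_mem hz]⟩
    · rw [card_insert_of_notMem hz] at hc
      obtain ⟨Y'', h3, h4⟩ := hG.ext h2 hc v (hS v (mem_insert_self _ _))
      exact ⟨Y'', fun u hu => (h3 u (mem_union_left _ hu)).trans (h1 u hu), h4⟩

theorem walk (hG : IsCons cs b w Good) (n : ℕ) (Z : ℕ → Finset α)
    (φ : ℕ → (α → ZMod 2) → ZMod 2) (v : ℕ → α)
    (hdep : ∀ j < n, ∀ Y Y', (∀ u ∈ Z j, Y' u = Y u) → φ j Y' = φ j Y)
    (hocc : ∀ j < n, Occ cs (v j)) (hcard : ∀ j < n, (Z j).card < w)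
    (hsub : ∀ j < n, Z (j + 1) ⊆ insert (v j) (Z j))
    (hstep : ∀ j < n, ∀ Y, Good (insert (v j) (Z j)) Y → φ (j + 1) Y = φ j Y)
    {Y : α → ZMod 2} (hY : Good (Z 0) Y) : ∃ Y', Good (Z n) Y' ∧ φ n Y' = φ 0 Y := by
  have : ∀ j ≤ n, ∃ Y', Good (Z j) Y' ∧ φ j Y' = φ 0 Y := by
    intro j
    induction j with
    | zero => exact fun _ => ⟨Y, hY, rfl⟩
    | succ j ih =>
      intro hj
      obtain ⟨Y', h1, h2⟩ := ih (by omega)
      obtain ⟨Y'', h3, h4⟩ := hG.ext h1 (hcard j hj) _ (hocc j hj)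
      exact ⟨Y'', hG.sub h4 (hsub j hj), by rw [hstep j hj _ h4, hdep j hj _ _ h3, h2]⟩
  exact this n le_rfl

theorem z2 {x y z : ZMod 2} (h : x + y + z = 0) : x + y = z := by
  revert x y z; decide

theorem hybrid (hG : IsCons cs b w Good) {n : ℕ} (hn : 2 * n + 1 ≤ w) {f g h : ℕ → α}
    (hc : ∀ j < n, Con cs Good (f j) (g j) (h j)) (hf : Fz Good n f) (hg : Fz Good n g) :
    Fz Good n h := by
  intro Z Y hY hZ
  have c1 : ∀ k : ℕ → α, ((range n).image k ∪ (range n).image g).card ≤ 2 * n := fun k =>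
    (card_union_le _ _).trans (by
      have := card_image_le (s := range n) (f := k)
      have := card_image_le (s := range n) (f := g)
      rw [card_range] at *
      omega)
  obtain ⟨Y1, h1, h2⟩ := ext_many hG (hG.sub hY (Z' := (range n).image h) (by
      intro v hv
      obtain ⟨j, hj, rfl⟩ := mem_image.1 hv
      exact hZ j (mem_range.1 hj))) ((range n).image g) (by
      intro v hv
      obtain ⟨j, hj, rfl⟩ := mem_image.1 hv
      exact (hc j (mem_range.1 hj)).o2) ((c1 h).trans (by omega))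
  obtain ⟨Y2, h3, h4⟩ := walk hG n
    (fun j => (range n).image (fun i => if i < j then f i else h i) ∪ (range n).image g)
    (fun j Y => ∑ i ∈ range n, if i < j then Y (f i) + Y (g i) else Y (h i)) f
    (fun j _ Y Y' hY => sum_congr rfl fun i hi => by
      have a1 := hY _ (mem_union_left _ (mem_image_of_mem _ hi))
      have a2 := hY _ (mem_union_right _ (mem_image_of_mem _ hi))
      split_ifs at a1 ⊢
      · rw [a1, a2]
      · exact a1)
    (fun j hj => (hc j hj).o1) (fun j _ => (c1 _).trans_lt (by omega))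
    (fun j _ v hv => by
      rcases mem_union.1 hv with hv | hv
      · obtain ⟨i, hi, rfl⟩ := mem_image.1 hv
        by_cases e : i = j
        · simp [e]
        · refine mem_insert_of_mem (mem_union_left _ (mem_image.2 ⟨i, hi, ?_⟩))
          simp only [show i < j + 1 ↔ i < j by omega]
      · exact mem_insert_of_mem (mem_union_right _ hv))
    (fun j hj Y hY => sum_congr rfl fun i hi => by
      by_cases e : i = j
      · subst e
        rw [if_pos (by omega), if_neg (by omega)]
        refine z2 ((hc i hj).eq _ Y hY (mem_insert_self _ _)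
          (mem_insert_of_mem (mem_union_right _ (mem_image_of_mem _ hi)))
          (mem_insert_of_mem (mem_union_left _ (mem_image.2 ⟨i, hi, by simp⟩))))
      · simp only [show i < j + 1 ↔ i < j by omega])
    (Y := Y1) (by simpa using h2)
  have e1 := hf _ _ h3 fun j hj => mem_union_left _ (mem_image.2 ⟨j, mem_range.2 hj, by simp [hj]⟩)
  have e2 := hg _ _ h3 fun j hj => mem_union_right _ (mem_image_of_mem _ (mem_range.2 hj))
  rw [sum_congr rfl fun i hi => if_pos (mem_range.1 hi), sum_add_distrib, e1, e2] at h4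
  simp only [Nat.not_lt_zero, if_false, add_zero] at h4
  rw [h4]
  exact sum_congr rfl fun i hi => (h1 _ (mem_image_of_mem _ hi)).symm

theorem single (hG : IsCons cs b w Good) (hn : 3 ≤ w) {a b c : α}
    (hc : Con cs Good a b c) (hf : F1 Good a) (hg : F1 Good b) : F1 Good c :=
  (F1_iff c).2 (hybrid hG (n := 1) hn (fun _ _ => hc) (hf.fz 1) (hg.fz 1))

theorem wide (hG : IsCons cs b w Good) {n : ℕ} (hn : n + 2 ≤ w) {y x : ℕ → α}
    (hc : ∀ j < n, Con cs Good (y j) (x j) (y (j + 1))) (hf : F1 Good (y n))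
    {Y : α → ZMod 2} (hY : Good (insert (y 0) ((range n).image x)) Y) :
    Y (y 0) + ∑ j ∈ range n, Y (x j) = 0 := by
  obtain ⟨Y2, h3, h4⟩ := walk hG n (fun j => insert (y j) ((range n).image x))
    (fun j Y => Y (y j) + ∑ i ∈ Ico j n, Y (x i)) (fun j => y (j + 1))
    (fun j _ Y Y' hY => by
      rw [hY _ (mem_insert_self _ _), sum_congr rfl fun i hi => hY _ (mem_insert_of_mem
        (mem_image_of_mem _ (mem_range.2 (mem_Ico.1 hi).2)))])
    (fun j hj => (hc j hj).o3)
    (fun j _ => (card_insert_le _ _).trans_lt (by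
      have := card_image_le (s := range n) (f := x)
      rw [card_range] at this
      omega))
    (fun j _ => insert_subset_insert _ (subset_insert _ _))
    (fun j hj Y hY => by
      rw [sum_eq_sum_Ico_succ_bot hj, ← add_assoc, z2 ((hc j hj).eq _ Y hY
        (mem_insert_of_mem (mem_insert_self _ _)) (mem_insert_of_mem (mem_insert_of_mem
          (mem_image_of_mem _ (mem_range.2 hj)))) (mem_insert_self _ _))]) hY
  rw [range_eq_Ico, ← h4, hf _ _ h3 (mem_insert_self _ _)]
  simp

end generic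

open XIn

variable {X : XIn} {b : ZMod 2} {Good : Finset XV → (XV → ZMod 2) → Prop}

theorem con_of (hG : IsCons X.cons b (2 * X.s + 3) Good) {u v w : XV} (h : (u, v, w) ∈ X.rest) :
    Con X.cons Good u v w :=
  have hm : (u, v, w) ∈ X.cons := List.mem_cons_of_mem _ h
  ⟨⟨_, hm, .inl rfl⟩, ⟨_, hm, .inr (.inl rfl)⟩, ⟨_, hm, .inr (.inr rfl)⟩,
    fun _ _ hg => ((sat_cons _ _ _ _ _).1 (hG.sat hg)).2 _ h⟩

theorem zz (hG : IsCons X.cons b (2 * X.s + 3) Good) : Con X.cons Good .zeta .zeta .zeta :=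
  con_of hG ((X.mem_rest _).2 (.inl rfl))

theorem z3 {x : ZMod 2} (h : x + x + x = 0) : x = 0 := by
  revert x; decide

theorem zeta0 (hG : IsCons X.cons b (2 * X.s + 3) Good) : F1 Good .zeta :=
  fun Z Y hg hz => z3 ((zz hG).eq Z Y hg hz hz hz)

theorem chain (h : X.Ok) (hG : IsCons X.cons b (2 * X.s + 3) Good) {n : ℕ} (hn : n ≤ X.s + 1)
    (a : Fam) (jj ρ : ℕ → ℕ) (hm : ∀ i < n, (a, jj i, ρ i) ∈ X.chains)
    (hs : Fz Good n fun i => src a (jj i) (ρ i))
    (hg : ∀ l < X.r, Fz Good n fun i => X.grd a l (jj i) (ρ i)) :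
    ∀ pos ≤ X.N * X.r, Fz Good n fun i => X.ev a pos (jj i) (ρ i) := by
  intro pos
  induction pos with
  | zero => intro _; simpa [ev] using hs
  | succ pos ih =>
    intro hp
    refine hybrid hG (by omega) (fun i hi => con_of hG ((X.mem_rest _).2
      (.inr (.inr (.inr ⟨a, jj i, ρ i, hm i hi, pos, hp, rfl⟩))))) (ih (by omega)) ?_
    unfold gv
    split_ifs
    · exact (zeta0 hG).fz n
    · exact hg _ (Nat.mod_lt _ (by have := h.two_le_r; omega))

theorem ev_end (h : X.Ok) (a : Fam) (j ρ : ℕ) : X.ev a (X.N * X.r) j ρ = X.dst a j ρ := by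
  have : X.N * X.r ≠ 0 := by
    have := h.two_le_r
    unfold N; positivity
  simp [ev, this]

theorem con_y0 (hG : IsCons X.cons b (2 * X.s + 3) Good) {l j : ℕ} (hl : l < X.r) (hj : j < X.s) :
    Con X.cons Good (X.y0v l j) (.x X.H.q0 l j 0) (X.y0v l (j + 1)) :=
  con_of hG ((X.mem_rest _).2 (.inr (.inl ⟨l, hl, j, hj, rfl⟩)))

theorem con_yf (hG : IsCons X.cons b (2 * X.s + 3) Good) {l j : ℕ} (hl : l < X.r) (hj : j < X.s) :
    Con X.cons Good (yfv l j) (.x X.H.qf l j 0) (yfv l (j + 1)) :=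
  con_of hG ((X.mem_rest _).2 (.inr (.inr (.inl ⟨l, hl, j, hj, rfl⟩))))

theorem card_ins {n : ℕ} (v : XV) (x : ℕ → XV) : (insert v ((range n).image x)).card ≤ n + 1 :=
  (card_insert_le _ _).trans (by
    have := card_image_le (s := range n) (f := x)
    rw [card_range] at this
    omega)

theorem fz_q0 (hG : IsCons X.cons b (2 * X.s + 3) Good) {l : ℕ} (hl : l < X.r) :
    Fz Good X.s fun j => .x X.H.q0 l j 0 := by
  intro Z Y hY hZ
  have hc := card_ins (n := X.s) .zeta fun j => .x X.H.q0 l j 0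
  obtain ⟨Y1, h1, h2⟩ := ext_many hG
    (hG.sub hY (Z' := (range X.s).image fun j => .x X.H.q0 l j 0) (by
      intro v hv
      obtain ⟨j, hj, rfl⟩ := mem_image.1 hv
      exact hZ j (mem_range.1 hj))) {.zeta} (by simpa using (zz hG).o1) (by
      rw [union_singleton]; omega)
  rw [union_singleton] at h2
  have := wide hG (n := X.s) (by omega) (y := X.y0v l) (fun j hj => con_y0 hG hl hj)
    (by simpa [y0v] using zeta0 hG) (Y := Y1) (by simpa [y0v] using h2)
  rw [show X.y0v l 0 = .zeta by simp [y0v], zeta0 hG _ _ h2 (mem_insert_self _ _), zero_add] at this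
  rw [← this]
  exact sum_congr rfl fun i hi => (h1 _ (mem_image_of_mem _ hi)).symm

theorem f1_om (h : X.Ok) (hG : IsCons X.cons b (2 * X.s + 3) Good) {l : ℕ} (hl : l < X.r)
    (hf : Fz Good X.s fun j => .x X.H.qf l j 0) : F1 Good (.yf l X.s) := by
  intro Z Y hY hZ
  have hc := card_ins (n := X.s) (.yf l X.s) fun j => .x X.H.qf l (X.s - 1 - j) 0
  obtain ⟨Y1, h1, h2⟩ := ext_many hG (hG.sub hY (Z' := {.yf l X.s}) (by simpa using hZ))
    ((range X.s).image fun j => .x X.H.qf l (X.s - 1 - j) 0) (by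
      intro v hv
      obtain ⟨j, hj, rfl⟩ := mem_image.1 hv
      exact (con_yf hG hl (by have := mem_range.1 hj; omega)).o2) (by
      rw [← insert_eq]; omega)
  rw [← insert_eq] at h2
  have e0 : yfv l X.s = .yf l X.s := by simp [yfv, h.1.ne']
  have := wide hG (n := X.s) (by omega) (y := fun j => yfv l (X.s - j))
    (x := fun j => .x X.H.qf l (X.s - 1 - j) 0) (fun j hj => by
      have := (con_yf hG hl (j := X.s - 1 - j) (by omega)).symm
      rw [show X.s - 1 - j + 1 = X.s - j by omega] at this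
      rwa [show X.s - (j + 1) = X.s - 1 - j by omega])
    (by simpa [yfv] using zeta0 hG) (Y := Y1) (by simpa [e0] using h2)
  rw [sum_range_reflect (fun j => Y1 (.x X.H.qf l j 0)), hf _ _ h2 (fun j hj =>
    mem_insert_of_mem (mem_image.2 ⟨X.s - 1 - j, mem_range.2 (by omega), by
      rw [show X.s - 1 - (X.s - 1 - j) = j by omega]⟩)), add_zero, Nat.sub_zero, e0] at this
  rw [← h1 _ (mem_singleton_self _), this]

theorem fz_der (h : X.Ok) (hG : IsCons X.cons b (2 * X.s + 3) Good) {q : Sg} {c : ℤ}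
    (hd : Der X.H q c) : ∀ l < X.r, Fz Good X.s fun j => .x q l j (X.res j c) := by
  induction hd with
  | init => intro l hl; simpa only [res_zero] using fz_q0 hG hl
  | @rule r c hr _ _ ih1 ih2 =>
    intro l hl
    obtain ⟨i, hi, rfl⟩ := List.getElem_of_mem hr
    have e : X.H.rules[i] = X.rl i := (List.getD_eq_getElem _ _ hi).symm
    rw [e] at ih1 ih2 ⊢
    have a1 := chain h hG (n := X.s) (by omega) (.rule i false l) id (fun j => X.res j c)
      (fun j hj => (X.mem_chains_rule _ _ _ _ _).2 ⟨hi, hl, hj, h.res_lt _ _⟩)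
      ((zeta0 hG).fz _) (fun l' hl' => by simpa only [grd, id, h.res_res_add] using ih1 l' hl')
      _ le_rfl
    simp only [ev_end h] at a1
    have a2 := chain h hG (n := X.s) (by omega) (.rule i true l) id (fun j => X.res j c)
      (fun j hj => (X.mem_chains_rule _ _ _ _ _).2 ⟨hi, hl, hj, h.res_lt _ _⟩)
      a1 (fun l' hl' => by simpa only [grd, id, h.res_res_add] using ih2 l' hl')
      _ le_rfl
    simp only [ev_end h] at a2
    exact a2

theorem chain1 (h : X.Ok) (hG : IsCons X.cons b (2 * X.s + 3) Good) {a : Fam} {j ρ : ℕ}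
    (hm : (a, j, ρ) ∈ X.chains) (hs : F1 Good (src a j ρ))
    (hg : ∀ l < X.r, F1 Good (X.grd a l j ρ)) : ∀ pos ≤ X.N * X.r, F1 Good (X.ev a pos j ρ) :=
  fun pos hp => (F1_iff _).2 (chain h hG (n := 1) (by omega) a (fun _ => j) (fun _ => ρ)
    (fun _ _ => hm) (hs.fz 1) (fun l hl => (hg l hl).fz 1) pos hp)

end XSpoilA

open XSpoilA XIn

theorem x_rigid {X : XIn} (h : X.Ok) (hd : Der X.H X.H.qf 0) : Rigid X.cons (2 * X.s + 3) := by
  intro b Good hG
  have hr := h.two_le_r
  have hz := zeta0 hG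
  have hΩ : ∀ l < X.r, F1 Good (.yf l X.s) := fun l hl =>
    f1_om h hG hl (by simpa only [res_zero] using fz_der h hG hd l hl)
  have hx : ∀ q ∈ X.sigs, ∀ l < X.r, ∀ j < X.s, ∀ ρ < X.p j, F1 Good (.x q l j ρ) := by
    intro q hq l hl j hj ρ hρ
    obtain ⟨i, hi, rfl⟩ := List.getElem_of_mem hq
    have := chain1 h hG ((X.mem_chains_reset i l j ρ j ρ).2 ⟨hi, hl, hj, hρ, rfl, rfl⟩) hz hΩ
      _ le_rfl
    rwa [ev_end h, dst, sg, List.getD_eq_getElem _ _ hi] at this
  have hrl : ∀ i < X.R, (X.rl i).in1 ∈ X.sigs ∧ (X.rl i).in2 ∈ X.sigs := by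
    intro i hi
    have : X.rl i ∈ X.H.rules := by
      rw [rl, List.getD_eq_getElem _ _ hi]; exact List.getElem_mem hi
    constructor <;>
      exact List.mem_cons_of_mem _ (List.mem_cons_of_mem _ (List.mem_flatMap.2 ⟨_, this, by simp⟩))
  have hg : ∀ a j ρ, (a, j, ρ) ∈ X.chains → ∀ l < X.r, F1 Good (X.grd a l j ρ) := by
    rintro (⟨i, part, l⟩ | ⟨qi, l, j0, ρ0⟩) j ρ hm l' hl'
    · obtain ⟨h1, -, h3, -⟩ := (X.mem_chains_rule _ _ _ _ _).1 hm
      cases part
      · exact hx _ (hrl i h1).1 _ hl' _ h3 _ (h.res_lt _ _)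
      · exact hx _ (hrl i h1).2 _ hl' _ h3 _ (h.res_lt _ _)
    · exact hΩ l' hl'
  have hs : ∀ a j ρ, (a, j, ρ) ∈ X.chains → F1 Good (src a j ρ) := by
    rintro (⟨i, part, l⟩ | ⟨qi, l, j0, ρ0⟩) j ρ hm
    · cases part
      · exact hz
      · have hm' := (X.mem_chains_rule i false l j ρ).2 ((X.mem_chains_rule _ _ _ _ _).1 hm)
        have := chain1 h hG hm' hz (hg _ _ _ hm') _ le_rfl
        rwa [ev_end h] at this
    · exact hz
  have hq0 : X.H.q0 ∈ X.sigs := by simp [sigs]
  have hqf : X.H.qf ∈ X.sigs := by simp [sigs]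
  have hy0 : ∀ l < X.r, ∀ j ≤ X.s, F1 Good (X.y0v l j) := by
    intro l hl j
    induction j with
    | zero => intro _; simpa [y0v] using hz
    | succ j ih =>
      intro hj
      exact single hG (by omega) (con_y0 hG hl hj) (ih (by omega)) (hx _ hq0 l hl j hj 0 (h.2 j))
  have hyf : ∀ l < X.r, ∀ j ≤ X.s, F1 Good (yfv l j) := by
    intro l hl j
    induction j with
    | zero => intro _; simpa [yfv] using hz
    | succ j ih =>
      intro hj
      exact single hG (by omega) (con_yf hG hl hj) (ih (by omega)) (hx _ hqf l hl j hj 0 (h.2 j))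
  have hall : ∀ c ∈ X.cons, F1 Good c.1 ∧ F1 Good c.2.1 ∧ F1 Good c.2.2 := by
    intro c hc
    rcases List.mem_cons.1 hc with rfl | hc
    · exact ⟨hΩ 0 (by omega), hz, hz⟩
    rcases (X.mem_rest c).1 hc with rfl | ⟨l, hl, j, hj, rfl⟩ | ⟨l, hl, j, hj, rfl⟩ |
      ⟨a, j, ρ, hm, pos, hp, rfl⟩
    · exact ⟨hz, hz, hz⟩
    · exact ⟨hy0 l hl j hj.le, hx _ hq0 l hl j hj 0 (h.2 j), hy0 l hl _ hj⟩
    · exact ⟨hyf l hl j hj.le, hx _ hqf l hl j hj 0 (h.2 j), hyf l hl _ hj⟩
    · have := chain1 h hG hm (hs _ _ _ hm) (hg _ _ _ hm)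
      refine ⟨this _ hp.le, ?_, this _ hp⟩
      simp only [gv]
      split_ifs
      · exact hz
      · exact hg _ _ _ hm _ (Nat.mod_lt _ (by omega))
  refine ⟨?_, ?_⟩
  · obtain ⟨Y, hY⟩ := hG.ne
    obtain ⟨Y', -, h2⟩ := ext_many hG hY {.yf 0 X.s, .zeta} (by
      intro v hv
      refine ⟨_, List.mem_cons_self, ?_⟩
      simp only [mem_insert, mem_singleton] at hv
      tauto) (by
      rw [empty_union]
      exact card_le_two.trans (by omega))
    have := ((sat_cons _ _ _ _ _).1 (hG.sat h2)).1 (by simp) (by simp) (by simp)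
    rw [hΩ 0 (by omega) _ _ h2 (by simp), hz _ _ h2 (by simp)] at this
    simpa using this.symm
  · rintro Z Y hY v hv ⟨c, hc, rfl | rfl | rfl⟩
    · exact (hall c hc).1 Z Y hY hv
    · exact (hall c hc).2.1 Z Y hY hv
    · exact (hall c hc).2.2 Z Y hY hv

theorem x_unsolv {X : XIn} (h : X.Ok) : ¬ Solvable X.cons 1 := by
  intro hs
  obtain ⟨Y, h1, h2⟩ := (solvable_cons _ _ _).1 hs
  have hr := h.two_le_r
  have hz : Y .zeta = 0 := z3 (h2 _ ((X.mem_rest _).2 (.inl rfl)))
  have hx : ∀ j < X.s, Y (.x X.H.qf 0 j 0) = 0 := by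
    intro j hj
    set a := Fam.reset 1 0 j 0
    have hm : (a, j, 0) ∈ X.chains :=
      (X.mem_chains_reset _ _ _ _ _ _).2 ⟨by simp [sigs], by omega, hj, h.2 j, rfl, rfl⟩
    have key : ∀ pos ≤ X.N * X.r, Y (X.ev a pos j 0) = ∑ l ∈ range X.r,
        (if l < pos % X.r then X.cp a (pos / X.r + 1) l else X.cp a (pos / X.r) l) *
          Y (.yf l X.s) := by
      intro pos
      induction pos with
      | zero => intro _; simp [ev, a, src, hz, cp]
      | succ pos ih =>
        intro hp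
        have e := z2 (h2 _ ((X.mem_rest _).2 (.inr (.inr (.inr ⟨a, j, 0, hm, pos, hp, rfl⟩)))))
        simp only at e
        have hlt : pos % X.r < X.r := Nat.mod_lt _ (by omega)
        have eg : Y (X.gv a pos j 0) = ∑ l ∈ range X.r, (if l = pos % X.r then
            X.cp a (pos / X.r) l + X.cp a (pos / X.r + 1) l else 0) * Y (.yf l X.s) := by
          simp only [ite_mul, zero_mul, sum_ite_eq', mem_range, hlt, if_true, gv]
          split_ifs with hc
          · rw [hz, hc, CharTwo.add_self_eq_zero, zero_mul]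
          · have : ∀ u v : ZMod 2, u ≠ v → u + v = 1 := by decide
            rw [this _ _ hc, one_mul]; rfl
        rw [← e, ih (by omega), eg, ← sum_add_distrib]
        refine sum_congr rfl fun l hl => ?_
        rw [← add_mul]
        congr 1
        have hl := mem_range.1 hl
        have c2 : ∀ u v : ZMod 2, u + (u + v) = v := by decide
        by_cases hw : pos % X.r + 1 < X.r
        · have e1 : (pos + 1) % X.r = pos % X.r + 1 := by
            rw [← Nat.mod_add_mod, Nat.mod_eq_of_lt hw]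
          have e2 : (pos + 1) / X.r = pos / X.r := by
            apply Nat.succ_div_of_mod_ne_zero; omega
          rw [e1, e2]
          split_ifs <;> first | omega | simp [c2]
        · have e1 : (pos + 1) % X.r = 0 := by
            rw [← Nat.mod_add_mod, show pos % X.r + 1 = X.r by omega, Nat.mod_self]
          have e2 : (pos + 1) / X.r = pos / X.r + 1 := Nat.succ_div_of_mod_eq_zero e1
          rw [e1, e2]
          split_ifs <;> first | omega | simp [c2]
    have := key _ le_rfl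
    rw [ev_end h, Nat.mul_mod_left, Nat.mul_div_cancel _ (by omega)] at this
    simpa [a, dst, sg, sigs, cp] using this
  have hy : ∀ j ≤ X.s, Y (yfv 0 j) = 0 := by
    intro j
    induction j with
    | zero => intro _; simpa [yfv] using hz
    | succ j ih =>
      intro hj
      have := h2 _ ((X.mem_rest _).2 (.inr (.inr (.inl ⟨0, by omega, j, hj, rfl⟩))))
      simpa [ih (by omega), hx j hj] using this
  have := hy _ le_rfl
  simp only [yfv, h.1.ne', if_false] at this
  simp [this, hz] at h1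

end Crest.Agent.R290
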