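import Crest.Agent.R290.WLGame
import Crest.Agent.R290.WLSim
import Crest.Agent.R290.Pad
import Crest.Agent.R290.XNat
import Crest.Agent.R290.GBasic
import Crest.Agent.R290.GGame
import Crest.Agent.R290.GSim
import Crest.Agent.R290.XSpoil
import Crest.Agent.R290.XDup
import Crest.Agent.R290.FHorn
import Crest.Agent.R290.Primes
import Crest.Agent.R290.PTHorn
import Crest.Agent.R290.PTX
import Crest.Agent.R290.PTG

/-!
# Row 290: the pipeline from a flat machine and an input to a pair of graphs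
-/

set_option autoImplicit false

namespace Crest.Agent.R290

open Crest.Agent.PTime Crest.WLRefine

/-- input of the pipeline: code, number of stacks, input, `m`, `s` -/
abbrev PIn : Type := FCode × U × List Bool × U × U

/-- width of a row of the tableau -/
def pW (z : PIn) : ℕ := z.2.2.2.1.val ^ (z.2.2.2.2.val / 600)
/-- input of layer X -/
def pX (z : PIn) : XIn := ⟨fhorn z.1 z.2.1.val z.2.2.1 (pW z), prs z.2.2.2.1.val z.2.2.2.2.val⟩
/-- number of variables -/
def pnv (z : PIn) : ℕ := (xvars (pX z).cons).length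
/-- the XOR system on `ℕ` -/
def pcs (z : PIn) : List (ℕ × ℕ × ℕ) := natCons (pX z).cons
/-- number of vertices -/
def pN (z : PIn) : ℕ := gN (pnv z) (pcs z)
/-- the two graphs -/
def pF (z : PIn) (b : Bool) : ℕ → ℕ → Bool := gF (pnv z) (pcs z) (bz b)

/-- the machine halts early enough, and accepts iff `acc` -/
def PGood (z : PIn) (acc : Prop) : Prop :=
  FWF z.1 z.2.1.val ∧ 5 ≤ z.2.2.2.1.val ∧ 1 ≤ z.2.2.2.2.val ∧ ∃ T,
    z.1.length ≤ (frun z.1 z.2.1.val z.2.2.1 T).1 ∧ z.2.2.1.length + T + 2 ≤ pW z ∧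
      ((frun z.1 z.2.1.val z.2.2.1 T).1 = z.1.length ↔ acc)

theorem pX_s (z : PIn) : (pX z).s = z.2.2.2.2.val := prs_length _ _

theorem pX_ok {z : PIn} (h : 1 ≤ z.2.2.2.2.val) : (pX z).Ok :=
  ⟨by rw [pX_s]; omega, fun j => prs_pos _ _ j⟩

theorem p_gok (z : PIn) : GOk (pnv z) (pcs z) := by
  refine ⟨?_, occ_natCons _⟩
  have : XV.zeta ∈ xvars (pX z).cons :=
    (mem_xvars _ _).2 ⟨_, List.mem_cons_self, .inr (.inl rfl)⟩
  exact List.length_pos_of_mem this

theorem p_promise (z : PIn) (b : Bool) : SimpleConnSubcubic (mat (pN z) (pF z b)) :=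
  g_promise (p_gok z) _

theorem p_deg (z : PIn) (b : Bool) (i : Fin (pN z)) :
    1 ≤ deg (mat (pN z) (pF z b)) i ∧ deg (mat (pN z) (pF z b)) i ≤ 3 := deg_mat_gF (p_gok z) _ i

theorem p_five (z : PIn) : 5 ≤ pN z := five_le_gN (p_gok z)

theorem p_sim_cons {z : PIn} {b : Bool} {k : ℕ} (hk : 4 ≤ k)
    (h : Sim k (mat (pN z) (pF z false)) (mat (pN z) (pF z b))) : Cons (pcs z) (bz b) k := by
  refine g_sim (p_gok z) hk (h.transport (gE _ _).symm (gE _ _).symm (fun x y => ?_) fun x y => ?_)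
  · have := mat_gF (pnv z) (pcs z) 0 ((gE _ _).symm x) ((gE _ _).symm y)
    simp only [Equiv.apply_symm_apply] at this
    exact this.symm
  · have := mat_gF (pnv z) (pcs z) (bz b) ((gE _ _).symm x) ((gE _ _).symm y)
    simp only [Equiv.apply_symm_apply] at this
    exact this.symm

theorem p_rigid {z : PIn} {acc : Prop} (h : PGood z acc) (ha : acc) {k : ℕ}
    (hk : 2 * z.2.2.2.2.val + 3 ≤ k) : Rigid (pcs z) k := by
  obtain ⟨h1, h2, h3, T, h4, h5, h6⟩ := h
  have h7 := (fhorn_spec h1 h4 h5).2.2 (h6.2 ha)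
  exact ((x_rigid (pX_ok h3) h7).toNat).mono (by rw [pX_s]; exact hk)

theorem p_not_sim {z : PIn} {acc : Prop} (h : PGood z acc) (ha : acc) {k : ℕ}
    (hk : 2 * z.2.2.2.2.val + 3 ≤ k) :
    ¬ Sim k (mat (pN z) (pF z false)) (mat (pN z) (pF z true)) := fun hs => by
  have h3 := h.2.2.1
  obtain ⟨G, hG⟩ := p_sim_cons (by omega) hs
  exact absurd (p_rigid h ha hk _ G hG).1 (by decide)

theorem p_discrete {z : PIn} {acc : Prop} (h : PGood z acc) (ha : acc) {k : ℕ}
    (hk : 2 * z.2.2.2.2.val + 3 ≤ k) : Discrete k (mat (pN z) (pF z false)) := by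
  have h3 := h.2.2.1
  refine (g_discrete (p_gok z) (by omega) (p_rigid h ha hk)).transport (gE _ _).symm fun x y => ?_
  have := mat_gF (pnv z) (pcs z) 0 ((gE _ _).symm x) ((gE _ _).symm y)
  simp only [Equiv.apply_symm_apply] at this
  exact this.symm

theorem p_game {z : PIn} {acc : Prop} (h : PGood z acc) (ha : ¬ acc) {K : ℕ}
    (hK : 3 * K ≤ 7 * z.2.2.2.2.val) :
    Game K (mat (pN z) (pF z false)) (mat (pN z) (pF z true)) := by
  obtain ⟨h1, h2, h3, T, h4, h5, h6⟩ := h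
  obtain ⟨h7, h8⟩ := fhorn_spec h1 h4 h5
  have hd : (pX z).DOk (pW z * pW z) (2 * (z.2.2.2.2.val / 600)) := by
    refine ⟨pX_ok h3, h7, prs_sep ?_, by rw [pX_s]; omega, fun hd => ha (h6.1 (h8.1 hd))⟩
    have h9 : 0 < pW z * pW z := by have : 0 < pW z := by omega
                                    positivity
    have h10 : pW z * pW z = z.2.2.2.1.val ^ (2 * (z.2.2.2.2.val / 600)) := by
      rw [pW, ← pow_add, two_mul]
    rw [pow_succ, ← h10]
    nlinarith
  have hc : Cons (pcs z) 1 (3 * K) := ((x_cons hd).toNat).mono (by rw [pX_s]; exact hK)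
  refine (g_game (p_gok z) hc).transport (gE _ _).symm (gE _ _).symm (fun x y => ?_) fun x y => ?_
  · have := mat_gF (pnv z) (pcs z) 0 ((gE _ _).symm x) ((gE _ _).symm y)
    simp only [Equiv.apply_symm_apply] at this
    exact this
  · have := mat_gF (pnv z) (pcs z) 1 ((gE _ _).symm x) ((gE _ _).symm y)
    simp only [Equiv.apply_symm_apply] at this
    exact this

theorem p_not_iso {z : PIn} (h : 1 ≤ z.2.2.2.2.val) :
    ¬ AdjIso (mat (pN z) (pF z false)) (mat (pN z) (pF z true)) := fun hi => by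
  have h5 := p_five z
  refine x_unsolv (pX_ok h) (Solvable.ofNat (solvable_of_cons fun w => ?_))
  exact (p_sim_cons (k := max w 4) (le_max_right _ _) (adjIso_sim hi (by omega) _)).mono
    (le_max_left _ _)

/-! ## polynomial time -/

variable {α : Type} [Enc α]

theorem PT.pXcons {z : α → PIn} (h : PT z) : PT (fun a => (pX (z a)).cons) := by
  have hW : PT (fun a => pW (z a)) := by unfold pW; fun_prop
  refine PT.xcons (by fun_prop) (by fun_prop) ?_
  exact PB.mono (g := fun a => (z a).2.2.2.2.val * (2 * ((z a).2.2.2.1.val + (z a).2.2.2.2.val + 2) ^ 2))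
    (by fun_prop) fun a => prs_sum_le _ _

theorem PT.pcs {z : α → PIn} (h : PT z) : PT (fun a => pcs (z a)) := PT.natCons (PT.pXcons h)

theorem PT.pnv {z : α → PIn} (h : PT z) : PT (fun a => pnv (z a)) ∧ PB (fun a => pnv (z a)) :=
  ⟨(PT.xvars (PT.pXcons h)).length, PB.length (PT.xvars (PT.pXcons h))⟩

theorem PT.pN {z : α → PIn} (h : PT z) : PT (fun a => pN (z a)) ∧ PB (fun a => pN (z a)) :=
  PT.gN (PT.pnv h).1 (PT.pnv h).2 (PT.pcs h)

theorem PT.pF {z : α → PIn} {b : α → Bool} {i j : α → ℕ} (h : PT z) (hb : PT b) (hi : PT i)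
    (hj : PT j) : PT (fun a => pF (z a) (b a) (i a) (j a)) :=
  PT.gF (PT.pnv h).1 (PT.pnv h).2 (PT.pcs h) hb hi hj

theorem PT.pcode {z : α → PIn} (h : PT z) (b : Bool) :
    PT (fun a => R290.codeF (R290.pN (z a)) (R290.pF (z a) b)) :=
  PT.codeF (PT.pN h).1 (PT.pN h).2
    (PT.pF (z := fun p : α × ℕ × ℕ => z p.1) (by fun_prop) (by fun_prop) (by fun_prop) (by fun_prop))

theorem PT.padcode {z : α → PIn} {n : α → ℕ} (h : PT z) (hn : PT n) (hb : PB n) (b : Bool) :
    PT (fun a => R290.codeF (n a) (R290.padF (R290.pN (z a)) (R290.pF (z a) b))) :=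
  PT.codeF hn hb (PT.padF (N := fun p : α × ℕ × ℕ => R290.pN (z p.1))
    (f := fun p : α × ℕ × ℕ => R290.pF (z p.1) b)
    (PT.pN (z := fun p : α × ℕ × ℕ => z p.1) (by fun_prop)).1
    (PT.pF (z := fun p : (α × ℕ × ℕ) × ℕ × ℕ => z p.1.1) (by fun_prop) (by fun_prop) (by fun_prop)
      (by fun_prop)) (by fun_prop) (by fun_prop))

end Crest.Agent.R290
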