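import Crest.Agent.R290.USim
import Crest.Prelude.Def_WordRAM

/-!
# Row 290, task RAM: a universal simulator for word-RAM programs (random stream `0`)

Plan.  Code an instruction as `(opcode, x, y, z) : ℕ × ℕ × ℕ × ℕ`; the parameter is
`(numRegs : U, c₀ : U, code)`.  State: `(code, w, pc, halted, regs : List ℕ, mem : List (ℕ × ℕ))` with
`w : U` (or `2 ^ w` in binary together with `w`), the memory an association list (newest first;
lookup by `List.find?`, default `0`), initially `(i, aᵢ % 2 ^ w)`.  `w = c₀ * Nat.clog 2 (n + 2)`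
(`Nat.clog 2 (n + 2) = (n + 1).size`).  Bitwise operations via `PT.ser` or `zipWith` on padded bit
lists; shifts are `* 2 ^ min b w`, `/ 2 ^ min b w`.  `acc`: register `0` is `1` and the cell at
register `1` is `1` (`output = [1]`).  For `grow` keep an invariant for *all* states reachable from
any `init z` (registers and cells `< 2 ^ w`, addresses `< 2 ^ w` or `<` input length, `pc` bounded by
the largest jump target plus the number of steps); reducing all results modulo `2 ^ w` in the
simulator makes this easy, the reductions being harmless on runs.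
-/

set_option autoImplicit false

namespace Crest.Agent.R290

open Crest.Agent.PTime Crest.WordRAM

/-- coded instruction -/
abbrev RI : Type := ℕ × ℕ × ℕ × ℕ
/-- fixed part of the state: code, word length, input -/
abbrev RF : Type := List RI × U × List ℕ
/-- variable part: counter, flag, registers, memory -/
abbrev RV : Type := ℕ × Bool × List (ℕ × ℕ) × List (ℕ × ℕ)

def rlk (l : List (ℕ × ℕ)) (d k : ℕ) : ℕ := ((l.find? fun p => p.1 == k).map fun p => p.2).getD d

theorem rlk_cons (a v : ℕ) (l : List (ℕ × ℕ)) (d k : ℕ) :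
    rlk ((a, v) :: l) d k = if k = a then v else rlk l d k := by
  by_cases h : k = a
  · simp [rlk, h]
  · simp [rlk, h, Ne.symm h]

def rbw (o : Bool → Bool → Bool) (w A B : ℕ) : ℕ :=
  ofBits ((List.range w).map fun i => o (decide (A / 2 ^ i % 2 = 1)) (decide (B / 2 ^ i % 2 = 1)))

theorem testBit_ofBits (l : List Bool) (i : ℕ) : (ofBits l).testBit i = l.getD i false := by
  induction l generalizing i with
  | nil => simp [ofBits]
  | cons b l ih =>
    change (Nat.bit b (ofBits l)).testBit i = _
    cases i with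
    | zero => simp
    | succ i => rw [Nat.testBit_bit_succ, ih]; simp

theorem rbw_eq {o : Bool → Bool → Bool} (ho : o false false = false) {w A B : ℕ} (hA : A < 2 ^ w)
    (hB : B < 2 ^ w) : rbw o w A B = Nat.bitwise o A B := by
  refine Nat.eq_of_testBit_eq fun i => ?_
  rw [rbw, testBit_ofBits, Nat.testBit_bitwise ho]
  rcases lt_or_ge i w with h | h
  · simp [List.getD_eq_getElem?_getD, List.getElem?_range h, Nat.testBit_eq_decide_div_mod_eq]
  · have h2 := Nat.pow_le_pow_right (n := 2) (by norm_num) h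
    rw [List.getD_eq_default _ _ (by simpa using h), Nat.testBit_eq_false_of_lt (hA.trans_le h2),
      Nat.testBit_eq_false_of_lt (hB.trans_le h2), ho]

def rmem (F : RF) (mem : List (ℕ × ℕ)) (k : ℕ) : ℕ := rlk mem (F.2.2.getD k 0 % 2 ^ F.2.1.val) k

def rval (w op z A B M : ℕ) : ℕ :=
  if op = 0 then z else if op = 1 then A else if op = 2 then A + B else if op = 3 then A - B
  else if op = 4 then A * B else if op = 5 then A / B else if op = 6 then A % B
  else if op = 7 then rbw and w A B else if op = 8 then rbw or w A B else if op = 9 then rbw bne w A B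
  else if op = 10 then (if B < w then A * 2 ^ min B w else 0)
  else if op = 11 then (if B < w then A / 2 ^ min B w else 0)
  else if op = 12 then M else 0

def rexec (F : RF) (v : RV) (op x z A B : ℕ) : RV :=
  if op ≤ 13 then
    (v.1 + 1, false, (x, rval F.2.1.val op z A B (rmem F v.2.2.2 A) % 2 ^ F.2.1.val) :: v.2.2.1, v.2.2.2)
  else if op = 14 then (v.1 + 1, false, v.2.2.1, (B % 2 ^ F.2.1.val, A % 2 ^ F.2.1.val) :: v.2.2.2)
  else if op = 19 then (v.1, true, v.2.2)
  else (if op = 15 ∨ (op = 16 ∧ A = 0) ∨ (op = 17 ∧ A = B) ∨ (op = 18 ∧ A < B) then x else v.1 + 1,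
    false, v.2.2)

def rexec' (F : RF) (v : RV) (i : RI) : RV :=
  rexec F v i.1 i.2.1 i.2.2.2 (rlk v.2.2.1 0 i.2.2.1) (rlk v.2.2.1 0 i.2.2.2)

def rstep (s : RF × RV) : RF × RV :=
  if s.2.2.1 = true then s else if s.1.1.length ≤ s.2.1 then (s.1, s.2.1, true, s.2.2.2)
  else (s.1, rexec' s.1 s.2 (s.1.1.getD s.2.1 (0, 0, 0, 0)))

def racc (s : RF × RV) : Bool :=
  decide (rlk s.2.2.2.1 0 0 = 1 ∧ rmem s.1 s.2.2.2.2 (rlk s.2.2.2.1 0 1) = 1)

def rinit (z : (Bool × U × List RI) × U × List Bool) : RF × RV :=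
  ((z.1.2.2, ⟨z.1.2.1.val * (z.2.1.val + 1).size⟩, z.2.2.map fun b => if b then 1 else 0), 0, false,
    if z.1.1 = true then [(0, z.2.2.length % 2 ^ (z.1.2.1.val * (z.2.1.val + 1).size))] else [], [])

section pt

variable {α : Type} [Enc α]

@[fun_prop] theorem PT.rlk {l : α → List (ℕ × ℕ)} {d k : α → ℕ} (hl : PT l) (hd : PT d) (hk : PT k) :
    PT (fun a => rlk (l a) (d a) (k a)) := by
  unfold R290.rlk; fun_prop

theorem PT.rbw (o : Bool → Bool → Bool) {w A B : α → ℕ} (hw : PT w) (hb : PB w) (hA : PT A) (hB : PT B) :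
    PT (fun a => rbw o (w a) (A a) (B a)) := by
  unfold R290.rbw
  refine PT.ofBits (PT.map_range hw hb ?_)
  exact PT.bool3 (fun x y _ => o x y) (h := fun _ => false) (by fun_prop) (by fun_prop) (PT.const _)

@[fun_prop] theorem PT.rmem {F : α → RF} {m : α → List (ℕ × ℕ)} {k : α → ℕ} (hF : PT F) (hm : PT m)
    (hk : PT k) : PT (fun a => rmem (F a) (m a) (k a)) := by
  unfold R290.rmem; fun_prop

@[fun_prop] theorem PT.rval {w op z A B M : α → ℕ} (hw : PT w) (hb : PB w) (h1 : PT op) (h2 : PT z)
    (hA : PT A) (hB : PT B) (hM : PT M) : PT (fun a => rval (w a) (op a) (z a) (A a) (B a) (M a)) := by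
  have a1 := PT.rbw and hw hb hA hB
  have a2 := PT.rbw or hw hb hA hB
  have a3 := PT.rbw bne hw hb hA hB
  have a4 : PT (fun a => 2 ^ min (B a) (w a)) := PT.pow (PT.const 2) (hB.min hw) (PB.min_right hb)
  have e : ∀ c : ℕ, PT (fun a => op a = c) := fun c => h1.eq (PT.const c)
  unfold R290.rval
  exact (e 0).ite h2 <| (e 1).ite hA <| (e 2).ite (hA.add hB) <| (e 3).ite (hA.sub hB) <|
    (e 4).ite (hA.mul hB) <| (e 5).ite (hA.div hB) <| (e 6).ite (hA.mod hB) <| (e 7).ite a1 <|
    (e 8).ite a2 <| (e 9).ite a3 <| (e 10).ite ((hB.lt hw).ite (hA.mul a4) (PT.const 0)) <|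
    (e 11).ite ((hB.lt hw).ite (hA.div a4) (PT.const 0)) <| (e 12).ite hM (PT.const 0)

@[fun_prop] theorem PT.rexec {F : α → RF} {v : α → RV} {op x z A B : α → ℕ} (hF : PT F) (hv : PT v)
    (h1 : PT op) (h2 : PT x) (h3 : PT z) (hA : PT A) (hB : PT B) :
    PT (fun a => rexec (F a) (v a) (op a) (x a) (z a) (A a) (B a)) := by
  unfold R290.rexec; fun_prop

end pt

theorem pt_rstep : PT rstep := by
  have : PT (fun s : RF × RV => rexec' s.1 s.2 (s.1.1.getD s.2.1 (0, 0, 0, 0))) := by
    unfold rexec'; fun_prop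
  unfold rstep; fun_prop

theorem pt_racc : PT racc := by unfold racc; fun_prop

theorem pt_rinit : PT rinit := by unfold rinit; fun_prop

theorem rstep_fst (s : RF × RV) : (rstep s).1 = s.1 := by
  unfold rstep; split_ifs <;> rfl

theorem sz_rstep (s : RF × RV) : sz (rstep s) ≤ sz s + (10 * sz s.1 + 10) := by
  obtain ⟨⟨code, w, inp⟩, pc, h, regs, mem⟩ := s
  have b1 := sz_bool true
  have b2 := sz_bool false
  unfold rstep
  split_ifs with h1 h2
  · omega
  · simp only [sz_prod]; omega
  · have h3 : pc < code.length := not_le.mp h2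
    have h4 : sz (pc + 1) ≤ 4 * sz code + 1 :=
      (sz_le_self _).trans (by have := length_le_sz code; omega)
    have h5 : sz (code.getD pc (0, 0, 0, 0)) < sz code := by
      rw [List.getD_eq_getElem _ _ h3]
      exact sz_mem (List.getElem_mem h3)
    have h6 : ∀ x : ℕ, sz (x % 2 ^ w.val) ≤ 2 * sz w := fun x =>
      (sz_le_of_lt (Nat.mod_lt _ (Nat.two_pow_pos _))).trans (by rw [sz_U]; omega)
    generalize code.getD pc (0, 0, 0, 0) = i at h5
    obtain ⟨op, x, y, z⟩ := i
    simp only [sz_prod] at h5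
    simp only [rexec', rexec]
    split_ifs
    · have := h6 (rval w.val op z (rlk regs 0 y) (rlk regs 0 z) (rmem (code, w, inp) mem (rlk regs 0 y)))
      simp only [sz_prod, sz_cons]; omega
    · have := h6 (rlk regs 0 y)
      have := h6 (rlk regs 0 z)
      simp only [sz_prod, sz_cons]; omega
    all_goals simp only [sz_prod]; omega

theorem sz_rstep_iter (s : RF × RV) (i : ℕ) :
    (rstep^[i] s).1 = s.1 ∧ sz (rstep^[i] s) ≤ sz s + i * (10 * sz s.1 + 10) := by
  induction i with
  | zero => simp
  | succ i ih =>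
    rw [Function.iterate_succ_apply', rstep_fst]
    have := sz_rstep (rstep^[i] s)
    rw [ih.1] at this
    exact ⟨ih.1, by rw [add_mul]; omega⟩

/-- the code of an instruction -/
def cI {r : ℕ} : Instr r → RI
  | .const d v => (0, d, 0, v)
  | .copy d s => (1, d, s, 0)
  | .add d a b => (2, d, a, b)
  | .sub d a b => (3, d, a, b)
  | .mul d a b => (4, d, a, b)
  | .quot d a b => (5, d, a, b)
  | .rem d a b => (6, d, a, b)
  | .and d a b => (7, d, a, b)
  | .or d a b => (8, d, a, b)
  | .xor d a b => (9, d, a, b)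
  | .shl d a b => (10, d, a, b)
  | .shr d a b => (11, d, a, b)
  | .load d a => (12, d, a, 0)
  | .rand d => (13, d, 0, 0)
  | .store s a => (14, 0, s, a)
  | .jump l => (15, l, 0, 0)
  | .jumpIfZero a l => (16, l, a, 0)
  | .jumpIfEq a b l => (17, l, a, b)
  | .jumpIfLt a b l => (18, l, a, b)
  | .halt => (19, 0, 0, 0)

structure RRel {r : ℕ} (F : RF) (v : RV) (c : Cfg r) : Prop where
  pc : v.1 = c.pc
  halted : v.2.1 = c.halted
  regs : ∀ k, rlk v.2.2.1 0 k = c.reg k
  mem : ∀ k, rmem F v.2.2.2 k = c.mem k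
  wr : ∀ j, c.regs j < 2 ^ F.2.1.val
  wm : ∀ k, c.mem k < 2 ^ F.2.1.val

theorem RRel.reg {r : ℕ} {F : RF} {v : RV} {c : Cfg r} (h : RRel F v c) (j : Fin r) :
    rlk v.2.2.1 0 j = c.regs j := by
  rw [h.regs, Cfg.reg, dif_pos j.2]

theorem RRel.next {r : ℕ} {F : RF} {v : RV} {c : Cfg r} (h : RRel F v c) (hc : c.halted = false) (d : Fin r)
    {x y : ℕ} (hx : x % 2 ^ F.2.1.val = y) (n : ℕ) :
    RRel F (v.1 + 1, false, (d.val, x % 2 ^ F.2.1.val) :: v.2.2.1, v.2.2.2)
      { c with pc := c.pc + 1, regs := writeReg c.regs d y, drawn := n } := by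
  refine ⟨congrArg (· + 1) h.pc, hc.symm, fun k => ?_, h.mem, fun j => ?_, h.wm⟩
  · simp only [rlk_cons, h.regs, Cfg.reg, writeReg, hx]
    by_cases hk : k < r
    · simp only [hk, dif_pos, Fin.ext_iff]
    · rw [dif_neg hk, dif_neg hk, if_neg (by have := d.2; omega)]
  · simp only [writeReg]
    split_ifs
    · rw [← hx]; exact Nat.mod_lt _ (Nat.two_pow_pos _)
    · exact h.wr j

theorem RRel.jump {r : ℕ} {F : RF} {v : RV} {c : Cfg r} (h : RRel F v c) (p : ℕ) {b : Bool} :
    RRel F (p, b, v.2.2) { c with pc := p, halted := b } :=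
  ⟨rfl, rfl, h.regs, h.mem, h.wr, h.wm⟩

theorem RRel.step {P : Program} {w : ℕ} {inp : List ℕ} {v : RV} {c : Cfg P.numRegs}
    (h : RRel (P.code.map cI, ⟨w⟩, inp) v c) :
    RRel (P.code.map cI, ⟨w⟩, inp) (rstep ((P.code.map cI, ⟨w⟩, inp), v)).2 (step P w (fun _ => 0) c) := by
  unfold rstep WordRAM.step
  simp only [h.halted, h.pc, List.length_map]
  split_ifs with h1 h2
  · exact h
  · rw [List.getElem?_eq_none h2]
    exact h.jump _
  · have h3 : c.pc < P.code.length := not_le.mp h2
    have hc : c.halted = false := by simpa using h1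
    have hw : ∀ j, c.regs j < 2 ^ w := h.wr
    have hm : ∀ {x y : ℕ}, x ≤ y → y < 2 ^ w → x % 2 ^ w = x := fun a b => Nat.mod_eq_of_lt (a.trans_lt b)
    rw [List.getD_eq_getElem _ _ (by simpa using h3), List.getElem_map, List.getElem?_eq_getElem h3]
    generalize P.code[c.pc] = i
    cases i with
    | const d x => exact h.next hc d rfl _
    | copy d a => exact h.next hc d (by simp only [cI, rval, h.reg]; exact hm le_rfl (hw a)) _
    | add d a b => exact h.next hc d (by simp only [cI, rval, h.reg]; rfl) _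
    | sub d a b => exact h.next hc d (by simp only [cI, rval, h.reg]; exact hm (Nat.sub_le _ _) (hw a)) _
    | mul d a b => exact h.next hc d (by simp only [cI, rval, h.reg]; rfl) _
    | quot d a b => exact h.next hc d (by simp only [cI, rval, h.reg]; exact hm (Nat.div_le_self _ _) (hw a)) _
    | rem d a b => exact h.next hc d (by simp only [cI, rval, h.reg]; exact hm (Nat.mod_le _ _) (hw a)) _
    | and d a b =>
      refine h.next hc d ?_ _
      simp only [cI, rval, h.reg, rbw_eq (o := and) rfl (hw a) (hw b)]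
      exact hm Nat.and_le_left (hw a)
    | or d a b =>
      refine h.next hc d ?_ _
      simp only [cI, rval, h.reg, rbw_eq (o := or) rfl (hw a) (hw b)]
      exact hm le_rfl (Nat.or_lt_two_pow (hw a) (hw b))
    | xor d a b =>
      refine h.next hc d ?_ _
      simp only [cI, rval, h.reg, rbw_eq (o := bne) rfl (hw a) (hw b)]
      exact hm le_rfl (Nat.xor_lt_two_pow (hw a) (hw b))
    | shl d a b =>
      refine h.next hc d ?_ _
      by_cases hb : c.regs b < w
      · simp [cI, rval, h.reg, hb, hb.le, Nat.shiftLeft_eq]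
      · simp [cI, rval, h.reg, hb]
    | shr d a b =>
      refine h.next hc d ?_ _
      by_cases hb : c.regs b < w
      · simp [cI, rval, h.reg, hb, hb.le, Nat.shiftRight_eq_div_pow, hm (Nat.div_le_self _ _) (hw a)]
      · simp [cI, rval, h.reg, hb]
    | load d a => exact h.next hc d (by simp only [cI, rval, h.reg, h.mem]; exact hm le_rfl (h.wm _)) _
    | rand d => exact h.next hc d rfl _
    | store a b =>
      simp only [cI, rexec', rexec, h.reg, hm le_rfl (hw _)]
      refine ⟨congrArg (· + 1) h.pc, hc.symm, h.regs, fun k => ?_, h.wr, fun k => ?_⟩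
      · have := h.mem k
        simp only [rmem] at this
        simp only [rmem, writeMem, ← this]
        exact rlk_cons _ _ _ _ _
      · simp only [writeMem]
        split_ifs
        exacts [hw a, h.wm k]
    | jump l => simpa [cI, rexec', rexec, hc] using h.jump l (b := false)
    | jumpIfZero a l => simpa [cI, rexec', rexec, hc, h.reg, h.pc] using h.jump _ (b := false)
    | jumpIfEq a b l => simpa [cI, rexec', rexec, hc, h.reg, h.pc] using h.jump _ (b := false)
    | jumpIfLt a b l => simpa [cI, rexec', rexec, hc, h.reg, h.pc] using h.jump _ (b := false)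
    | halt => simpa [cI, rexec', rexec, h.pc] using h.jump c.pc (b := true)

theorem clog_eq_size (n : ℕ) : Nat.clog 2 (n + 2) = (n + 1).size :=
  eq_of_forall_ge_iff fun k => by
    rw [Nat.clog_le_iff_le_pow (by norm_num), Nat.size_le]; rfl

theorem RRel.output {r : ℕ} {F : RF} {v : RV} {c : Cfg r} (h : RRel F v c) :
    racc (F, v) = true ↔ c.output = [1] := by
  simp only [racc, decide_eq_true_eq, h.regs, h.mem, Cfg.output]
  constructor
  · rintro ⟨h1, h2⟩
    simp [h1, h2]
  · intro h1
    have h2 : c.reg 0 = 1 := by simpa using congrArg List.length h1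
    simpa [h2] using h1

theorem exists_ram_usim : ∃ (A σ : Type) (_ : Enc A) (_ : Enc σ) (S : USim A σ),
    ∀ (P : Program) (c₀ : ℕ), ∃ a : A, ∀ (n : ℕ) (y : List Bool) (t : ℕ),
      S.done (S.run a n y t) =
        (run P (c₀ * Nat.clog 2 (n + 2)) (fun _ => 0) (y.map fun b => if b then 1 else 0) t).halted ∧
      (S.acc (S.run a n y t) = true ↔
        (run P (c₀ * Nat.clog 2 (n + 2)) (fun _ => 0) (y.map fun b => if b then 1 else 0) t).output
          = [1]) := by
  refine ⟨Bool × U × List RI, RF × RV, inferInstance, inferInstance,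
    ⟨rinit, rstep, fun s => s.2.2.1, racc, pt_rinit, pt_rstep, by fun_prop, pt_racc,
      fun c h => if_pos h, ?_⟩, fun P c₀ => ⟨(decide (0 < P.numRegs), ⟨c₀⟩, P.code.map cI), fun n y t => ?_⟩⟩
  · obtain ⟨q, hq⟩ := pt_rinit.pb_sz
    refine ⟨q + Polynomial.X * (10 * q + 10), fun z i => (sz_rstep_iter _ i).2.trans ?_⟩
    have h1 : sz (rinit z) ≤ _ := (hq z).trans (eval_mono q (Nat.le_add_right (sz z) i))
    have h2 : sz (rinit z).1 ≤ sz (rinit z) := by rw [sz_prod (rinit z)]; omega
    simp only [Polynomial.eval_add, Polynomial.eval_mul, Polynomial.eval_X, Polynomial.eval_ofNat]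
    exact Nat.add_le_add h1 (Nat.mul_le_mul (Nat.le_add_left _ _) (by omega))
  · rw [clog_eq_size]
    simp only [USim.run, run]
    generalize hs : rinit _ = s
    generalize hw : c₀ * (n + 1).size = w
    generalize hi : (y.map fun b => if b then 1 else 0) = inp
    have hF : s.1 = (P.code.map cI, ⟨w⟩, inp) := by rw [← hs, ← hw, ← hi]; rfl
    have h0 : RRel (P.code.map cI, ⟨w⟩, inp) s.2 (init P w inp) := by
      have hp := Nat.two_pow_pos w
      have hl : inp.length = y.length := by rw [← hi, List.length_map]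
      rw [← hs]
      refine ⟨rfl, rfl, fun k => ?_, fun k => ?_, fun j => ?_, fun k => Nat.mod_lt _ hp⟩
      · simp only [rinit, hw, Cfg.reg, init, hl, decide_eq_true_eq]
        split_ifs with h1 h2 h3 h4 h5 h6
        any_goals first | omega | rfl
        all_goals rw [rlk_cons]
        · rw [if_pos h3]
        · rw [if_neg h3]; rfl
        · rw [if_neg (by omega)]; rfl
      · simp [rinit, rmem, rlk, init]
      · simp only [init]
        split_ifs
        exacts [Nat.mod_lt _ hp, hp]
    have key : RRel (P.code.map cI, ⟨w⟩, inp) (rstep^[t] s).2 ((step P w fun _ => 0)^[t] (init P w inp)) := by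
      induction t with
      | zero => exact h0
      | succ t ih =>
        rw [Function.iterate_succ_apply', Function.iterate_succ_apply']
        have := ih.step
        rwa [← hF, ← (sz_rstep_iter s t).1, Prod.mk.eta, (sz_rstep_iter s t).1, hF] at this
    refine ⟨key.halted, ?_⟩
    rw [← key.output, ← hF, ← (sz_rstep_iter s t).1]

end Crest.Agent.R290
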