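import Crest.Agent.R290.Refine
import Crest.Agent.R290.Codes

/-!
# Row 290, task RefJ: deciding `JEquiv` and `CREquiv` on padded inputs

Plan.  `jdec`: guard all sizes by `min · K`.  Items `x < 2 n^k`: `x < n^k` is the tuple of base-`n`
digits of `x` in the first graph (`finFunctionFinEquiv`, digit `i` is `x / n^i % n`), `n^k + x` the same
tuple in the second graph.  Signature of the item: for `z < n` the vector over `i < k` of the items
`x - digit * n^i + z * n^i` (plus the offset).  Initial colour: the index of the first item with the same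
atomic type (a list of bits), or `ofBits` of that list.  True colours `tc s x` = `jcolor` of the tuple
(any default outside the range); vectors `Fin k → _` versus lists: `List.ofFn_injective`.
`crdec`: items `x < 2 n`, signature: the singletons `[w]` for the neighbours `w`, initial colour `0`.
-/

set_option autoImplicit false

namespace Crest.Agent.R290

open Crest.Agent.PTime Crest.WLRefine

section generic

variable {I J : Type} [DecidableEq I] [DecidableEq J]

/-- refinement on an explicit list of items: the two sublists have the same final histogram -/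
def rjHist (its : List I) (sgI : I → List (List I)) (c0 : I → J) (l l' : List I) : Prop :=
  (l.map fun a => (refineAll (its.map fun a => (sgI a).map fun v => v.map fun b => its.idxOf b)
      (its.map fun a => (its.map c0).idxOf (c0 a))).getD (its.idxOf a) 0).Perm
    (l'.map fun a => (refineAll (its.map fun a => (sgI a).map fun v => v.map fun b => its.idxOf b)
      (its.map fun a => (its.map c0).idxOf (c0 a))).getD (its.idxOf a) 0)

theorem PT.rjHist {α : Type} [Enc α] [Enc I] [EncInj I] [Enc J] [EncInj J] {its l l' : α → List I}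
    {sgI : α → I → List (List I)} {c0 : α → I → J} (h1 : PT its) (h2 : PT fun p : α × I => sgI p.1 p.2)
    (h3 : PT fun p : α × I => c0 p.1 p.2) (h4 : PT l) (h5 : PT l') :
    PT fun a => rjHist (its a) (sgI a) (c0 a) (l a) (l' a) := by
  have hsg : PT fun z => (its z).map fun a => (sgI z a).map fun v => v.map fun b => (its z).idxOf b :=
    PT.map (PT.map (PT.map (PT.idxOf (by fun_prop) (h1.comp (by fun_prop))) (by fun_prop)) h2) h1
  have hc : PT fun z => (its z).map fun a => ((its z).map (c0 z)).idxOf (c0 z a) :=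
    PT.map (PT.idxOf h3 ((PT.map h3 h1).comp (by fun_prop))) h1
  have hr := PT.refineAll hsg hc
  have key : PT fun p : α × I => (R290.refineAll ((its p.1).map fun a => (sgI p.1 a).map fun v => v.map fun b =>
      (its p.1).idxOf b) ((its p.1).map fun a => ((its p.1).map (c0 p.1)).idxOf (c0 p.1 a))).getD
        ((its p.1).idxOf p.2) 0 :=
    PT.getD (PT.idxOf (by fun_prop) (h1.comp (by fun_prop))) (hr.comp (g := Prod.fst) (by fun_prop)) (PT.const 0)
  exact PT.perm (PT.map key h4) (PT.map key h5)

theorem rjHist_iff {V : Type} {C : ℕ → Type} (cd : V → I) (hcd : Function.Injective cd) (vs : List V)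
    (hvs : ∀ v, v ∈ vs) (sgI : I → List (List I)) (c0 : I → J) (sgV : V → List (List V))
    (hsg : ∀ v, sgI (cd v) = (sgV v).map fun w => w.map cd) (tc : (s : ℕ) → V → C s)
    (h0 : ∀ v w, tc 0 v = tc 0 w ↔ c0 (cd v) = c0 (cd w))
    (hs : ∀ s v w, tc (s + 1) v = tc (s + 1) w ↔ tc s v = tc s w ∧
      ((sgV v).map fun u => u.map (tc s)).Perm ((sgV w).map fun u => u.map (tc s))) (l l' : List V) :
    rjHist (vs.map cd) sgI c0 (l.map cd) (l'.map cd) ↔ ∀ s, (l.map (tc s)).Perm (l'.map (tc s)) := by
  rcases isEmpty_or_nonempty V with hV | ⟨⟨v₀⟩⟩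
  · obtain rfl : l = [] := List.eq_nil_iff_forall_not_mem.2 fun a => isEmptyElim a
    obtain rfl : l' = [] := List.eq_nil_iff_forall_not_mem.2 fun a => isEmptyElim a
    simp [rjHist]
  have hlt : ∀ v, (vs.map cd).idxOf (cd v) < vs.length := fun v => by
    simpa using List.idxOf_lt_length_iff.2 (List.mem_map_of_mem (f := cd) (hvs v))
  have hget : ∀ v, vs.getD ((vs.map cd).idxOf (cd v)) v₀ = v := fun v => by
    apply hcd
    have := List.getElem_idxOf (List.idxOf_lt_length_iff.2 (List.mem_map_of_mem (f := cd) (hvs v)))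
    rw [List.getElem_map] at this
    rw [List.getD_eq_getElem _ _ (hlt v), this]
  have h := refineAll_hist (fun s x => tc s (vs.getD x v₀))
    ((vs.map cd).map fun a => (sgI a).map fun v => v.map fun b => (vs.map cd).idxOf b)
    ((vs.map cd).map fun a => ((vs.map cd).map c0).idxOf (c0 a)) ?_ ?_ ?_
    (l := l.map fun v => (vs.map cd).idxOf (cd v)) (l' := l'.map fun v => (vs.map cd).idxOf (cd v)) ?_ ?_
  · simpa only [rjHist, List.map_map, Function.comp_def, hget] using h
  · intro a ha v hv z hz
    simp only [List.map_map, List.mem_map, Function.comp_def, hsg] at ha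
    obtain ⟨x, -, rfl⟩ := ha
    obtain ⟨w, -, rfl⟩ := List.mem_map.1 hv
    obtain ⟨y, -, rfl⟩ := List.mem_map.1 hz
    simpa using hlt y
  · intro x hx y hy
    simp only [List.length_map] at hx hy
    rw [List.getD_eq_getElem _ _ hx, List.getD_eq_getElem _ _ hy, List.getD_eq_getElem _ _ (by simpa using hx),
      List.getD_eq_getElem _ _ (by simpa using hy), h0]
    simp only [List.getElem_map]
    exact (List.idxOf_inj (List.mem_map_of_mem (List.mem_map_of_mem (hvs _)))).symm
  · intro s x hx y hy
    simp only [List.length_map] at hx hy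
    rw [List.getD_eq_getElem _ _ hx, List.getD_eq_getElem _ _ hy, List.getD_eq_getElem _ _ (by simpa using hx),
      List.getD_eq_getElem _ _ (by simpa using hy), hs]
    simp only [List.getElem_map, hsg, List.map_map, Function.comp_def, hget]
  · intro x hx
    obtain ⟨y, -, rfl⟩ := List.mem_map.1 hx
    simpa using hlt y
  · intro x hx
    obtain ⟨y, -, rfl⟩ := List.mem_map.1 hx
    simpa using hlt y

end generic

/-- all tuples as lists of digits -/
def rjTup (k n M : ℕ) : List (List ℕ) := (List.range M).map fun x => (List.range k).map fun i => x / n ^ i % n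

/-- the decision procedure for `JEquiv` -/
def rjJ (k n M : ℕ) (l₁ l₂ : List Bool) : Prop :=
  rjHist ((rjTup k n M).map (fun t => (false, t)) ++ (rjTup k n M).map fun t => (true, t))
    (fun a => (List.range n).map fun z => (List.range k).map fun i => (a.1, a.2.set i z))
    (fun a => (List.range k).map fun i => (List.range k).map fun j =>
      (decide (a.2.getD i 0 = a.2.getD j 0), (cond a.1 l₂ l₁).getD (a.2.getD i 0 * n + a.2.getD j 0) false))
    ((rjTup k n M).map fun t => (false, t)) ((rjTup k n M).map fun t => (true, t))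

theorem PT.rjJ {α : Type} [Enc α] {k n M : α → ℕ} {l₁ l₂ : α → List Bool} (h1 : PT k) (h1' : PB k) (h2 : PT n)
    (h2' : PB n) (h3 : PT M) (h3' : PB M) (h4 : PT l₁) (h5 : PT l₂) :
    PT fun a => rjJ (k a) (n a) (M a) (l₁ a) (l₂ a) := by
  have ht : PT fun a => rjTup (k a) (n a) (M a) :=
    PT.map (PT.map_range (by fun_prop) (by fun_prop) (by fun_prop)) (h3.range h3')
  have a1 : PT fun a => (rjTup (k a) (n a) (M a)).map fun t => (false, t) := PT.map (by fun_prop) ht
  have a2 : PT fun a => (rjTup (k a) (n a) (M a)).map fun t => (true, t) := PT.map (by fun_prop) ht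
  refine PT.rjHist (a1.append a2) ?_ ?_ a1 a2
  · exact PT.map (PT.map (by fun_prop) (PT.range (by fun_prop) (by fun_prop))) (PT.range (by fun_prop) (by fun_prop))
  · exact PT.map (PT.map (by fun_prop) (PT.range (by fun_prop) (by fun_prop))) (PT.range (by fun_prop) (by fun_prop))

theorem rj_range_map {β : Type} (k : ℕ) (f : ℕ → β) : (List.range k).map f = List.ofFn fun i : Fin k => f i :=
  (ofFn_eq_map_range k f).symm

theorem rj_univ_map {β : Type} (n : ℕ) (f : Fin n → β) :
    (Finset.univ : Finset (Fin n)).val.map f = (List.ofFn f : List β) := by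
  simp

theorem rjJ_iff (k n : ℕ) (l₁ l₂ : List Bool) :
    rjJ k n (n ^ k) l₁ l₂ ↔ JEquiv k (mat n (bm n l₁)) (mat n (bm n l₂)) := by
  obtain ⟨us, hus⟩ : ∃ us : List (Fin k → Fin n), us = List.ofFn finFunctionFinEquiv.symm := ⟨_, rfl⟩
  have hu1 : ∀ u, u ∈ us := fun u => by
    rw [hus, List.mem_ofFn]; exact ⟨finFunctionFinEquiv u, by simp⟩
  have hu2 : (Finset.univ : Finset (Fin k → Fin n)).val = (us : Multiset _) := by
    rw [hus, ← rj_univ_map, Multiset.map_univ_val_equiv]
  have hu3 : rjTup k n (n ^ k) = us.map fun u => List.ofFn fun i => (u i).val := by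
    rw [rjTup, hus, rj_range_map, List.map_ofFn]
    congr 1
    funext x
    rw [rj_range_map]
    rfl
  have hget : ∀ (u : Fin k → Fin n) (i : Fin k), (List.ofFn fun i => (u i).val).getD i 0 = u i := fun u i => by
    rw [List.getD_eq_getElem _ _ (by simp)]; simp
  have h := rjHist_iff (V := Bool × (Fin k → Fin n)) (fun a => (a.1, List.ofFn fun i => (a.2 i).val)) ?_
    (us.map (fun u => (false, u)) ++ us.map fun u => (true, u)) ?_
    (fun a => (List.range n).map fun z => (List.range k).map fun i => (a.1, a.2.set i z))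
    (fun a => (List.range k).map fun i => (List.range k).map fun j =>
      (decide (a.2.getD i 0 = a.2.getD j 0), (cond a.1 l₂ l₁).getD (a.2.getD i 0 * n + a.2.getD j 0) false))
    (fun a => List.ofFn fun z : Fin n => List.ofFn fun i : Fin k => (a.1, Function.update a.2 i z)) ?_
    (fun s a => jcolor (mat n (bm n (cond a.1 l₂ l₁))) k s a.2) ?_ ?_
    (us.map fun u => (false, u)) (us.map fun u => (true, u))
  · simp only [List.map_append, List.map_map, Function.comp_def] at h
    simp only [rjJ, hu3, List.map_map, Function.comp_def, h, JEquiv, hu2, Multiset.map_coe, Multiset.coe_eq_coe,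
      cond_true, cond_false]
  · rintro ⟨b, u⟩ ⟨b', u'⟩ h
    simp only [Prod.mk.injEq, List.ofFn_inj] at h ⊢
    exact ⟨h.1, funext fun i => Fin.ext (congrFun h.2 i)⟩
  · rintro ⟨_ | _, u⟩ <;> simp [hu1]
  · rintro ⟨b, u⟩
    simp only [rj_range_map, List.map_ofFn, Function.comp_def, List.ofFn_inj]
    funext z
    congr 1
    funext i
    congr 1
    apply List.ext_getElem (by simp)
    intro j h1 h2
    simp only [List.getElem_set, List.getElem_ofFn, Function.update_apply, Fin.ext_iff]
    split_ifs with h3 h4 h4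
    · rfl
    · exact absurd h3.symm h4
    · exact absurd h4.symm h3
    · rfl
  · rintro ⟨b, u⟩ ⟨b', u'⟩
    simp only [rj_range_map, List.ofFn_inj, hget, jcolor, atomicType, Prod.mk.injEq, funext_iff, mat, bm,
      Fin.val_inj, forall_and]
  · rintro s ⟨b, u⟩ ⟨b', u'⟩
    simp only [jcolor, Prod.mk.injEq, rj_univ_map, Multiset.coe_eq_coe, List.map_ofFn, Function.comp_def]
    rw [← List.map_perm_map_iff List.ofFn_injective]
    simp only [List.map_ofFn, Function.comp_def]

/-- the decision procedure for `CREquiv` -/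
def rjC (n : ℕ) (l₁ l₂ : List Bool) : Prop :=
  rjHist ((List.range n).map (fun t => (false, t)) ++ (List.range n).map fun t => (true, t))
    (fun a => ((List.range n).filter fun w => (cond a.1 l₂ l₁).getD (a.2 * n + w) false).map fun w => [(a.1, w)])
    (fun _ => ()) ((List.range n).map fun t => (false, t)) ((List.range n).map fun t => (true, t))

theorem PT.rjC {α : Type} [Enc α] {n : α → ℕ} {l₁ l₂ : α → List Bool} (h2 : PT n)
    (h2' : PB n) (h4 : PT l₁) (h5 : PT l₂) : PT fun a => rjC (n a) (l₁ a) (l₂ a) := by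
  have a1 : PT fun a => (List.range (n a)).map fun t => (false, t) := PT.map (by fun_prop) (h2.range h2')
  have a2 : PT fun a => (List.range (n a)).map fun t => (true, t) := PT.map (by fun_prop) (h2.range h2')
  refine PT.rjHist (a1.append a2) ?_ (PT.const _) a1 a2
  exact PT.map (by fun_prop) (PT.filter (by fun_prop) (PT.range (by fun_prop) (by fun_prop)))

theorem rjC_iff (n : ℕ) (l₁ l₂ : List Bool) : rjC n l₁ l₂ ↔ CREquiv (mat n (bm n l₁)) (mat n (bm n l₂)) := by
  have hu2 : (Finset.univ : Finset (Fin n)).val = (List.finRange n : Multiset _) := rfl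
  have hu3 : List.range n = (List.finRange n).map Fin.val := by simp
  have h := rjHist_iff (V := Bool × Fin n) (fun a => (a.1, a.2.val)) ?_
    ((List.finRange n).map (fun u => (false, u)) ++ (List.finRange n).map fun u => (true, u)) ?_
    (fun a => ((List.range n).filter fun w => (cond a.1 l₂ l₁).getD (a.2 * n + w) false).map fun w => [(a.1, w)])
    (fun _ => ())
    (fun a => ((List.finRange n).filter fun w => mat n (bm n (cond a.1 l₂ l₁)) a.2 w).map fun w => [(a.1, w)]) ?_
    (fun s a => crcolor (mat n (bm n (cond a.1 l₂ l₁))) s a.2) ?_ ?_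
    ((List.finRange n).map fun u => (false, u)) ((List.finRange n).map fun u => (true, u))
  · have e : ∀ b : Bool, (List.range n).map (fun t => (b, t)) = (List.finRange n).map fun u => (b, u.val) :=
      fun b => by rw [hu3, List.map_map]; rfl
    simp only [List.map_append, List.map_map, Function.comp_def] at h
    simp only [rjC, e, h, CREquiv, hu2, Multiset.map_coe, Multiset.coe_eq_coe, cond_true, cond_false]
  · rintro ⟨b, u⟩ ⟨b', u'⟩ h
    simpa only [Prod.mk.injEq, Fin.val_inj] using h
  · rintro ⟨_ | _, u⟩ <;> simp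
  · rintro ⟨b, u⟩
    rw [hu3, List.filter_map, List.map_map, List.map_map]
    rfl
  · simp
  · rintro s ⟨b, u⟩ ⟨b', u'⟩
    simp only [crcolor, Prod.mk.injEq, Finset.filter_val, hu2, Multiset.filter_coe, Multiset.map_coe,
      Multiset.coe_eq_coe, List.map_map, Function.comp_def, List.map_cons, List.map_nil, Bool.decide_eq_true]
    rw [← List.map_perm_map_iff (f := fun x => [x]) List.singleton_injective]
    simp only [List.map_map, Function.comp_def]

theorem exists_jdec : ∃ f : U × ℕ × ℕ × List Bool × List Bool → Prop, PT f ∧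
    ∀ (K k n : ℕ) (l₁ l₂ : List Bool), n ^ k ≤ K → n ≤ K → k ≤ K →
      (f (⟨K⟩, k, n, l₁, l₂) ↔ JEquiv k (mat n (bm n l₁)) (mat n (bm n l₂))) := by
  refine ⟨fun p => rjJ (min p.2.1 p.1.val) (min p.2.2.1 p.1.val) (min (p.2.2.1 ^ min p.2.1 p.1.val) p.1.val)
    p.2.2.2.1 p.2.2.2.2, PT.rjJ (by fun_prop) (PB.min_right (by fun_prop)) (by fun_prop) (PB.min_right (by fun_prop))
      (PT.min (PT.pow (by fun_prop) (by fun_prop) (PB.min_right (by fun_prop))) (by fun_prop))
      (PB.min_right (by fun_prop)) (by fun_prop) (by fun_prop), fun K k n l₁ l₂ h1 h2 h3 => ?_⟩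
  simp only [min_eq_left h1, min_eq_left h2, min_eq_left h3]
  exact rjJ_iff k n l₁ l₂

theorem exists_crdec : ∃ f : U × ℕ × List Bool × List Bool → Prop, PT f ∧
    ∀ (K n : ℕ) (l₁ l₂ : List Bool), n ≤ K →
      (f (⟨K⟩, n, l₁, l₂) ↔ CREquiv (mat n (bm n l₁)) (mat n (bm n l₂))) := by
  refine ⟨fun p => rjC (min p.2.1 p.1.val) p.2.2.1 p.2.2.2,
    PT.rjC (by fun_prop) (PB.min_right (by fun_prop)) (by fun_prop) (by fun_prop), fun K n l₁ l₂ h => ?_⟩
  simp only [min_eq_left h]
  exact rjC_iff n l₁ l₂

end Crest.Agent.R290
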