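import Crest.Agent.R290.PTDefs

/-!
# Row 290, task Refine: generic partition refinement

Items `0, …, M - 1` (`M = sg.length`); item `x` has an initial colour `c₀[x]` and a signature
`sg[x] : List (List ℕ)` (a multiset of vectors of items).  One round gives `x` the least `y` with the
same colour and the same multiset of colour vectors.

Plan.  `refine_spec`: by induction on `s`, for `x, y < M`:
`(rounds s)[x] = (rounds s)[y] ↔ tc s x = tc s y`.  For the step: if two colourings `f`, `g` of the items
have the same kernel on items `< M`, then `(l.map (map f)) ~ (l'.map (map f)) ↔ (l.map (map g)) ~ …`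
(factor through a common map, e.g. `f = φ ∘ g` on items, in both directions; `List.Perm.map`).
`refine_stable`: the kernels decrease; if they agree at `s` and `s + 1` they agree forever; the number
of classes is at most `M`, so from round `M` on nothing changes.
`PT`: `l ~ l' ↔ ∀ a ∈ l ++ l', count a l = count a l'` (`List.perm_iff_count`, `countP`); all colours
after a round are `≤ M`.
-/

set_option autoImplicit false

namespace Crest.Agent.R290

open Crest.Agent.PTime

/-- colour vectors of the signature of `x` -/
def sigCol (sg : List (List (List ℕ))) (c : List ℕ) (x : ℕ) : List (List ℕ) :=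
  (sg.getD x []).map fun v => v.map fun z => c.getD z 0

/-- one round -/
def refineStep (sg : List (List (List ℕ))) (c : List ℕ) : List ℕ :=
  (List.range sg.length).map fun x => (List.range sg.length).findIdx fun y =>
    decide (c.getD y 0 = c.getD x 0 ∧ (sigCol sg c y).Perm (sigCol sg c x))

/-- the colours after `sg.length` rounds -/
def refineAll (sg : List (List (List ℕ))) (c₀ : List ℕ) : List ℕ := (refineStep sg)^[sg.length] c₀

theorem PT.perm {α β : Type} [Enc α] [Enc β] [EncInj β] {l l' : α → List β} (h1 : PT l) (h2 : PT l') :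
    PT (fun a => (l a).Perm (l' a)) := by
  classical
  have h : PT (fun a => ∀ b ∈ l a ++ l' a,
      (l a).countP (fun y => y == b) = (l' a).countP (fun y => y == b)) :=
    PT.forall_mem (by fun_prop) (h1.append h2)
  refine h.congr_prop fun a => ?_
  rw [List.perm_iff_count]
  refine ⟨fun h b _ => h b, fun h b => ?_⟩
  by_cases hb : b ∈ l a ++ l' a
  · exact h b hb
  · rw [List.mem_append, not_or] at hb
    rw [List.count_eq_zero_of_not_mem hb.1, List.count_eq_zero_of_not_mem hb.2]

theorem PT.sigCol {α : Type} [Enc α] {sg : α → List (List (List ℕ))} {c : α → List ℕ} {x : α → ℕ}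
    (h1 : PT sg) (h2 : PT c) (h3 : PT x) : PT (fun a => sigCol (sg a) (c a) (x a)) := by
  unfold R290.sigCol
  fun_prop

theorem PT.refineStep {α : Type} [Enc α] {sg : α → List (List (List ℕ))} {c : α → List ℕ}
    (h1 : PT sg) (h2 : PT c) : PT (fun a => refineStep (sg a) (c a)) := by
  have hr : PT fun a => List.range (sg a).length := PT.range h1.length (PB.length h1)
  unfold R290.refineStep
  refine PT.map (PT.findIdx (PT.decide (PT.and (by fun_prop) (PT.perm ?_ ?_))) (by fun_prop)) hr
  · exact PT.sigCol (by fun_prop) (by fun_prop) (by fun_prop)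
  · exact PT.sigCol (by fun_prop) (by fun_prop) (by fun_prop)

theorem sz_refineStep (sg : List (List (List ℕ))) (c : List ℕ) :
    sz (refineStep sg c) ≤ sg.length * (4 * sg.length + 2) + 1 := by
  have := sz_list_le (l := refineStep sg c) (B := 4 * sg.length + 1) fun a ha => by
    obtain ⟨x, -, rfl⟩ := List.mem_map.1 ha
    refine (sz_le_self _).trans ?_
    have := List.findIdx_le_length (xs := List.range sg.length) (p := fun y =>
      decide (c.getD y 0 = c.getD x 0 ∧ (sigCol sg c y).Perm (sigCol sg c x)))
    rw [List.length_range] at this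
    omega
  simpa [refineStep] using this

theorem PT.refineAll {α : Type} [Enc α] {sg : α → List (List (List ℕ))} {c₀ : α → List ℕ}
    (h1 : PT sg) (h2 : PT c₀) : PT (fun a => refineAll (sg a) (c₀ a)) := by
  refine PT.iterate (f := fun a c => R290.refineStep (sg a) c)
    (PT.refineStep (by fun_prop) (by fun_prop)) h2 h1.length (PB.length h1)
    (B := fun a => sz (c₀ a) + ((sg a).length * (4 * (sg a).length + 2) + 1)) (by fun_prop)
    fun a i _ => ?_
  cases i with
  | zero => simp
  | succ i =>
    rw [Function.iterate_succ_apply']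
    exact (sz_refineStep _ _).trans (Nat.le_add_left _ _)

namespace RefineA

theorem exists_factor {ι A B : Type} {S : ι → Prop} {f : ι → A} {g : ι → B}
    (h : ∀ x y, S x → S y → g x = g y → f x = f y) :
    ∃ φ : B → Option A, ∀ x, S x → φ (g x) = some (f x) := by
  classical
  refine ⟨fun b => if hb : ∃ x, S x ∧ g x = b then some (f hb.choose) else none, fun x hx => ?_⟩
  have hb : ∃ y, S y ∧ g y = g x := ⟨x, hx, rfl⟩
  simp only [dif_pos hb]
  rw [h _ _ hb.choose_spec.1 hx hb.choose_spec.2]

theorem perm_of {ι A B : Type} {S : ι → Prop} {f : ι → A} {g : ι → B}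
    (h : ∀ x y, S x → S y → g x = g y → f x = f y) {l l' : List ι} (hl : ∀ x ∈ l, S x)
    (hl' : ∀ x ∈ l', S x) (hp : (l.map g).Perm (l'.map g)) : (l.map f).Perm (l'.map f) := by
  obtain ⟨φ, hφ⟩ := exists_factor h
  have e : ∀ l : List ι, (∀ x ∈ l, S x) → (l.map g).map φ = (l.map f).map some := fun l hl => by
    rw [List.map_map, List.map_map]
    exact List.map_congr_left fun x hx => hφ x (hl x hx)
  have := hp.map φ
  rwa [e l hl, e l' hl', List.map_perm_map_iff (Option.some_injective _)] at this

theorem map_eq_of {ι A B : Type} {S : ι → Prop} {f : ι → A} {g : ι → B}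
    (h : ∀ x y, S x → S y → g x = g y → f x = f y) {l l' : List ι} (hl : ∀ x ∈ l, S x)
    (hl' : ∀ x ∈ l', S x) (hp : l.map g = l'.map g) : l.map f = l'.map f := by
  obtain ⟨φ, hφ⟩ := exists_factor h
  have e : ∀ l : List ι, (∀ x ∈ l, S x) → (l.map g).map φ = (l.map f).map some := fun l hl => by
    rw [List.map_map, List.map_map]
    exact List.map_congr_left fun x hx => hφ x (hl x hx)
  have := congrArg (List.map φ) hp
  rw [e l hl, e l' hl'] at this
  exact List.map_injective_iff.2 (Option.some_injective _) this

theorem sig_of {A B : Type} {sg : List (List (List ℕ))}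
    (hsg : ∀ l ∈ sg, ∀ v ∈ l, ∀ z ∈ v, z < sg.length) {f : ℕ → A} {g : ℕ → B}
    (h : ∀ x < sg.length, ∀ y < sg.length, g x = g y → f x = f y) {x y : ℕ} (hx : x < sg.length)
    (hy : y < sg.length)
    (hp : ((sg.getD x []).map fun v => v.map g).Perm ((sg.getD y []).map fun v => v.map g)) :
    ((sg.getD x []).map fun v => v.map f).Perm ((sg.getD y []).map fun v => v.map f) := by
  have hm : ∀ x < sg.length, sg.getD x [] ∈ sg := fun x hx => by
    rw [List.getD_eq_getElem _ _ hx]; exact List.getElem_mem hx
  exact perm_of (S := fun v : List ℕ => ∀ z ∈ v, z < sg.length)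
    (fun v w hv hw => map_eq_of (S := fun z => z < sg.length) (fun x y hx hy => h x hx y hy) hv hw)
    (hsg _ (hm x hx)) (hsg _ (hm y hy)) hp

theorem step_ker (sg : List (List (List ℕ))) (c : List ℕ) {x y : ℕ} (hx : x < sg.length)
    (hy : y < sg.length) :
    (refineStep sg c).getD x 0 = (refineStep sg c).getD y 0 ↔
      c.getD x 0 = c.getD y 0 ∧ (sigCol sg c x).Perm (sigCol sg c y) := by
  have e : ∀ x < sg.length, (refineStep sg c).getD x 0 = (List.range sg.length).findIdx fun y =>
      decide (c.getD y 0 = c.getD x 0 ∧ (sigCol sg c y).Perm (sigCol sg c x)) := fun x hx => by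
    rw [List.getD_eq_getElem _ _ (by simpa [refineStep] using hx)]
    simp only [refineStep, List.getElem_map, List.getElem_range]
  have f : ∀ x < sg.length, c.getD ((refineStep sg c).getD x 0) 0 = c.getD x 0 ∧
      (sigCol sg c ((refineStep sg c).getD x 0)).Perm (sigCol sg c x) := fun x hx => by
    rw [e x hx]
    have h1 : (List.range sg.length).findIdx (fun y =>
        decide (c.getD y 0 = c.getD x 0 ∧ (sigCol sg c y).Perm (sigCol sg c x))) <
        (List.range sg.length).length :=
      List.findIdx_lt_length_of_exists ⟨x, List.mem_range.2 hx, by simp⟩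
    have h2 := List.findIdx_getElem (w := h1)
    rw [List.getElem_range] at h2
    exact of_decide_eq_true h2
  constructor
  · intro h
    have h1 := f x hx
    have h2 := f y hy
    rw [h] at h1
    exact ⟨h1.1.symm.trans h2.1, h1.2.symm.trans h2.2⟩
  · rintro ⟨h1, h2⟩
    rw [e x hx, e y hy]
    congr 1
    funext z
    rw [h1]
    exact decide_eq_decide.2 (and_congr_right fun _ => ⟨fun h => h.trans h2, fun h => h.trans h2.symm⟩)

variable {C : ℕ → Type} (tc : (s : ℕ) → ℕ → C s) (sg : List (List (List ℕ)))
    (c₀ : List ℕ) (hsg : ∀ l ∈ sg, ∀ v ∈ l, ∀ z ∈ v, z < sg.length)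
    (h0 : ∀ x < sg.length, ∀ y < sg.length, tc 0 x = tc 0 y ↔ c₀.getD x 0 = c₀.getD y 0)
    (hs : ∀ s, ∀ x < sg.length, ∀ y < sg.length, tc (s + 1) x = tc (s + 1) y ↔ tc s x = tc s y ∧
      ((sg.getD x []).map fun v => v.map (tc s)).Perm ((sg.getD y []).map fun v => v.map (tc s)))

include hsg h0 hs in
theorem rounds_ker (s : ℕ) : ∀ x < sg.length, ∀ y < sg.length,
    ((refineStep sg)^[s] c₀).getD x 0 = ((refineStep sg)^[s] c₀).getD y 0 ↔ tc s x = tc s y := by
  induction s with
  | zero => exact fun x hx y hy => (h0 x hx y hy).symm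
  | succ s ih =>
    intro x hx y hy
    rw [Function.iterate_succ_apply', step_ker sg _ hx hy, hs s x hx y hy, ih x hx y hy]
    exact and_congr_right fun _ =>
      ⟨sig_of hsg (fun x hx y hy => (ih x hx y hy).1) hx hy,
        sig_of hsg (fun x hx y hy => (ih x hx y hy).2) hx hy⟩

include hs in
theorem anti {s t : ℕ} (hst : s ≤ t) {x y : ℕ} (hx : x < sg.length) (hy : y < sg.length)
    (h : tc t x = tc t y) : tc s x = tc s y := by
  induction t, hst using Nat.le_induction with
  | base => exact h
  | succ t _ ih => exact ih ((hs t x hx y hy).1 h).1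

/-- nothing changes in round `s` -/
def Stable (M s : ℕ) : Prop := ∀ x < M, ∀ y < M, tc s x = tc s y → tc (s + 1) x = tc (s + 1) y

include hsg hs in
theorem stable_mono {s t : ℕ} (hst : s ≤ t) (h : Stable tc sg.length s) : Stable tc sg.length t := by
  induction t, hst using Nat.le_induction with
  | base => exact h
  | succ t _ ih =>
    intro x hx y hy e
    exact (hs _ x hx y hy).2 ⟨e, sig_of hsg ih hx hy ((hs _ x hx y hy).1 e).2⟩

open Classical in
/-- the least elements of the classes -/
noncomputable def reps (M s : ℕ) : Finset ℕ := (Finset.range M).filter fun x => ∀ y < x, tc s y ≠ tc s x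

theorem mem_reps {M s x : ℕ} : x ∈ reps tc M s ↔ x < M ∧ ∀ y < x, tc s y ≠ tc s x := by
  simp [reps]

theorem exists_rep {M : ℕ} (s : ℕ) {x : ℕ} (hx : x < M) : ∃ r ∈ reps tc M s, tc s r = tc s x := by
  classical
  have hex : ∃ r, tc s r = tc s x := ⟨x, rfl⟩
  refine ⟨Nat.find hex, ?_, Nat.find_spec hex⟩
  rw [mem_reps]
  refine ⟨(Nat.find_min' hex rfl).trans_lt hx, fun y hy e => Nat.find_min hex hy ?_⟩
  rw [e, Nat.find_spec hex]

include hs in
theorem reps_lt {s : ℕ} (h : ¬ Stable tc sg.length s) :
    (reps tc sg.length s).card < (reps tc sg.length (s + 1)).card := by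
  refine Finset.card_lt_card (Finset.ssubset_iff_subset_ne.2 ⟨fun x hx => ?_, fun e => h ?_⟩)
  · rw [mem_reps] at hx ⊢
    exact ⟨hx.1, fun y hy e => hx.2 y hy ((hs s y (hy.trans hx.1) x hx.1).1 e).1⟩
  · intro x hx y hy exy
    obtain ⟨r, hr, er⟩ := exists_rep tc (s + 1) hx
    obtain ⟨r', hr', er'⟩ := exists_rep tc (s + 1) hy
    rw [← e, mem_reps] at hr hr'
    have e1 : tc s r = tc s r' :=
      (((hs s r hr.1 x hx).1 er).1.trans exy).trans ((hs s r' hr'.1 y hy).1 er').1.symm
    have e2 : r = r' := by
      rcases lt_trichotomy r r' with h | h | h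
      · exact absurd e1 (hr'.2 r h)
      · exact h
      · exact absurd e1.symm (hr.2 r' h)
    rw [← er, ← er', e2]

include hsg hs in
theorem stable_len : Stable tc sg.length sg.length := by
  by_contra hn
  have h1 : ∀ s ≤ sg.length + 1, s ≤ (reps tc sg.length s).card := by
    intro s hs'
    induction s with
    | zero => exact Nat.zero_le _
    | succ s ih =>
      have := reps_lt tc sg hs (s := s) fun h => hn (stable_mono tc sg hsg hs (by omega) h)
      have := ih (by omega)
      omega
  have h2 := h1 _ le_rfl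
  have h3 : (reps tc sg.length (sg.length + 1)).card ≤ sg.length := by
    classical
    exact (Finset.card_filter_le _ _).trans (Finset.card_range _).le
  omega

include hsg hs in
theorem all_of_len {x y : ℕ} (hx : x < sg.length) (hy : y < sg.length)
    (h : tc sg.length x = tc sg.length y) (s : ℕ) : tc s x = tc s y := by
  rcases le_total s sg.length with h1 | h1
  · exact anti tc sg hs h1 hx hy h
  · induction s, h1 using Nat.le_induction with
    | base => exact h
    | succ t ht ih => exact stable_mono tc sg hsg hs ht (stable_len tc sg hsg hs) x hx y hy ih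

end RefineA

open RefineA

/-- `tc s x` are the true colours; the final colours identify exactly the items whose true colours
agree at all rounds -/
theorem refineAll_spec {C : ℕ → Type} (tc : (s : ℕ) → ℕ → C s) (sg : List (List (List ℕ)))
    (c₀ : List ℕ) (hsg : ∀ l ∈ sg, ∀ v ∈ l, ∀ z ∈ v, z < sg.length)
    (h0 : ∀ x < sg.length, ∀ y < sg.length, tc 0 x = tc 0 y ↔ c₀.getD x 0 = c₀.getD y 0)
    (hs : ∀ s, ∀ x < sg.length, ∀ y < sg.length, tc (s + 1) x = tc (s + 1) y ↔ tc s x = tc s y ∧
      ((sg.getD x []).map fun v => v.map (tc s)).Perm ((sg.getD y []).map fun v => v.map (tc s)))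
    {x y : ℕ} (hx : x < sg.length) (hy : y < sg.length) :
    (refineAll sg c₀).getD x 0 = (refineAll sg c₀).getD y 0 ↔ ∀ s, tc s x = tc s y := by
  rw [refineAll, rounds_ker tc sg c₀ hsg h0 hs _ x hx y hy]
  exact ⟨all_of_len tc sg hsg hs hx hy, fun h => h _⟩

/-- histograms: two lists of items have the same true histograms at all rounds iff they have the
same final histogram -/
theorem refineAll_hist {C : ℕ → Type} (tc : (s : ℕ) → ℕ → C s) (sg : List (List (List ℕ)))
    (c₀ : List ℕ) (hsg : ∀ l ∈ sg, ∀ v ∈ l, ∀ z ∈ v, z < sg.length)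
    (h0 : ∀ x < sg.length, ∀ y < sg.length, tc 0 x = tc 0 y ↔ c₀.getD x 0 = c₀.getD y 0)
    (hs : ∀ s, ∀ x < sg.length, ∀ y < sg.length, tc (s + 1) x = tc (s + 1) y ↔ tc s x = tc s y ∧
      ((sg.getD x []).map fun v => v.map (tc s)).Perm ((sg.getD y []).map fun v => v.map (tc s)))
    {l l' : List ℕ} (hl : ∀ x ∈ l, x < sg.length) (hl' : ∀ x ∈ l', x < sg.length) :
    (l.map fun x => (refineAll sg c₀).getD x 0).Perm (l'.map fun x => (refineAll sg c₀).getD x 0) ↔
      ∀ s, (l.map (tc s)).Perm (l'.map (tc s)) := by
  constructor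
  · intro h s
    exact perm_of (S := fun x => x < sg.length)
      (fun x y hx hy e => (refineAll_spec tc sg c₀ hsg h0 hs hx hy).1 e s) hl hl' h
  · intro h
    exact perm_of (S := fun x => x < sg.length) (fun x y hx hy e =>
      (refineAll_spec tc sg c₀ hsg h0 hs hx hy).2 (all_of_len tc sg hsg hs hx hy e)) hl hl'
      (h sg.length)

end Crest.Agent.R290
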