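import Crest.Agent.Lib.PT.Code

/-!
# Row 290: universal simulators
-/

set_option autoImplicit false

namespace Crest.Agent.R290

open Crest.Agent.PTime

/-- a universal simulator: parameter (the program), order `n` in unary, input bits -/
structure USim (A σ : Type) [Enc A] [Enc σ] where
  init : A × U × List Bool → σ
  step : σ → σ
  done : σ → Bool
  acc : σ → Bool
  pt_init : PT init
  pt_step : PT step
  pt_done : PT done
  pt_acc : PT acc
  stat : ∀ c, done c = true → step c = c
  grow : ∃ q : Polynomial ℕ, ∀ z i, sz (step^[i] (init z)) ≤ q.eval (sz z + i)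

/-- the state after `t` steps -/
def USim.run {A σ : Type} [Enc A] [Enc σ] (S : USim A σ) (a : A) (n : ℕ) (y : List Bool) (t : ℕ) : σ :=
  S.step^[t] (S.init (a, ⟨n⟩, y))

end Crest.Agent.R290
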