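import Crest.Agent.R290.USim
import Crest.Agent.R290.PTHorn

/-!
# Row 290: the universal simulator for flat machines
-/

set_option autoImplicit false

namespace Crest.Agent.R290

open Crest.Agent.PTime

/-- the universal simulator for flat machines -/
def fmUSim : USim (FCode × U) (FCode × FCfg) where
  init z := (z.1.1, finit z.1.2.val z.2.2)
  step c := (c.1, fstep c.1 c.2)
  done c := decide (c.1.length ≤ c.2.1)
  acc c := decide (c.2.1 = c.1.length)
  pt_init := by fun_prop
  pt_step := by fun_prop
  pt_done := by fun_prop
  pt_acc := by fun_prop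
  stat c h := by rw [fstep_halted (by simpa using h)]
  grow := by
    have h : PT (fun z : (FCode × U) × U × List Bool => (z.1.1, finit z.1.2.val z.2.2)) := by fun_prop
    obtain ⟨q, hq⟩ := h.pb_sz
    refine ⟨q + Polynomial.X * (8 * Polynomial.X + 20), fun z i => ?_⟩
    have key : ∀ i, ((fun c : FCode × FCfg => (c.1, fstep c.1 c.2))^[i]
        (z.1.1, finit z.1.2.val z.2.2)).1 = z.1.1 ∧
        sz ((fun c : FCode × FCfg => (c.1, fstep c.1 c.2))^[i] (z.1.1, finit z.1.2.val z.2.2)) ≤
          sz (z.1.1, finit z.1.2.val z.2.2) + i * (8 * sz z.1.1 + 20) := by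
      intro i
      induction i with
      | zero => simp
      | succ i ih =>
        rw [Function.iterate_succ_apply']
        refine ⟨ih.1, ?_⟩
        have h1 := ih.2
        have h2 := sz_fstep ((fun c : FCode × FCfg => (c.1, fstep c.1 c.2))^[i]
          (z.1.1, finit z.1.2.val z.2.2)).1 ((fun c : FCode × FCfg => (c.1, fstep c.1 c.2))^[i]
          (z.1.1, finit z.1.2.val z.2.2)).2
        rw [sz_prod] at h1
        rw [sz_pair]
        rw [ih.1] at h1 h2 ⊢
        rw [add_mul i 1]
        omega
    refine (key i).2.trans ?_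
    have h1 := hq z
    dsimp only at h1
    have h2 := eval_mono q (Nat.le_add_right (sz z) i)
    have h3 : sz z.1.1 ≤ sz z := by rw [sz_prod z, sz_prod z.1]; omega
    have h4 : i * (8 * sz z.1.1 + 20) ≤ (sz z + i) * (8 * (sz z + i) + 20) :=
      Nat.mul_le_mul (by omega) (by omega)
    simp only [Polynomial.eval_add, Polynomial.eval_mul, Polynomial.eval_X, Polynomial.eval_ofNat]
    omega

theorem fmUSim_run (code : FCode) (D n : ℕ) (y : List Bool) (t : ℕ) :
    fmUSim.run (code, ⟨D⟩) n y t = (code, frun code D y t) := by
  induction t with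
  | zero => rfl
  | succ t ih =>
    unfold USim.run frun at *
    rw [Function.iterate_succ_apply', ih, Function.iterate_succ_apply']
    rfl

end Crest.Agent.R290
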