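import Mathlib
import Crest.Prelude.Def_WL
import Crest.Agent.R290.WLEq

/-!
# Row 290, layer WL: bijective pebble games and simulations (definitions)

* `IsGame K A B Win`: `Win` is a winning family for Duplicator in the bijective `K`-pebble game.
* `IsSim k A B R`: `R` is a (nonempty) back-and-forth relation on `k`-tuples preserving atomic types
  and degrees.
-/

set_option autoImplicit false

namespace Crest.Agent.R290

open Finset

/-- degree of a vertex -/
def deg {V : Type} [Fintype V] (A : V → V → Bool) (x : V) : ℕ :=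
  (univ.filter fun y => A x y = true).card

/-- Duplicator's winning family in the bijective `K`-pebble game -/
structure IsGame {V W : Type} [DecidableEq V] [DecidableEq W] (K : ℕ) (A : V → V → Bool)
    (B : W → W → Bool) (Win : Finset (V × W) → Prop) : Prop where
  empty : Win ∅
  sub : ∀ {p q : Finset (V × W)}, Win p → q ⊆ p → Win q
  eq : ∀ {p : Finset (V × W)}, Win p → ∀ x ∈ p, ∀ y ∈ p, (x.1 = y.1 ↔ x.2 = y.2)
  adj : ∀ {p : Finset (V × W)}, Win p → ∀ x ∈ p, ∀ y ∈ p, A x.1 y.1 = B x.2 y.2
  ext : ∀ {p : Finset (V × W)}, Win p → p.card < K → ∃ f : V ≃ W, ∀ v, Win (insert (v, f v) p)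

/-- Duplicator wins the bijective `K`-pebble game -/
def Game {V W : Type} [DecidableEq V] [DecidableEq W] (K : ℕ) (A : V → V → Bool)
    (B : W → W → Bool) : Prop := ∃ Win, IsGame K A B Win

/-- back-and-forth relation on `k`-tuples -/
structure IsSim {V W : Type} [Fintype V] [Fintype W] (k : ℕ) (A : V → V → Bool)
    (B : W → W → Bool) (R : (Fin k → V) → (Fin k → W) → Prop) : Prop where
  ne : ∃ u u', R u u'
  eq : ∀ {u u'}, R u u' → ∀ i j, (u i = u j ↔ u' i = u' j)
  adj : ∀ {u u'}, R u u' → ∀ i j, A (u i) (u j) = B (u' i) (u' j)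
  forth : ∀ {u u'}, R u u' → ∀ i x, ∃ y, R (Function.update u i x) (Function.update u' i y)
  back : ∀ {u u'}, R u u' → ∀ i y, ∃ x, R (Function.update u i x) (Function.update u' i y)
  deg : ∀ {u u'}, R u u' → ∀ i, deg A (u i) = deg B (u' i)

/-- some back-and-forth relation on `k`-tuples exists -/
def Sim {V W : Type} [Fintype V] [Fintype W] (k : ℕ) (A : V → V → Bool) (B : W → W → Bool) : Prop :=
  ∃ R, IsSim k A B R

/-- every self-simulation is the identity -/
def Discrete {V : Type} [Fintype V] (k : ℕ) (A : V → V → Bool) : Prop :=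
  ∀ R, IsSim k A A R → ∀ u u', R u u' → u = u'

/-- the matrix on `Fin n` of a function on `ℕ` -/
def mat (n : ℕ) (f : ℕ → ℕ → Bool) : Fin n → Fin n → Bool := fun i j => f i.val j.val

/-- padding: index `0` is a universal vertex, indices `1..N` carry the core `f`, the other indices
are adjacent to the universal vertex only -/
def padF (N : ℕ) (f : ℕ → ℕ → Bool) (i j : ℕ) : Bool :=
  if i = 0 then decide (j ≠ 0) else if j = 0 then true
  else decide (i ≤ N) && decide (j ≤ N) && f (i - 1) (j - 1)

end Crest.Agent.R290
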