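import Crest.Agent.R290.WL
import Crest.Prelude.Def_ParityLift

/-!
# Row 290, task WLGame: a Duplicator win gives WL-equivalence

Plan.
* `IsGame.tuples`: for `k ≤ K` there is a bijection `Φ : (Fin k → V) ≃ (Fin k → W)` with
  `Win (image (fun i => (u i, Φ u i)) univ)` for all `u` (induction on `k`: `Fin.consEquiv` /
  `Fin.snoc`, at every step the position has `< K` pairs, choose `f` depending on the old tuple;
  `Equiv.sigmaCongr`/`Equiv.prodShear`-style glueing).  More generally prove it relative to a base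
  position.
* `IsGame.jcolor_eq`: if `Win (image (fun i => (u i, u' i)) univ)` and `k < K` then
  `jcolor G k s u = jcolor H k s u'` for all `s` (induction on `s`, all tuples at once; the position
  has `≤ k < K` pairs, take `f` from `ext`; the position of `update u i z`, `update u' i (f z)` is a
  subset of `insert (z, f z) p`; `Multiset.map` along the bijection `f`, e.g. `Finset.map_univ_equiv`,
  `Multiset.map_univ_val_equiv`).
* `IsGame.scolor_eq`: the same for `k ≤ K`: for coordinate `i` first drop the pair of coordinate `i`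
  (image over `univ.erase i`, `< k ≤ K` pairs), then extend.
* `crcolor`: `K ≥ 2`, positions `{(v, v')}`; `f` maps neighbours of `v` onto neighbours of `v'`.
* Pure versions: on `asMatrix (unionAdj G H)` (both sides) use the family
  `Win' r := ∃ p q, Win p ∧ Win q ∧ r = (p mapped by (e∘inl, e∘inr)) ∪ (q mapped by (x,y) ↦ (e (inr y), e (inl x)))`
  (or better: `Win' r := every pair of r is (inl,inr) or (inr,inl) and the two filtered parts are in
  `Win``); it is a game on the union with itself (extension bijection `f₁ ⊕ f₂.symm` followed by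
  `Sum.swap`); then use `tuples` for `Win` and `jcolor_eq`/`scolor_eq` for `Win'`.
-/

set_option autoImplicit false

namespace Crest.Agent.R290

open Finset Crest.WLRefine Crest.WLRefine.ParityLift

theorem Game.mono {V W : Type} [DecidableEq V] [DecidableEq W] {K K' : ℕ} {A : V → V → Bool}
    {B : W → W → Bool} (h : Game K A B) (hK : K' ≤ K) : Game K' A B := by
  obtain ⟨Win, h⟩ := h
  exact ⟨Win, h.empty, h.sub, h.eq, h.adj, fun hp hc => h.ext hp (hc.trans_le hK)⟩

namespace WG

section
variable {V W V' W' : Type} [DecidableEq V] [DecidableEq W] [DecidableEq V'] [DecidableEq W'] {K : ℕ}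
  {A : V → V → Bool} {B : W → W → Bool} {Win : Finset (V × W) → Prop}

theorem transport {A' : V' → V' → Bool} {B' : W' → W' → Bool} (h : IsGame K A B Win) (e : V ≃ V')
    (e' : W ≃ W') (hA : ∀ x y, A' (e x) (e y) = A x y) (hB : ∀ x y, B' (e' x) (e' y) = B x y) :
    IsGame K A' B' fun r => Win (r.image fun x => (e.symm x.1, e'.symm x.2)) where
  empty := by simpa using h.empty
  sub hp hq := h.sub hp (image_subset_image hq)
  eq hp x hx y hy := by
    simpa using h.eq hp _ (mem_image_of_mem _ hx) _ (mem_image_of_mem _ hy)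
  adj hp x hx y hy := by
    have := h.adj hp _ (mem_image_of_mem _ hx) _ (mem_image_of_mem _ hy)
    rw [← hA, ← hB] at this
    simpa using this
  ext hp hc := by
    obtain ⟨f, hf⟩ := h.ext hp (card_image_le.trans_lt hc)
    exact ⟨e.symm.trans (f.trans e'), fun v => by simpa [image_insert] using hf (e.symm v)⟩

/-- The position of two tuples. -/
def pos {k : ℕ} (u : Fin k → V) (u' : Fin k → W) : Finset (V × W) := univ.image fun i => (u i, u' i)

theorem card_pos {k : ℕ} (u : Fin k → V) (u' : Fin k → W) : (pos u u').card ≤ k :=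
  card_image_le.trans (by simp)

theorem mem_pos {k : ℕ} (u : Fin k → V) (u' : Fin k → W) (i : Fin k) : (u i, u' i) ∈ pos u u' :=
  mem_image_of_mem _ (mem_univ i)

theorem tuples (h : IsGame K A B Win) {k : ℕ} (hk : k ≤ K) :
    ∃ Φ : (Fin k → V) ≃ (Fin k → W), ∀ u, Win (pos u (Φ u)) := by
  induction k with
  | zero =>
    exact ⟨Equiv.ofUnique _ _, fun u => by simpa [pos] using h.empty⟩
  | succ k ih =>
    obtain ⟨Φ, hΦ⟩ := ih (by omega)
    choose f hf using fun u => h.ext (hΦ u) ((card_pos _ _).trans_lt (by omega))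
    refine ⟨(Fin.consEquiv fun _ => V).symm.trans ((Equiv.prodComm _ _).trans
      ((Equiv.prodShear Φ f).trans ((Equiv.prodComm _ _).trans (Fin.consEquiv fun _ => W)))),
      fun u => h.sub (hf (Fin.tail u) (u 0)) ?_⟩
    intro x hx
    obtain ⟨i, -, rfl⟩ := mem_image.1 hx
    cases i using Fin.cases with
    | zero => simp [Fin.consEquiv]
    | succ i => exact mem_insert_of_mem (by simpa [Fin.consEquiv, Fin.tail] using mem_pos (Fin.tail u) _ i)

end

variable {n m K : ℕ} {G : Fin n → Fin n → Bool} {H : Fin m → Fin m → Bool}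
  {Win : Finset (Fin n × Fin m) → Prop}

theorem map_equiv {α β γ : Type} [Fintype α] [Fintype β] (f : α ≃ β) {g : α → γ} {g' : β → γ}
    (h : ∀ x, g x = g' (f x)) : (univ : Finset α).val.map g = (univ : Finset β).val.map g' := by
  rw [← Multiset.map_univ_val_equiv f, Multiset.map_map]
  exact Multiset.map_congr rfl fun x _ => h x

theorem atomic_eq (h : IsGame K G H Win) {k : ℕ} {u : Fin k → Fin n} {u' : Fin k → Fin m}
    (hu : Win (pos u u')) : atomicType G u = atomicType H u' := by
  simp only [atomicType, Prod.mk.injEq]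
  constructor <;> funext i j
  · exact decide_eq_decide.2 (h.eq hu _ (mem_pos u u' i) _ (mem_pos u u' j))
  · exact h.adj hu _ (mem_pos u u' i) _ (mem_pos u u' j)

theorem jcolor_eq (h : IsGame K G H Win) {k : ℕ} (hk : k < K) (s : ℕ) {u : Fin k → Fin n}
    {u' : Fin k → Fin m} (hu : Win (pos u u')) : jcolor G k s u = jcolor H k s u' := by
  induction s generalizing u u' with
  | zero => exact atomic_eq h hu
  | succ s ih =>
    obtain ⟨f, hf⟩ := h.ext hu ((card_pos _ _).trans_lt hk)
    simp only [jcolor, ih hu]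
    congr 1
    refine map_equiv f fun z => funext fun i => ih (h.sub (hf z) fun x hx => ?_)
    obtain ⟨j, -, rfl⟩ := mem_image.1 hx
    by_cases hj : j = i
    · subst hj; simp
    · exact mem_insert_of_mem (by simpa [hj] using mem_pos u u' j)

theorem scolor_eq (h : IsGame K G H Win) {k : ℕ} (hk : k ≤ K) (s : ℕ) {u : Fin k → Fin n}
    {u' : Fin k → Fin m} (hu : Win (pos u u')) : scolor G k s u = scolor H k s u' := by
  induction s generalizing u u' with
  | zero => exact atomic_eq h hu
  | succ s ih =>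
    simp only [scolor, ih hu]
    congr 1
    funext i
    obtain ⟨f, hf⟩ := h.ext (p := (univ.erase i).image fun j => (u j, u' j))
      (h.sub hu (image_subset_image (erase_subset _ _)))
      (card_image_le.trans_lt (by have := i.2; simp; omega))
    refine map_equiv f fun z => ih (h.sub (hf z) fun x hx => ?_)
    obtain ⟨j, -, rfl⟩ := mem_image.1 hx
    by_cases hj : j = i
    · subst hj; simp
    · exact mem_insert_of_mem (mem_image.2 ⟨j, by simp [hj], by simp [hj]⟩)

theorem crcolor_eq (h : IsGame K G H Win) (hK : 2 ≤ K) (s : ℕ) {v : Fin n} {v' : Fin m}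
    (hv : Win {(v, v')}) : crcolor G s v = crcolor H s v' := by
  induction s generalizing v v' with
  | zero => rfl
  | succ s ih =>
    obtain ⟨f, hf⟩ := h.ext hv (by simp; omega)
    simp only [crcolor, ih hv]
    congr 1
    have e : (univ.filter fun w => H v' w = true) = (univ.filter fun w => G v w = true).map f.toEmbedding := by
      ext w
      obtain ⟨z, rfl⟩ := f.surjective w
      have := h.adj (hf z) (v, v') (by simp) (z, f z) (by simp)
      simp only at this
      simp [this]
    rw [e, map_val, Multiset.map_map]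
    exact Multiset.map_congr rfl fun z _ => ih (h.sub (hf z) (by simp))

/-- Pairs going from the first graph to the second. -/
def i1 (p : Fin n × Fin m) : (Fin n ⊕ Fin m) × (Fin n ⊕ Fin m) := (.inl p.1, .inr p.2)

/-- Pairs going from the second graph to the first. -/
def i2 (p : Fin n × Fin m) : (Fin n ⊕ Fin m) × (Fin n ⊕ Fin m) := (.inr p.2, .inl p.1)

theorem i1_inj : Function.Injective (i1 (n := n) (m := m)) := fun _ _ h => by
  simp only [i1, Prod.mk.injEq, Sum.inl.injEq, Sum.inr.injEq] at h; exact Prod.ext h.1 h.2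

theorem i2_inj : Function.Injective (i2 (n := n) (m := m)) := fun _ _ h => by
  simp only [i2, Prod.mk.injEq, Sum.inl.injEq, Sum.inr.injEq] at h; exact Prod.ext h.2 h.1

/-- The winning family on the disjoint union. -/
def UW (Win : Finset (Fin n × Fin m) → Prop) (r : Finset ((Fin n ⊕ Fin m) × (Fin n ⊕ Fin m))) : Prop :=
  (∀ x ∈ r, (∃ p, x = i1 p) ∨ ∃ p, x = i2 p) ∧ Win (univ.filter fun p => i1 p ∈ r) ∧
    Win (univ.filter fun p => i2 p ∈ r)

theorem union_game (h : IsGame K G H Win) : IsGame K (unionAdj G H) (unionAdj G H) (UW Win) where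
  empty := ⟨by simp, by simpa using h.empty, by simpa using h.empty⟩
  sub hp hq := ⟨fun x hx => hp.1 x (hq hx),
    h.sub hp.2.1 (monotone_filter_right _ fun _ _ hx => hq hx),
    h.sub hp.2.2 (monotone_filter_right _ fun _ _ hx => hq hx)⟩
  eq hp x hx y hy := by
    rcases hp.1 x hx with ⟨p, rfl⟩ | ⟨p, rfl⟩ <;> rcases hp.1 y hy with ⟨q, rfl⟩ | ⟨q, rfl⟩
    · simpa [i1] using h.eq hp.2.1 p (by simpa) q (by simpa)
    · simp [i1, i2]
    · simp [i1, i2]
    · simpa [i2] using (h.eq hp.2.2 p (by simpa) q (by simpa)).symm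
  adj hp x hx y hy := by
    rcases hp.1 x hx with ⟨p, rfl⟩ | ⟨p, rfl⟩ <;> rcases hp.1 y hy with ⟨q, rfl⟩ | ⟨q, rfl⟩
    · exact h.adj hp.2.1 p (by simpa) q (by simpa)
    · rfl
    · rfl
    · exact (h.adj hp.2.2 p (by simpa) q (by simpa)).symm
  ext {r} hp hc := by
    obtain ⟨f1, h1⟩ := h.ext hp.2.1 ((card_le_card_of_injOn i1 (fun p hp => by simpa using hp)
      i1_inj.injOn).trans_lt hc)
    obtain ⟨f2, h2⟩ := h.ext hp.2.2 ((card_le_card_of_injOn i2 (fun p hp => by simpa using hp)
      i2_inj.injOn).trans_lt hc)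
    refine ⟨(Equiv.sumCongr f1 f2.symm).trans (Equiv.sumComm _ _), fun v => ?_⟩
    cases v with
    | inl a =>
      refine ⟨fun x hx => ?_, h.sub (h1 a) fun p hp => ?_, h.sub hp.2.2 fun p hp => ?_⟩
      · rcases mem_insert.1 hx with rfl | hx
        · exact .inl ⟨(a, f1 a), rfl⟩
        · exact hp.1 x hx
      · simpa [i1, Prod.ext_iff] using hp
      · simpa [i2] using hp
    | inr b =>
      refine ⟨fun x hx => ?_, h.sub hp.2.1 fun p hp => ?_, h.sub (h2 (f2.symm b)) fun p hp => ?_⟩
      · rcases mem_insert.1 hx with rfl | hx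
        · exact .inr ⟨(f2.symm b, b), rfl⟩
        · exact hp.1 x hx
      · simpa [i1] using hp
      · simpa [i2, Prod.ext_iff, and_comm] using hp

theorem pure_pos (h : IsGame K G H Win) {k : ℕ} {u : Fin k → Fin n} {u' : Fin k → Fin m}
    (hu : Win (pos u u')) {N : ℕ} (e : Fin n ⊕ Fin m ≃ Fin N) :
    UW Win ((pos (e ∘ Sum.inl ∘ u) (e ∘ Sum.inr ∘ u')).image fun x => (e.symm x.1, e.symm x.2)) := by
  refine ⟨fun x hx => ?_, h.sub hu fun p hp => ?_, h.sub h.empty fun p hp => ?_⟩
  · simp only [pos, image_image, mem_image, mem_univ, true_and] at hx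
    obtain ⟨i, rfl⟩ := hx
    exact .inl ⟨(u i, u' i), by simp [i1]⟩
  · simpa [pos, i1, Prod.ext_iff] using hp
  · simp [pos, i2] at hp

end WG

/-- transport along relabellings -/
theorem Game.transport {V W V' W' : Type} [DecidableEq V] [DecidableEq W] [DecidableEq V']
    [DecidableEq W'] {K : ℕ} {A : V → V → Bool} {B : W → W → Bool} {A' : V' → V' → Bool}
    {B' : W' → W' → Bool} (h : Game K A B) (e : V ≃ V') (e' : W ≃ W')
    (hA : ∀ x y, A' (e x) (e y) = A x y) (hB : ∀ x y, B' (e' x) (e' y) = B x y) : Game K A' B' := by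
  obtain ⟨Win, h⟩ := h
  exact ⟨_, WG.transport h e e' hA hB⟩

theorem Game.jEquiv {n m K k : ℕ} {G : Fin n → Fin n → Bool} {H : Fin m → Fin m → Bool}
    (h : Game K G H) (hk : k < K) : JEquiv k G H := by
  obtain ⟨Win, h⟩ := h
  obtain ⟨Φ, hΦ⟩ := WG.tuples h hk.le
  exact fun s => WG.map_equiv Φ fun u => WG.jcolor_eq h hk s (hΦ u)

theorem Game.sEquiv {n m K k : ℕ} {G : Fin n → Fin n → Bool} {H : Fin m → Fin m → Bool}
    (h : Game K G H) (hk : k ≤ K) : SEquiv k G H := by
  obtain ⟨Win, h⟩ := h
  obtain ⟨Φ, hΦ⟩ := WG.tuples h hk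
  exact fun s => WG.map_equiv Φ fun u => WG.scolor_eq h hk s (hΦ u)

theorem Game.crEquiv {n m K : ℕ} {G : Fin n → Fin n → Bool} {H : Fin m → Fin m → Bool}
    (h : Game K G H) (hK : 2 ≤ K) : CREquiv G H := by
  obtain ⟨Win, h⟩ := h
  obtain ⟨f, hf⟩ := h.ext h.empty (by simp; omega)
  exact fun s => WG.map_equiv f fun v => WG.crcolor_eq h hK s (by simpa using hf v)

theorem Game.pureJEquiv {n m K k : ℕ} {G : Fin n → Fin n → Bool} {H : Fin m → Fin m → Bool}
    (h : Game K G H) (hk : k < K) : PureJEquiv k G H := by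
  obtain ⟨Win, h⟩ := h
  obtain ⟨Φ, hΦ⟩ := WG.tuples h hk.le
  have hU := WG.transport (A' := asMatrix (unionAdj G H)) (B' := asMatrix (unionAdj G H))
    (WG.union_game h) (Fintype.equivFin _) (Fintype.equivFin _) (by simp [asMatrix]) (by simp [asMatrix])
  exact fun s => WG.map_equiv Φ fun u => WG.jcolor_eq hU hk s (WG.pure_pos h (hΦ u) _)

theorem Game.pureSEquiv {n m K k : ℕ} {G : Fin n → Fin n → Bool} {H : Fin m → Fin m → Bool}
    (h : Game K G H) (hk : k ≤ K) : PureSEquiv k G H := by
  obtain ⟨Win, h⟩ := h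
  obtain ⟨Φ, hΦ⟩ := WG.tuples h hk
  have hU := WG.transport (A' := asMatrix (unionAdj G H)) (B' := asMatrix (unionAdj G H))
    (WG.union_game h) (Fintype.equivFin _) (Fintype.equivFin _) (by simp [asMatrix]) (by simp [asMatrix])
  exact fun s => WG.map_equiv Φ fun u => WG.scolor_eq hU hk s (WG.pure_pos h (hΦ u) _)

end Crest.Agent.R290
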