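import Crest.Agent.R290.DupDefs

/-!
# Row 290, task XSat: Duplicator's values satisfy the pebbled constraints; locality

Plan.
* `val_ev`: for `pos ≤ N r`, `val Hd τ (ev a pos j ρ)` is given by the formula of `val (.e …)` also for
  `pos = 0` (`pv a 0 = cp a 0 = 0`) and `pos = N r` (`pv = cp a N = 0`, `N > τ a`); `src`, `dst`, `grd`
  are never `.e` variables.  `pv a (pos+1) l' = pv a pos l' + [l' = pos % r] (cp a t l' + cp a (t+1) l')`
  with `t = pos / r` (two cases: `(pos+1) % r = 0` or not).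
* `x_sat`: use `sat_cons`, `mem_rest`.  A chain step fails only if `pos / r ≤ τ a < (pos+1) / r`; then
  `pos = τ a * r + r - 1`, `0 < pos < N r` (`2 ≤ r`), so `ev a pos j ρ = .e a pos j ρ ∈ Z` lies in the
  robber block, contradicting `Free`.  The last step of the `y0` chain uses `InvA` at `0` (`Der.init`,
  `res_zero`).
* `val_local`: locality.
* `init_state`: `Hd (x qf 0 0 0) = 1`, other `x` values `0`, `mu i l 0 0` := the required value.
-/

set_option autoImplicit false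

namespace Crest.Agent.R290

open Finset

namespace XIn

variable {X : XIn}

namespace XS

/-- not a chain variable -/
def NE (u : XV) : Prop := ∀ a p j ρ, u ≠ .e a p j ρ

theorem val_ne {u : XV} (h : NE u) (Hd : XV → ZMod 2) (τ : Fam → ℕ) : X.val Hd τ u = X.bval Hd u := by
  cases u <;> first | rfl | exact absurd rfl (h _ _ _ _)

theorem ne_src (a : Fam) (j ρ : ℕ) : NE (src a j ρ) := by
  rcases a with ⟨_, _ | _, _⟩ | _ <;> simp [NE, src]

theorem ne_dst (a : Fam) (j ρ : ℕ) : NE (X.dst a j ρ) := by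
  rcases a with ⟨_, _ | _, _⟩ | _ <;> simp [NE, dst]

theorem ne_grd (a : Fam) (l j ρ : ℕ) : NE (X.grd a l j ρ) := by
  rcases a with ⟨_, _ | _, _⟩ | _ <;> simp [NE, grd]

theorem ne_gv (a : Fam) (l j ρ : ℕ) : NE (X.gv a l j ρ) := by
  unfold gv; split_ifs
  exacts [by simp [NE], ne_grd _ _ _ _]

theorem ne_y0v (l j : ℕ) : NE (X.y0v l j) := by unfold y0v; split_ifs <;> simp [NE]

theorem ne_yfv (l j : ℕ) : NE (yfv l j) := by unfold yfv; split_ifs <;> simp [NE]

theorem ev_eq {a a' : Fam} {p j ρ p' j' ρ' : ℕ} (h : XV.e a' p' j' ρ' = X.ev a p j ρ) :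
    a' = a ∧ p' = p ∧ j' = j ∧ ρ' = ρ ∧ p ≠ X.N * X.r := by
  unfold ev at h; split_ifs at h with h1 h2
  · exact absurd h.symm (ne_src _ _ _ _ _ _ _)
  · exact absurd h.symm (ne_dst _ _ _ _ _ _ _)
  · simpa [h2] using h

theorem val_ev (h : X.Ok) (Hd : XV → ZMod 2) {τ : Fam → ℕ} {a : Fam} (ha : τ a < X.N) (p j ρ : ℕ) :
    X.val Hd τ (X.ev a p j ρ) = X.val Hd τ (.e a p j ρ) := by
  have hr := h.two_le_r
  unfold ev; split_ifs with h1 h2
  · rw [val_ne (ne_src _ _ _)]; simp [h1, val, pv, cp]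
  · rw [val_ne (ne_dst _ _ _)]
    simp [h2, val, pv, cp, Nat.mul_div_cancel _ (show 0 < X.r by omega), ha]
  · rfl

theorem succ_div_mod {r : ℕ} (hr : 0 < r) (p : ℕ) :
    ((p + 1) / r = p / r ∧ (p + 1) % r = p % r + 1) ∨
      ((p + 1) / r = p / r + 1 ∧ (p + 1) % r = 0 ∧ p % r + 1 = r) := by
  have h1 := Nat.mod_lt p hr
  have h2 := Nat.mod_add_div p r
  by_cases h : p % r + 1 = r
  · have := (Nat.div_mod_unique (a := p + 1) (c := 0) (d := p / r + 1) hr).2 ⟨by rw [mul_add]; omega, hr⟩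
    exact .inr ⟨this.1, this.2, h⟩
  · exact .inl ((Nat.div_mod_unique hr).2 ⟨by omega, by omega⟩)

theorem z2 (a : ZMod 2) : a + a = 0 := by revert a; decide

theorem pv_succ (hr : 0 < X.r) (a : Fam) (p : ℕ) {l : ℕ} (hl : l < X.r) :
    X.pv a (p + 1) l = X.pv a p l +
      if l = p % X.r then X.cp a (p / X.r) l + X.cp a (p / X.r + 1) l else 0 := by
  unfold pv
  rcases succ_div_mod hr p with ⟨h1, h2⟩ | ⟨h1, h2, h3⟩ <;> rw [h1, h2] <;>
    split_ifs <;> first | omega | simp [← add_assoc, z2]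

theorem val_gv (Hd : XV → ZMod 2) (τ : Fam → ℕ) (a : Fam) (p j ρ : ℕ) :
    X.val Hd τ (X.gv a p j ρ) = (X.cp a (p / X.r) (p % X.r) + X.cp a (p / X.r + 1) (p % X.r)) *
      X.bval Hd (X.grd a (p % X.r) j ρ) := by
  unfold gv; split_ifs with h
  · simp [h, z2, val, bval]
  · have : ∀ a b : ZMod 2, a ≠ b → a + b = 1 := by decide
    rw [this _ _ h, one_mul, val_ne (ne_grd _ _ _ _)]

end XS

open XS

theorem validZ_of_occ (h : X.Ok) {v : XV} (hv : Occ X.cons v) : X.ValidZ {v} := by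
  intro a pos j ρ hm
  obtain rfl := mem_singleton.1 hm
  obtain ⟨c, hc, hv⟩ := hv
  rcases List.mem_cons.1 hc with rfl | hc
  · simp at hv
  rcases (X.mem_rest c).1 hc with rfl | ⟨l, -, i, -, rfl⟩ | ⟨l, -, i, -, rfl⟩ |
    ⟨a', j', ρ', h1, p, hp, rfl⟩
  · simp at hv
  · simp [(ne_y0v _ _ _ _ _ _).symm] at hv
  · simp [(ne_yfv _ _ _ _ _ _).symm] at hv
  · rcases hv with hv | hv | hv
    · obtain ⟨rfl, rfl, rfl, rfl, -⟩ := ev_eq hv
      exact ⟨h1, hp⟩
    · exact absurd hv.symm (ne_gv _ _ _ _ _ _ _ _)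
    · obtain ⟨rfl, rfl, rfl, rfl, h2⟩ := ev_eq (p := p + 1) hv
      exact ⟨h1, by omega⟩

theorem x_sat (h : X.Ok) {A : Finset ℤ} (hA : (0 : ℤ) ∈ A) {Hd : XV → ZMod 2} {τ : Fam → ℕ}
    {Z : Finset XV} (hI : X.InvA A Hd) (hO : X.vx Hd X.H.qf 0 0 = 1) (hF : X.Free Z τ) :
    Sat X.cons 1 Z (X.val Hd τ) := by
  have hr := h.two_le_r
  refine (sat_cons _ _ _ _ _).2 ⟨fun _ _ _ => ?_, fun c hc => ?_⟩
  · simpa [val, bval, vx, res_zero] using hO
  rcases (X.mem_rest c).1 hc with rfl | ⟨l, -, i, hi, rfl⟩ | ⟨l, -, i, -, rfl⟩ |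
    ⟨a, j, ρ, h1, p, hp, rfl⟩
  · simp [val, bval]
  · have : ∀ i, X.val Hd τ (X.y0v l i) = ∑ j ∈ range i, Hd (.x X.H.q0 l j 0) := by
      intro i
      unfold y0v; split_ifs with h
      · rcases h with rfl | rfl
        · rfl
        · simpa [vx, res_zero, val, bval] using ((hI 0 hA).1 _ l Der.init).symm
      · rfl
    intro _ _ _
    simp only [this, sum_range_succ]
    exact z2 _
  · have : ∀ i, X.val Hd τ (yfv l i) = ∑ j ∈ range i, Hd (.x X.H.qf l j 0) := by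
      intro i
      unfold yfv; split_ifs with h
      · subst h; rfl
      · rfl
    intro _ _ _
    simp only [this, sum_range_succ]
    exact z2 _
  · intro hZ _ _
    have hs : (p + 1) / X.r ≤ τ a ↔ p / X.r ≤ τ a := by
      rcases succ_div_mod (show 0 < X.r by omega) p with ⟨h1, -⟩ | ⟨h1, -, h3⟩
      · rw [h1]
      · have h0 : p ≠ 0 := by rintro rfl; simp at h3; omega
        simp only [ev, h0, hp.ne, if_false] at hZ
        have := (hF a).2 _ _ _ hZ
        omega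
    simp only [val_ev h Hd (hF a).1, val_gv]
    simp only [val, hs]
    rw [sum_congr (f := fun l => X.pv a (p + 1) l * _) rfl fun l hl => by
      rw [pv_succ (by omega) a p (mem_range.1 hl), add_mul]]
    simp only [sum_add_distrib, ite_mul, zero_mul, sum_ite_eq', mem_range,
      Nat.mod_lt p (show 0 < X.r by omega), if_true]
    rw [add_assoc _ (∑ _ ∈ _, _)]
    exact z2 _

theorem val_local {Hd Hd' : XV → ZMod 2} (τ : Fam → ℕ) (u : XV)
    (hx : ∀ q l j ρ, ((j, ρ) ∈ X.touches u ∨ ρ = 0) → Hd' (.x q l j ρ) = Hd (.x q l j ρ))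
    (hm : ∀ i l j ρ, (j, ρ) ∈ X.touches u → Hd' (.mu i l j ρ) = Hd (.mu i l j ρ)) :
    X.val Hd' τ u = X.val Hd τ u := by
  rcases u with _ | _ | _ | ⟨⟨_, _ | _, _⟩ | _, _, _, _⟩ | _ | _ <;>
    simp only [touches, sh] at hx hm <;> simp [val, bval, src, dst, grd, hx, hm]

open Classical in
theorem init_state (h : X.Ok) (hn : ¬ Der X.H X.H.qf 0) :
    ∃ Hd, X.InvA {0} Hd ∧ X.vx Hd X.H.qf 0 0 = 1 := by
  let Hd : XV → ZMod 2 := fun u => match u with
    | .x q l j _ => if j = 0 then if q = X.H.qf ∧ l = 0 then 1 else 0 else 0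
    | .mu i l j _ => if j = 0 then if Der X.H (X.rl i).in1 (0 + (X.rl i).sh1) then 0 else
        if (X.rl i).out = X.H.qf ∧ l = 0 then 1 else 0 else 0
    | _ => 0
  have h1 : ∀ q l c, X.vx Hd q l c = if q = X.H.qf ∧ l = 0 then 1 else 0 := by
    intro q l c; simp only [vx, Hd, sum_ite_eq', mem_range, h.1, if_true]
  refine ⟨Hd, fun c hc => ?_, by simp [h1]⟩
  obtain rfl := mem_singleton.1 hc
  refine ⟨fun q l hq => ?_, fun i _ l => ?_⟩
  · rw [h1, if_neg]; rintro ⟨rfl, -⟩; exact hn hq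
  · simp only [h1, vmu, Hd, sum_ite_eq', mem_range, h.1, if_true]

end XIn

end Crest.Agent.R290
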