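import Crest.Agent.R290.XVec
import Crest.Agent.R290.XSat

/-!
# Row 290, task XAct: activation of new addresses

Plan.  Induction over the new addresses, one at a time (prove: for every `A''` with
`A ⊆ A'' ⊆ A'`, or induct on the finset `A' \ A`).  For a new `c` take `j` from `exists_private` (for
`A'`, `J = tchS Z c`), `ρ = res j c` (`≠ 0 = res j 0` as `0 ∈ A`, `c ≠ 0`), and change `Hd` only at
`x q l j ρ` (add `vx Hd q l c` if `Der q c`) and then at `mu i l j ρ` (add what is needed).  Other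
addresses of `A'` do not see `(j, ρ)`; `Z` does not touch it (`val_local`).
-/

set_option autoImplicit false

namespace Crest.Agent.R290

open Finset

namespace XIn

variable {X : XIn}

theorem XAct_sum {f f' : ℕ → ZMod 2} {j₀ : ℕ} (hj : j₀ < X.s) {d : ZMod 2}
    (h0 : f' j₀ = f j₀ + d) (h : ∀ j, j ≠ j₀ → f' j = f j) :
    ∑ j ∈ range X.s, f' j = ∑ j ∈ range X.s, f j + d := by
  rw [← add_sum_erase _ _ (mem_range.2 hj), ← add_sum_erase _ f (mem_range.2 hj), h0,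
    sum_congr rfl fun j hj => h j (ne_of_mem_erase hj), add_right_comm]

open Classical in
theorem XAct_step {A : Finset ℤ} {c : ℤ} {j₀ : ℕ} (hj : j₀ < X.s)
    (hp : ∀ c' ∈ A, X.res j₀ c' ≠ X.res j₀ c) {Hd : XV → ZMod 2} (hI : X.InvA A Hd) :
    ∃ Hd', X.InvA (insert c A) Hd' ∧
      (∀ q l j ρ, (j, ρ) ≠ (j₀, X.res j₀ c) → Hd' (.x q l j ρ) = Hd (.x q l j ρ)) ∧
      ∀ i l j ρ, (j, ρ) ≠ (j₀, X.res j₀ c) → Hd' (.mu i l j ρ) = Hd (.mu i l j ρ) := by
  let dx : Sg → ℕ → ZMod 2 := fun q l => if Der X.H q c then -X.vx Hd q l c else 0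
  let dm : ℕ → ℕ → ZMod 2 := fun i l => (if Der X.H (X.rl i).in1 (c + (X.rl i).sh1) then 0
    else X.vx Hd (X.rl i).out l c + dx (X.rl i).out l) - X.vmu Hd i l c
  let Hd' : XV → ZMod 2 := fun u => match u with
    | .x q l j ρ => Hd u + if (j, ρ) = (j₀, X.res j₀ c) then dx q l else 0
    | .mu i l j ρ => Hd u + if (j, ρ) = (j₀, X.res j₀ c) then dm i l else 0
    | u => Hd u
  have hx : ∀ q l j ρ, (j, ρ) ≠ (j₀, X.res j₀ c) → Hd' (.x q l j ρ) = Hd (.x q l j ρ) :=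
    fun q l j ρ h => by simp only [Hd', if_neg h, add_zero]
  have hm : ∀ i l j ρ, (j, ρ) ≠ (j₀, X.res j₀ c) → Hd' (.mu i l j ρ) = Hd (.mu i l j ρ) :=
    fun i l j ρ h => by simp only [Hd', if_neg h, add_zero]
  refine ⟨Hd', fun c' hc' => ?_, hx, hm⟩
  rcases mem_insert.1 hc' with rfl | hc'
  · have e1 : ∀ q l, X.vx Hd' q l c' = X.vx Hd q l c' + dx q l := fun q l =>
      XAct_sum hj (by simp only [Hd', if_true]) fun j h => hx _ _ _ _ fun e => h (Prod.ext_iff.1 e).1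
    have e2 : ∀ i l, X.vmu Hd' i l c' = X.vmu Hd i l c' + dm i l := fun i l =>
      XAct_sum hj (by simp only [Hd', if_true]) fun j h => hm _ _ _ _ fun e => h (Prod.ext_iff.1 e).1
    refine ⟨fun q l hq => ?_, fun i _ l => ?_⟩
    · simp only [e1, dx, if_pos hq, add_neg_cancel]
    · simp only [e1, e2, dm, add_sub_cancel]
  · have hne : ∀ j, (j, X.res j c') ≠ (j₀, X.res j₀ c) := fun j e => by
      obtain ⟨rfl, e⟩ := Prod.ext_iff.1 e
      exact hp c' hc' e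
    have e1 : ∀ q l, X.vx Hd' q l c' = X.vx Hd q l c' := fun q l =>
      sum_congr rfl fun j _ => hx _ _ _ _ (hne j)
    have e2 : ∀ i l, X.vmu Hd' i l c' = X.vmu Hd i l c' := fun i l =>
      sum_congr rfl fun j _ => hm _ _ _ _ (hne j)
    simp only [e1, e2]
    exact hI c' hc'

theorem activate {B e : ℕ} (h : X.DOk B e) {A A' : Finset ℤ} (hA : A ⊆ A') (hA' : A' ⊆ Rng B)
    (hc : A'.card ≤ 32) (h0 : (0 : ℤ) ∈ A) {Z : Finset XV}
    (hn : ∀ c ∈ A', c ∉ A → 2 * (X.tchS Z c).card < X.s) {Hd : XV → ZMod 2} (hI : X.InvA A Hd) :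
    ∃ Hd', X.InvA A' Hd' ∧ X.vx Hd' X.H.qf 0 0 = X.vx Hd X.H.qf 0 0 ∧
      ∀ τ, ∀ u ∈ Z, X.val Hd' τ u = X.val Hd τ u := by
  have key : ∀ D : Finset ℤ, D ⊆ A' \ A → ∃ Hd', X.InvA (D ∪ A) Hd' ∧
      X.vx Hd' X.H.qf 0 0 = X.vx Hd X.H.qf 0 0 ∧ ∀ τ, ∀ u ∈ Z, X.val Hd' τ u = X.val Hd τ u := by
    intro D
    induction D using Finset.induction_on with
    | empty => exact fun _ => ⟨Hd, by rwa [empty_union], rfl, fun _ _ _ => rfl⟩
    | insert c D hcD ih =>
      intro hD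
      obtain ⟨H₁, i1, i2, i3⟩ := ih ((subset_insert _ _).trans hD)
      obtain ⟨c1, c2⟩ := mem_sdiff.1 (hD (mem_insert_self _ _))
      obtain ⟨j₀, j1, j2, j3⟩ := exists_private h hA' hc (hA' c1) _ (hn c c1 c2)
      obtain ⟨H₂, k1, k2, k3⟩ := XAct_step (c := c) j1 (fun c' hc' => by
        rcases mem_union.1 hc' with hc' | hc'
        · exact j3 c' (mem_sdiff.1 (hD (mem_insert_of_mem hc'))).1 fun e => hcD (e ▸ hc')
        · exact j3 c' (hA hc') fun e => c2 (e ▸ hc')) i1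
      have z : ∀ j, (j, 0) ≠ (j₀, X.res j₀ c) := fun j e =>
        j3 0 (hA h0) (fun e => c2 (e ▸ h0)) ((res_zero j₀).trans (Prod.ext_iff.1 e).2)
      refine ⟨H₂, by rwa [insert_union], ?_, fun τ u hu => ?_⟩
      · rw [← i2]
        exact sum_congr rfl fun j _ => k2 _ _ _ _ (by rw [res_zero]; exact z j)
      · have t : ∀ j ρ, (j, ρ) ∈ X.touches u → (j, ρ) ≠ (j₀, X.res j₀ c) := fun j ρ ht e =>
          j2 (mem_filter.2 ⟨mem_range.2 j1, u, hu, e ▸ ht⟩)
        rw [← i3 τ u hu]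
        refine val_local τ u (fun q l j ρ ht => k2 _ _ _ _ ?_) fun i l j ρ ht => k3 _ _ _ _ (t j ρ ht)
        rcases ht with ht | rfl
        exacts [t j ρ ht, z j]
  simpa only [sdiff_union_of_subset hA] using key _ subset_rfl

end XIn

end Crest.Agent.R290
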