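import Crest.Agent.R290.DupDefs

/-!
# Row 290, task XVec: checkpoint vectors, counting of active addresses, private registers

Plan.
* `num_lt`, `num_inj`: `num a = l + r * (index < F)`, and `r * F * N = om * om`
  (`r = G (w+1)² om`, `om = N G (w+1)² F`); `p j ≤ P`.
* `exists_delta`: for `u ∈ U` write `u = (i₁, i₂) = (u / om, u % om)`.  Two distinct indices agree at
  (`i₁ + σ i₂ = i₁' + σ i₂'`) at most one slope `σ`; as `U.card ≤ w < w + 1`, each `u ∈ U` has a slope
  `σ u ≤ w` at which it differs from all other members of `U`.  Its private coordinate is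
  `l u = g * n' + σ u * Y + (i₁ + σ u * i₂)` (`i₁ + σ i₂ < Y`, `l u < r`, `l u / n' = g`), with
  `cpv u' (l u) = [u' = u]` for `u' ∈ U`.  Put `δ l = ∑ u ∈ T, [l = l u]`.
* `card_Act_le`: the touched pairs `⋃ u ∈ Z, touches u` are at most `2 * 7 s = 14 s`.  If 32 distinct
  addresses of `Rng B` each had `≥ s / 2` touched registers, the sets
  `{(j, res j c) | j ∈ tchS Z c}` (pairwise meeting in `≤ e` elements by `Sep` and `res_eq_iff`) would
  cover `≥ 16 s - C(32,2) e = 16 s - 496 e > 14 s` pairs (Bonferroni by induction: adding the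
  `(n+1)`-st set adds at least `s/2 - n e` new elements).  So the filter has `≤ 31` elements.
* `exists_private`: the bad registers are `J` and, for each of the `≤ 31` (or 32) other addresses, at
  most `e` registers; `J.card + 32 e < s`.
-/

set_option autoImplicit false

namespace Crest.Agent.R290

open Finset

namespace XIn

variable {X : XIn}

theorem XVec_mix_lt {m a b n : ℕ} (hb : b < m) (ha : a < n) : a * m + b < n * m := by nlinarith

theorem XVec_mix_div {m b : ℕ} (a : ℕ) (hb : b < m) : (a * m + b) / m = a := by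
  rw [add_comm, Nat.add_mul_div_right _ _ (by omega), Nat.div_eq_of_lt hb, zero_add]

theorem XVec_mix_mod {m b : ℕ} (a : ℕ) (hb : b < m) : (a * m + b) % m = b := by
  rw [add_comm, Nat.add_mul_mod_self_right, Nat.mod_eq_of_lt hb]

theorem XVec_mix_inj {m a b a' b' : ℕ} (hb : b < m) (hb' : b' < m) (h : a * m + b = a' * m + b') :
    a = a' ∧ b = b' :=
  ⟨by rw [← XVec_mix_div a hb, h, XVec_mix_div a' hb'],
    by rw [← XVec_mix_mod a hb, h, XVec_mix_mod a' hb']⟩

theorem XVec_p_le {j : ℕ} (hj : j < X.s) : X.p j ≤ X.P := by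
  unfold p P
  rw [List.getD_eq_getElem _ _ hj]
  exact List.single_le_sum (by simp) _ (List.getElem_mem hj)

theorem num_lt (_h : X.Ok) {a : Fam} {j ρ t : ℕ} (ha : (a, j, ρ) ∈ X.chains) (ht : t < X.N) :
    X.num a * X.N + t < X.om * X.om := by
  have e : X.om * X.om = X.F * X.r * X.N := by
    conv_lhs => rw [show X.om * X.om = X.om * (X.N * X.G * (X.w + 1) ^ 2 * X.F) from rfl]
    unfold r n' Y
    ring
  rw [e]
  refine XVec_mix_lt ht ?_
  cases a with
  | rule i part l =>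
    obtain ⟨h1, h2, -⟩ := (X.mem_chains_rule _ _ _ _ _).1 ha
    rw [num, add_comm, mul_comm]
    refine XVec_mix_lt h2 ?_
    have := Bool.toNat_le part
    unfold F
    omega
  | reset qi l j₀ ρ₀ =>
    obtain ⟨h1, h2, h3, h4, rfl, rfl⟩ := (X.mem_chains_reset _ _ _ _ _ _).1 ha
    rw [num, add_comm, mul_comm]
    exact XVec_mix_lt h2 (Nat.add_lt_add_left
      (XVec_mix_lt (h4.trans_le (XVec_p_le h3)) (XVec_mix_lt h3 h1)) _)

theorem num_inj (_h : X.Ok) {a a' : Fam} {j ρ j' ρ' : ℕ} (ha : (a, j, ρ) ∈ X.chains)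
    (ha' : (a', j', ρ') ∈ X.chains) (he : X.num a = X.num a') : a = a' := by
  have key : ∀ {l k l' k' : ℕ}, l < X.r → l' < X.r → l + X.r * k = l' + X.r * k' →
      k = k' ∧ l = l' := fun h1 h2 h => XVec_mix_inj h1 h2 (by linarith)
  cases a with
  | rule i part l =>
    obtain ⟨h1, h2, -⟩ := (X.mem_chains_rule _ _ _ _ _).1 ha
    cases a' with
    | rule i' part' l' =>
      obtain ⟨h1', h2', -⟩ := (X.mem_chains_rule _ _ _ _ _).1 ha'
      obtain ⟨e1, rfl⟩ := key h2 h2' he
      cases part <;> cases part' <;> simp at e1 ⊢ <;> omega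
    | reset qi' l' j₀' ρ₀' =>
      obtain ⟨-, h2', -⟩ := (X.mem_chains_reset _ _ _ _ _ _).1 ha'
      obtain ⟨e1, -⟩ := key h2 h2' he
      have := Bool.toNat_le part
      omega
  | reset qi l j₀ ρ₀ =>
    obtain ⟨h1, h2, h3, h4, rfl, rfl⟩ := (X.mem_chains_reset _ _ _ _ _ _).1 ha
    cases a' with
    | rule i' part' l' =>
      obtain ⟨h1', h2', -⟩ := (X.mem_chains_rule _ _ _ _ _).1 ha'
      obtain ⟨e1, -⟩ := key h2 h2' he
      have := Bool.toNat_le part'
      omega
    | reset qi' l' j₀' ρ₀' =>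
      obtain ⟨h1', h2', h3', h4', rfl, rfl⟩ := (X.mem_chains_reset _ _ _ _ _ _).1 ha'
      obtain ⟨e1, rfl⟩ := key h2 h2' he
      obtain ⟨e2, rfl⟩ := XVec_mix_inj (h4.trans_le (XVec_p_le h3)) (h4'.trans_le (XVec_p_le h3'))
        (Nat.add_left_cancel e1)
      obtain ⟨rfl, rfl⟩ := XVec_mix_inj h3 h3' e2
      rfl

theorem XVec_slope {U : Finset ℕ} {w m : ℕ} (hc : U.card ≤ w) (u : ℕ) :
    ∃ σ ≤ w, ∀ u' ∈ U, u' ≠ u → u / m + σ * (u % m) ≠ u' / m + σ * (u' % m) := by
  by_contra hn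
  push Not at hn
  choose! f hf using hn
  have := card_le_card_of_injOn (s := range (w + 1)) (t := U) f
    (fun σ hσ => (hf σ (Nat.lt_succ_iff.1 (mem_range.1 hσ))).1) fun σ hσ σ' hσ' e => by
      obtain ⟨-, h1, h2⟩ := hf σ (Nat.lt_succ_iff.1 (mem_range.1 hσ))
      obtain ⟨-, -, h3⟩ := hf σ' (Nat.lt_succ_iff.1 (mem_range.1 hσ'))
      rw [← e] at h3
      by_contra hne
      have h4 : ((σ : ℤ) - σ') * (((u % m : ℕ) : ℤ) - (f σ % m : ℕ)) = 0 := by
        zify at h2 h3
        push_cast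
        linarith
      have h5 : u % m = f σ % m := by
        rcases mul_eq_zero.1 h4 with h | h <;> omega
      rw [h5] at h2
      exact h1 (by rw [← Nat.div_add_mod u m, ← Nat.div_add_mod (f σ) m, h5, Nat.add_right_cancel h2])
  rw [card_range] at this
  omega

theorem exists_delta (h : X.Ok) (U T : Finset ℕ) (hU : ∀ u ∈ U, u < X.om * X.om)
    (hc : U.card ≤ X.w) (hT : T ⊆ U) {g : ℕ} (hg : g < X.G) :
    ∃ δ : ℕ → ZMod 2, (∀ l, l / X.n' ≠ g → δ l = 0) ∧
      ∀ u ∈ U, ∑ l ∈ range X.r, X.cpv u l * δ l = if u ∈ T then 1 else 0 := by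
  have key : ∀ u ∈ U, ∃ l, l < X.r ∧ l / X.n' = g ∧
      ∀ u' ∈ U, X.cpv u' l = if u' = u then 1 else 0 := fun u hu => by
    obtain ⟨σ, h1, h2⟩ := XVec_slope (m := X.om) hc u
    have h3 : u / X.om + σ * (u % X.om) < X.Y := by
      have a1 : u / X.om < X.om := Nat.div_lt_of_lt_mul (hU u hu)
      have a2 : σ * (u % X.om) ≤ X.w * X.om := Nat.mul_le_mul h1 (Nat.mod_lt _ h.om_pos).le
      unfold Y
      nlinarith
    have h4 : σ * X.Y + (u / X.om + σ * (u % X.om)) < X.n' := XVec_mix_lt h3 (Nat.lt_succ_of_le h1)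
    refine ⟨_, XVec_mix_lt h4 hg, XVec_mix_div _ h4, fun u' hu' => ?_⟩
    rw [cpv, XVec_mix_mod _ h4, XVec_mix_mod _ h3, XVec_mix_div _ h3]
    by_cases e : u' = u
    · rw [if_pos e, e, if_pos rfl]
    · rw [if_neg e, if_neg (h2 u' hu' e)]
  choose! L hL using key
  refine ⟨fun l => ∑ v ∈ T, if l = L v then 1 else 0, fun l hl => sum_eq_zero fun v hv => ?_,
    fun u hu => ?_⟩
  · exact if_neg fun e : l = L v => hl (e ▸ (hL v (hT hv)).2.1)
  · simp only [mul_sum, mul_ite, mul_one, mul_zero]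
    rw [sum_comm, ← sum_ite_eq T u fun _ => (1 : ZMod 2)]
    refine sum_congr rfl fun v hv => ?_
    rw [sum_ite_eq', if_pos (mem_range.2 (hL v (hT hv)).1), (hL v (hT hv)).2.2 u hu]

theorem XVec_sep {B e : ℕ} (h : X.DOk B e) {c c' : ℤ} (hc : c ∈ Rng B) (hc' : c' ∈ Rng B)
    (hne : c ≠ c') : ((range X.s).filter fun j => X.res j c = X.res j c').card ≤ e := by
  simp only [h.ok.res_eq_iff]
  refine h.sep _ (sub_ne_zero.2 hne) ?_
  simp only [Rng, mem_Icc] at hc hc'
  rw [abs_le]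
  push_cast
  omega

theorem XVec_bonf {β γ : Type} [DecidableEq β] [DecidableEq γ] (S : β → Finset γ) {s e : ℕ}
    (A : Finset β) (h1 : ∀ c ∈ A, s ≤ 2 * (S c).card)
    (h2 : ∀ c ∈ A, ∀ c' ∈ A, c ≠ c' → (S c ∩ S c').card ≤ e) :
    A.card * s + A.card * e ≤ 2 * (A.biUnion S).card + A.card ^ 2 * e := by
  induction A using Finset.induction_on with
  | empty => simp
  | insert c A hc ih =>
    have a1 := ih (fun c' h => h1 c' (mem_insert_of_mem h))
      fun c' h c'' h' => h2 c' (mem_insert_of_mem h) c'' (mem_insert_of_mem h')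
    have a2 := h1 c (mem_insert_self _ _)
    have a3 := card_union_add_card_inter (S c) (A.biUnion S)
    have a4 : (S c ∩ A.biUnion S).card ≤ A.card * e := by
      rw [inter_biUnion]
      exact card_biUnion_le_card_mul _ _ _ fun c' h =>
        h2 c (mem_insert_self _ _) c' (mem_insert_of_mem h) fun e => hc (e ▸ h)
    rw [card_insert_of_notMem hc, biUnion_insert]
    nlinarith

theorem card_Act_le {B e : ℕ} (h : X.DOk B e) {Z : Finset XV} (hZ : Z.card ≤ X.w) :
    (X.Act B Z).card ≤ 32 := by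
  refine (card_insert_le _ _).trans (Nat.succ_le_of_lt ?_)
  by_contra hn
  obtain ⟨A, hA, hc⟩ := exists_subset_card_eq (not_lt.1 hn)
  have a1 := XVec_bonf (fun c => (X.tchS Z c).image fun j => (j, X.res j c)) (s := X.s) (e := e) A
    (fun c hc => by
      rw [card_image_of_injective _ fun j j' e => (Prod.ext_iff.1 e).1]
      exact (mem_filter.1 (hA hc)).2)
    fun c hc c' hc' hne => by
      refine le_trans ?_ (XVec_sep h (mem_filter.1 (hA hc)).1 (mem_filter.1 (hA hc')).1 hne)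
      refine le_trans (card_le_card ?_) (card_image_le (f := fun j => (j, X.res j c)))
      intro x hx
      obtain ⟨h1, h2⟩ := mem_inter.1 hx
      obtain ⟨j, hj, rfl⟩ := mem_image.1 h1
      obtain ⟨j', -, e⟩ := mem_image.1 h2
      obtain ⟨rfl, e2⟩ := Prod.ext_iff.1 e
      exact mem_image_of_mem _ (mem_filter.2 ⟨(mem_filter.1 hj).1, e2.symm⟩)
  have a2 : (A.biUnion fun c => (X.tchS Z c).image fun j => (j, X.res j c)).card ≤ Z.card * 2 := by
    refine le_trans (card_le_card ?_) (card_biUnion_le_card_mul Z X.touches 2 fun u _ => ?_)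
    · intro x hx
      obtain ⟨c, -, hx⟩ := mem_biUnion.1 hx
      obtain ⟨j, hj, rfl⟩ := mem_image.1 hx
      exact mem_biUnion.2 (mem_filter.1 hj).2
    · rcases u with _ | _ | _ | ⟨_ | _, _⟩ | _ | _ <;> simp [touches, card_le_two]
  have a3 := h.es
  have a4 := h.ok.1
  rw [hc] at a1
  unfold w at hZ
  omega

theorem exists_private {B e : ℕ} (h : X.DOk B e) {A : Finset ℤ} (hA : A ⊆ Rng B) (hc : A.card ≤ 32)
    {c : ℤ} (hcR : c ∈ Rng B) (J : Finset ℕ) (hJ : 2 * J.card < X.s) :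
    ∃ j < X.s, j ∉ J ∧ ∀ c' ∈ A, c' ≠ c → X.res j c' ≠ X.res j c := by
  have a1 : ((A.erase c).biUnion fun c' =>
      (range X.s).filter fun j => X.res j c' = X.res j c).card ≤ (A.erase c).card * e :=
    card_biUnion_le_card_mul _ _ _ fun c' hc' =>
      XVec_sep h (hA (mem_of_mem_erase hc')) hcR (ne_of_mem_erase hc')
  have a2 : (A.erase c).card * e ≤ 32 * e := Nat.mul_le_mul_right _ (card_erase_le.trans hc)
  have a3 := h.es
  obtain ⟨j, h1, h2⟩ := exists_mem_notMem_of_card_lt_card (t := range X.s)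
    (((card_union_le J _).trans (Nat.add_le_add_left (a1.trans a2) _)).trans_lt
      (by rw [card_range]; omega))
  rw [mem_union, not_or] at h2
  exact ⟨j, mem_range.1 h1, h2.1, fun c' hc' hne e =>
    h2.2 (mem_biUnion.2 ⟨c', mem_erase.2 ⟨hne, hc'⟩, mem_filter.2 ⟨h1, e⟩⟩)⟩

end XIn

end Crest.Agent.R290
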